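import Mathlib.LinearAlgebra.Finsupp.LinearCombination
import Mathlib.Data.Real.Basic
import Mathlib.Tactic

/-!
Ordered chains on lists, cones, barycentric subdivision and the prism homotopy.
-/

namespace Vale.Agent.P184

section Basic

variable {α β : Type*} {N : Type*} [AddCommGroup N] [Module ℝ N]

/-- chains -/
abbrev Ch (α : Type*) := List α →₀ ℝ

noncomputable def sg (l : List α) : Ch α := Finsupp.single l 1

noncomputable def lft (f : List α → N) : Ch α →ₗ[ℝ] N := Finsupp.linearCombination ℝ f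

@[simp] lemma lft_sg (f : List α → N) (l : List α) : lft f (sg l) = f l := by
  simp [lft, sg]

lemma ch_ext {f g : Ch α →ₗ[ℝ] N} (h : ∀ l, f (sg l) = g (sg l)) : f = g := by
  apply Finsupp.lhom_ext'
  intro l
  apply LinearMap.ext_ring
  exact h l

/-- span of the lists with a property -/
noncomputable def Sup (P : List α → Prop) : Submodule ℝ (Ch α) :=
  Submodule.span ℝ (sg '' {l | P l})

lemma sg_mem_Sup {P : List α → Prop} {l : List α} (h : P l) : sg l ∈ Sup P :=
  Submodule.subset_span ⟨l, h, rfl⟩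

lemma Sup_map {P : List α → Prop} (f : Ch α →ₗ[ℝ] N) (S : Submodule ℝ N)
    (h : ∀ l, P l → f (sg l) ∈ S) {c : Ch α} (hc : c ∈ Sup P) : f c ∈ S := by
  have : Sup P ≤ S.comap f := by
    apply Submodule.span_le.2
    rintro _ ⟨l, hl, rfl⟩
    exact h l hl
  exact this hc

lemma Sup_ext {P : List α → Prop} (f g : Ch α →ₗ[ℝ] N)
    (h : ∀ l, P l → f (sg l) = g (sg l)) {c : Ch α} (hc : c ∈ Sup P) : f c = g c := by
  have := Sup_map (f - g) ⊥ (fun l hl => by simp [h l hl]) hc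
  simpa [sub_eq_zero] using this

lemma Sup_mono {P Q : List α → Prop} (h : ∀ l, P l → Q l) {c : Ch α} (hc : c ∈ Sup P) :
    c ∈ Sup Q :=
  Sup_map LinearMap.id _ (fun l hl => sg_mem_Sup (h l hl)) hc

lemma mem_Sup_true (c : Ch α) : c ∈ Sup (fun _ => True) := by
  induction c using Finsupp.induction_linear with
  | zero => exact Submodule.zero_mem _
  | add f g hf hg => exact Submodule.add_mem _ hf hg
  | single l r =>
    have : Finsupp.single l r = r • sg l := by simp [sg]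
    rw [this]
    exact Submodule.smul_mem _ _ (sg_mem_Sup trivial)

noncomputable def cns (a : α) : Ch α →ₗ[ℝ] Ch α := lft fun l => sg (a :: l)

@[simp] lemma cns_sg (a : α) (l : List α) : cns a (sg l) = sg (a :: l) := by simp [cns]

noncomputable def bd0 : List α → Ch α
  | [] => 0
  | a :: l => sg l - cns a (bd0 l)

noncomputable def bd : Ch α →ₗ[ℝ] Ch α := lft bd0

lemma bd_sg (l : List α) : bd (sg l) = bd0 l := by simp [bd]

@[simp] lemma bd_nil : bd (sg ([] : List α)) = 0 := by simp [bd, bd0]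

lemma bd_cns (a : α) (c : Ch α) : bd (cns a c) = c - cns a (bd c) := by
  have : bd ∘ₗ cns a = LinearMap.id - cns a ∘ₗ (bd : Ch α →ₗ[ℝ] Ch α) := by
    apply ch_ext
    intro l
    simp [bd_sg, bd0]
  exact DFunLike.congr_fun this c

lemma bd_cons (a : α) (l : List α) : bd (sg (a :: l)) = sg l - cns a (bd (sg l)) := by
  rw [← cns_sg, bd_cns]

lemma bd_bd (c : Ch α) : bd (bd c) = 0 := by
  have : ∀ l : List α, bd (bd (sg l)) = 0 := by
    intro l
    induction l with
    | nil => simp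
    | cons a l ih => rw [bd_cons, map_sub, bd_cns, ih]; simp
  have h2 : (bd : Ch α →ₗ[ℝ] Ch α) ∘ₗ bd = 0 := ch_ext this
  exact DFunLike.congr_fun h2 c

lemma bd_mem (l : List α) :
    bd (sg l) ∈ Sup (fun l' : List α => l'.length + 1 = l.length ∧ l' ⊆ l) := by
  induction l with
  | nil => simp
  | cons a l ih =>
    rw [bd_cons]
    refine Submodule.sub_mem _ (sg_mem_Sup ⟨rfl, List.subset_cons_self _ _⟩) ?_
    refine Sup_map _ _ (fun l' hl' => ?_) ih
    rw [cns_sg]
    exact sg_mem_Sup ⟨by simp [hl'.1], List.cons_subset_cons _ hl'.2⟩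

lemma bd_eq_sum (l : List α) :
    bd (sg l) = ∑ i ∈ Finset.range l.length, (-1 : ℝ) ^ i • sg (l.eraseIdx i) := by
  induction l with
  | nil => simp
  | cons a l ih =>
    rw [bd_cons, ih, List.length_cons, Finset.sum_range_succ', map_sum]
    simp only [List.eraseIdx_cons_succ, pow_succ, map_smul, cns_sg, List.eraseIdx_zero,
      List.tail_cons, pow_zero, one_smul, mul_neg, mul_one, neg_smul, Finset.sum_neg_distrib]
    abel

noncomputable def mp (w : α → β) : Ch α →ₗ[ℝ] Ch β := lft fun l => sg (l.map w)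

@[simp] lemma mp_sg (w : α → β) (l : List α) : mp w (sg l) = sg (l.map w) := by simp [mp]

lemma mp_cns (w : α → β) (a : α) (c : Ch α) : mp w (cns a c) = cns (w a) (mp w c) := by
  have : mp w ∘ₗ cns a = cns (w a) ∘ₗ mp w := ch_ext fun l => by simp
  exact DFunLike.congr_fun this c

lemma mp_bd (w : α → β) (c : Ch α) : mp w (bd c) = bd (mp w c) := by
  have : ∀ l : List α, mp w (bd (sg l)) = bd (mp w (sg l)) := by
    intro l
    induction l with
    | nil => simp
    | cons a l ih =>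
      rw [bd_cons, map_sub, mp_cns, ih]
      simp [bd_cons]
  have h2 : mp w ∘ₗ bd = bd ∘ₗ mp w := ch_ext this
  exact DFunLike.congr_fun h2 c

lemma mp_mp {γ : Type*} (w : α → β) (w' : β → γ) (c : Ch α) :
    mp w' (mp w c) = mp (w' ∘ w) c := by
  have : mp w' ∘ₗ mp w = mp (w' ∘ w) := ch_ext fun l => by simp
  exact DFunLike.congr_fun this c

/-- adjacent transposition relation -/
noncomputable def gen (l1 : List α) (a c : α) (l2 : List α) : Ch α :=
  sg (l1 ++ a :: c :: l2) + sg (l1 ++ c :: a :: l2)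

noncomputable def Dn (α : Type*) (n : ℕ) : Submodule ℝ (Ch α) :=
  Submodule.span ℝ {x | ∃ l1 a c l2, l1.length + l2.length + 2 = n ∧ x = gen l1 a c l2}

noncomputable def DA (α : Type*) : Submodule ℝ (Ch α) :=
  Submodule.span ℝ {x | ∃ l1 a c l2, x = gen l1 a c l2}

lemma gen_mem_DA (l1 : List α) (a c : α) (l2 : List α) : gen l1 a c l2 ∈ DA α :=
  Submodule.subset_span ⟨l1, a, c, l2, rfl⟩

lemma DA_map (f : Ch α →ₗ[ℝ] N) (S : Submodule ℝ N)
    (h : ∀ l1 a c l2, f (gen l1 a c l2) ∈ S) {x : Ch α} (hx : x ∈ DA α) : f x ∈ S := by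
  have : DA α ≤ S.comap f := by
    apply Submodule.span_le.2
    rintro _ ⟨l1, a, c, l2, rfl⟩
    exact h l1 a c l2
  exact this hx

lemma Dn_map {n : ℕ} (f : Ch α →ₗ[ℝ] N) (S : Submodule ℝ N)
    (h : ∀ l1 a c l2, l1.length + l2.length + 2 = n → f (gen l1 a c l2) ∈ S) {x : Ch α}
    (hx : x ∈ Dn α n) : f x ∈ S := by
  have : Dn α n ≤ S.comap f := by
    apply Submodule.span_le.2
    rintro _ ⟨l1, a, c, l2, hn, rfl⟩
    exact h l1 a c l2 hn
  exact this hx

lemma cns_gen (x : α) (l1 : List α) (a c : α) (l2 : List α) :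
    cns x (gen l1 a c l2) = gen (x :: l1) a c l2 := by simp [gen]

lemma cns_DA (x : α) {y : Ch α} (hy : y ∈ DA α) : cns x y ∈ DA α :=
  DA_map _ _ (fun l1 a c l2 => by rw [cns_gen]; exact gen_mem_DA _ _ _ _) hy

lemma mp_DA (w : α → β) {y : Ch α} (hy : y ∈ DA α) : mp w y ∈ DA β :=
  DA_map _ _ (fun l1 a c l2 => by
    have : mp w (gen l1 a c l2) = gen (l1.map w) (w a) (w c) (l2.map w) := by simp [gen]
    rw [this]; exact gen_mem_DA _ _ _ _) hy

lemma bd_gen (l1 : List α) (a c : α) (l2 : List α) :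
    bd (gen l1 a c l2) ∈ Dn α (l1.length + l2.length + 1) := by
  induction l1 with
  | nil =>
    have h1 : bd (gen [] a c l2) = (cns a ∘ₗ cns c + cns c ∘ₗ cns a) (bd (sg l2)) := by
      simp only [gen, List.nil_append, map_add, bd_cons, map_sub, cns_sg, LinearMap.add_apply,
        LinearMap.comp_apply]
      abel
    rw [h1]
    refine Sup_map _ _ (fun l' hl' => ?_) (bd_mem l2)
    refine Submodule.subset_span ⟨[], a, c, l', ?_, by simp [gen]⟩
    have := hl'.1
    simp only [List.length_nil]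
    omega
  | cons x l1 ih =>
    rw [← cns_gen, bd_cns]
    refine Submodule.sub_mem _ (Submodule.subset_span ⟨l1, a, c, l2, ?_, rfl⟩) ?_
    · simp only [List.length_cons]; omega
    · refine Dn_map _ _ (fun l1' a' c' l2' h => ?_) ih
      rw [cns_gen]
      refine Submodule.subset_span ⟨x :: l1', a', c', l2', ?_, rfl⟩
      simp only [List.length_cons]; omega

end Basic

section Cone

variable {α β : Type*}

noncomputable def coneN (b : List α → α) (Z Y : Ch α →ₗ[ℝ] Ch α) (ε : ℝ) : ℕ → Ch α →ₗ[ℝ] Ch α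
  | 0 => Z
  | n + 1 => lft fun l => cns (b l) (Y (sg l) + ε • coneN b Z Y ε n (bd (sg l)))

noncomputable def cone (b : List α → α) (Z Y : Ch α →ₗ[ℝ] Ch α) (ε : ℝ) : Ch α →ₗ[ℝ] Ch α :=
  lft fun l => coneN b Z Y ε l.length (sg l)

variable (b : List α → α) (Z Y : Ch α →ₗ[ℝ] Ch α) (ε : ℝ)

lemma cone_nil : cone b Z Y ε (sg []) = Z (sg []) := by simp [cone, coneN]

lemma cone_ne (l : List α) (hl : l ≠ []) :
    cone b Z Y ε (sg l) = cns (b l) (Y (sg l) + ε • cone b Z Y ε (bd (sg l))) := by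
  obtain ⟨n, hn⟩ : ∃ n, l.length = n + 1 := ⟨l.length - 1, by
    have := List.length_pos_iff.2 hl; omega⟩
  have h1 : coneN b Z Y ε n (bd (sg l)) = cone b Z Y ε (bd (sg l)) := by
    refine Sup_ext _ _ (fun l' hl' => ?_) (bd_mem l)
    have : l'.length = n := by have := hl'.1; omega
    simp [cone, this]
  rw [← h1]
  simp [cone, hn, coneN]

/-- induction along the boundary -/
lemma bd_induction {P : List α → Prop} (h0 : P [])
    (h1 : ∀ l, l ≠ [] → (∀ l' : List α, l'.length + 1 = l.length → P l') → P l) (l : List α) :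
    P l := by
  have : ∀ n, ∀ l : List α, l.length = n → P l := by
    intro n
    induction n with
    | zero => intro l hl; rw [List.length_eq_zero_iff.1 hl]; exact h0
    | succ n ih =>
      intro l hl
      exact h1 l (by rintro rfl; simp at hl) (fun l' hl' => ih l' (by omega))
  exact this _ l rfl

lemma cone_DA (hb : ∀ l1 a c l2, b (l1 ++ a :: c :: l2) = b (l1 ++ c :: a :: l2))
    (hY : ∀ x ∈ DA α, Y x ∈ DA α) {x : Ch α} (hx : x ∈ DA α) : cone b Z Y ε x ∈ DA α := by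
  have key : ∀ n, ∀ x ∈ Dn α n, cone b Z Y ε x ∈ DA α := by
    intro n
    induction n with
    | zero => intro x hx; exact Dn_map _ _ (fun l1 a c l2 h => by omega) hx
    | succ n ih =>
      intro x hx
      refine Dn_map _ _ (fun l1 a c l2 h => ?_) hx
      have h1 : cone b Z Y ε (gen l1 a c l2) = cns (b (l1 ++ a :: c :: l2))
          (Y (gen l1 a c l2) + ε • cone b Z Y ε (bd (gen l1 a c l2))) := by
        simp only [gen, map_add]
        rw [cone_ne _ _ _ _ _ (by simp), cone_ne _ _ _ _ (l1 ++ c :: a :: l2) (by simp),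
          ← hb l1 a c l2]
        simp only [map_add, smul_add]
        abel
      rw [h1]
      refine cns_DA _ (Submodule.add_mem _ (hY _ (gen_mem_DA _ _ _ _))
        (Submodule.smul_mem _ _ (ih _ ?_)))
      have := bd_gen l1 a c l2
      rwa [show l1.length + l2.length + 1 = n by omega] at this
  refine DA_map _ _ (fun l1 a c l2 => key (l1.length + l2.length + 2) _ ?_) hx
  exact Submodule.subset_span ⟨l1, a, c, l2, rfl, rfl⟩

lemma cone_equiv (σ : α → β) (b' : List β → β) (Z' Y' : Ch β →ₗ[ℝ] Ch β)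
    (hb : ∀ l, l ≠ [] → b' (l.map σ) = σ (b l)) (hZ : mp σ (Z (sg [])) = Z' (sg []))
    (hY : ∀ c, mp σ (Y c) = Y' (mp σ c)) (c : Ch α) :
    mp σ (cone b Z Y ε c) = cone b' Z' Y' ε (mp σ c) := by
  have : ∀ l : List α, mp σ (cone b Z Y ε (sg l)) = cone b' Z' Y' ε (mp σ (sg l)) := by
    intro l
    induction l using bd_induction with
    | h0 => simp [cone_nil, hZ]
    | h1 l hl ih =>
      have h1 : mp σ (cone b Z Y ε (bd (sg l))) = cone b' Z' Y' ε (mp σ (bd (sg l))) :=
        Sup_ext (mp σ ∘ₗ cone b Z Y ε) (cone b' Z' Y' ε ∘ₗ mp σ) (fun l' hl' => ih l' hl'.1)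
          (bd_mem l)
      rw [cone_ne _ _ _ _ _ hl, mp_cns, map_add, map_smul, h1, hY, mp_bd, mp_sg,
        cone_ne _ _ _ _ _ (by simpa using hl), hb l hl]
  have h2 : mp σ ∘ₗ cone b Z Y ε = cone b' Z' Y' ε ∘ₗ mp σ := ch_ext this
  exact DFunLike.congr_fun h2 c

/-- subdivision -/
noncomputable def Sd : Ch α →ₗ[ℝ] Ch α := cone b LinearMap.id 0 1

lemma Sd_nil : Sd b (sg []) = sg [] := by simp [Sd, cone_nil]

lemma Sd_ne (l : List α) (hl : l ≠ []) : Sd b (sg l) = cns (b l) (Sd b (bd (sg l))) := by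
  rw [Sd, cone_ne _ _ _ _ _ hl]; simp

lemma bd_Sd (c : Ch α) : bd (Sd b c) = Sd b (bd c) := by
  have : ∀ l : List α, bd (Sd b (sg l)) = Sd b (bd (sg l)) := by
    intro l
    induction l using bd_induction with
    | h0 => simp [Sd_nil]
    | h1 l hl ih =>
      have h1 : bd (Sd b (bd (sg l))) = Sd b (bd (bd (sg l))) :=
        Sup_ext (bd ∘ₗ Sd b) (Sd b ∘ₗ bd) (fun l' hl' => ih l' hl'.1) (bd_mem l)
      rw [Sd_ne _ _ hl, bd_cns, h1, bd_bd]
      simp
  have h2 : bd ∘ₗ Sd b = Sd b ∘ₗ bd := ch_ext this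
  exact DFunLike.congr_fun h2 c

/-- prism homotopy between the identity and a chain map `F` -/
noncomputable def Hm (F : Ch α →ₗ[ℝ] Ch α) : Ch α →ₗ[ℝ] Ch α :=
  cone b 0 (LinearMap.id - F) (-1)

lemma bd_Hm (F : Ch α →ₗ[ℝ] Ch α) (hF0 : F (sg []) = sg []) (hF : ∀ c, bd (F c) = F (bd c))
    (c : Ch α) : bd (Hm b F c) + Hm b F (bd c) = c - F c := by
  have : ∀ l : List α, bd (Hm b F (sg l)) + Hm b F (bd (sg l)) = sg l - F (sg l) := by
    intro l
    induction l using bd_induction with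
    | h0 => simp [Hm, cone_nil, hF0]
    | h1 l hl ih =>
      have h1 : bd (Hm b F (bd (sg l))) + Hm b F (bd (bd (sg l))) = bd (sg l) - F (bd (sg l)) :=
        Sup_ext (bd ∘ₗ Hm b F + Hm b F ∘ₗ bd) (LinearMap.id - F) (fun l' hl' => ih l' hl'.1)
          (bd_mem l)
      rw [bd_bd, map_zero, add_zero] at h1
      have h2 : Hm b F (sg l) = cns (b l) (sg l - F (sg l) - Hm b F (bd (sg l))) := by
        rw [Hm, cone_ne _ _ _ _ _ hl]
        simp [sub_eq_add_neg]
      have h3 : bd (sg l - F (sg l) - Hm b F (bd (sg l))) = 0 := by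
        rw [map_sub, map_sub, h1, hF, sub_self]
      rw [h2, bd_cns, h3]
      simp
  have h2 : bd ∘ₗ Hm b F + Hm b F ∘ₗ bd = LinearMap.id - F := ch_ext this
  exact DFunLike.congr_fun h2 c

/-- the collapse map -/
noncomputable def Fm (k : ℕ) (w : α → α) : Ch α →ₗ[ℝ] Ch α := mp w ∘ₗ (Sd b ^ k)

lemma Sd_pow_nil (k : ℕ) : (Sd b ^ k) (sg []) = sg [] := by
  induction k with
  | zero => rfl
  | succ k ih => rw [pow_succ', Module.End.mul_apply, ih, Sd_nil]

lemma bd_Sd_pow (k : ℕ) (c : Ch α) : bd ((Sd b ^ k) c) = (Sd b ^ k) (bd c) := by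
  induction k with
  | zero => rfl
  | succ k ih => rw [pow_succ', Module.End.mul_apply, Module.End.mul_apply, bd_Sd, ih]

lemma Fm_nil (k : ℕ) (w : α → α) : Fm b k w (sg []) = sg [] := by
  simp [Fm, Sd_pow_nil]

lemma bd_Fm (k : ℕ) (w : α → α) (c : Ch α) : bd (Fm b k w c) = Fm b k w (bd c) := by
  simp only [Fm, LinearMap.comp_apply]
  rw [← mp_bd, bd_Sd_pow]

lemma Fm_DA (hb : ∀ l1 a c l2, b (l1 ++ a :: c :: l2) = b (l1 ++ c :: a :: l2)) (k : ℕ)
    (w : α → α) {x : Ch α} (hx : x ∈ DA α) : Fm b k w x ∈ DA α := by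
  refine mp_DA w ?_
  induction k with
  | zero => exact hx
  | succ k ih =>
    rw [pow_succ', Module.End.mul_apply]
    exact cone_DA b _ _ _ hb (fun x _ => by simp) ih

lemma Hm_DA (hb : ∀ l1 a c l2, b (l1 ++ a :: c :: l2) = b (l1 ++ c :: a :: l2)) (k : ℕ)
    (w : α → α) {x : Ch α} (hx : x ∈ DA α) : Hm b (Fm b k w) x ∈ DA α :=
  cone_DA b _ _ _ hb (fun _ hx => Submodule.sub_mem _ hx (Fm_DA b hb k w hx)) hx

lemma Fm_equiv (σ : α → α) (hb : ∀ l, l ≠ [] → b (l.map σ) = σ (b l)) (k : ℕ) (w w' : α → α)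
    (hw : ∀ u, w' (σ u) = σ (w u)) (c : Ch α) :
    mp σ (Fm b k w c) = Fm b k w' (mp σ c) := by
  have h1 : ∀ c, mp σ ((Sd b ^ k) c) = (Sd b ^ k) (mp σ c) := by
    intro c
    induction k with
    | zero => rfl
    | succ k ih =>
      rw [pow_succ', Module.End.mul_apply, Module.End.mul_apply, ← ih]
      exact cone_equiv b _ _ _ σ b _ _ hb (by simp) (fun c => by simp) _
  simp only [Fm, LinearMap.comp_apply]
  rw [← h1, mp_mp, mp_mp]
  congr 2
  funext u
  simp [hw]

lemma Hm_equiv (σ : α → α) (hb : ∀ l, l ≠ [] → b (l.map σ) = σ (b l)) (k : ℕ) (w w' : α → α)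
    (hw : ∀ u, w' (σ u) = σ (w u)) (c : Ch α) :
    mp σ (Hm b (Fm b k w) c) = Hm b (Fm b k w') (mp σ c) :=
  cone_equiv b _ _ _ σ b _ _ hb (by simp) (fun c => by
    simp [Fm_equiv b σ hb k w w' hw c]) _

end Cone

section Hull

variable {α : Type*} (b : List α → α)

/-- closed under barycentres -/
def Cvx (K : α → Prop) : Prop := ∀ l, l ≠ [] → (∀ a ∈ l, K a) → K (b l)

/-- hull -/
def Hl (l : List α) (p : α) : Prop := ∀ K, Cvx b K → (∀ a ∈ l, K a) → K p

/-- affine function -/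
def Aff (f : α → ℝ) : Prop := ∀ l, l ≠ [] → f (b l) * l.length = (l.map f).sum

variable {b}

lemma Hl.self {l : List α} {a : α} (h : a ∈ l) : Hl b l a := fun _ _ hK => hK a h

lemma Hl.bary {l : List α} (h : l ≠ []) : Hl b l (b l) := fun _ hc hK => hc l h hK

lemma Hl.trans {l l' : List α} {p : α} (h : Hl b l' p) (h' : ∀ a ∈ l', Hl b l a) : Hl b l p :=
  fun K hc hK => h K hc fun a ha => h' a ha K hc hK

lemma Aff.neg {f : α → ℝ} (hf : Aff b f) : Aff b (fun a => - f a) := by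
  intro l hl
  have := hf l hl
  rw [neg_mul, this]
  clear this hl
  induction l with
  | nil => simp
  | cons a l ih => simp only [List.map_cons, List.sum_cons, ← ih]; ring

lemma Aff.cvx {f : α → ℝ} (hf : Aff b f) (c : ℝ) : Cvx b (fun a => f a ≤ c) := by
  intro l hl h
  have h1 := hf l hl
  have h2 : (l.map f).sum ≤ (l.map f).length • c := by
    apply List.sum_le_card_nsmul
    intro x hx
    obtain ⟨a, ha, rfl⟩ := List.mem_map.1 hx
    exact h a ha
  have h3 : (0 : ℝ) < l.length := by exact_mod_cast List.length_pos_iff.2 hl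
  simp only [List.length_map, nsmul_eq_mul] at h2
  nlinarith

lemma Aff.shrink {f : α → ℝ} (hf : Aff b f) {l : List α} {m : ℕ} (hm : l.length ≤ m)
    (hl : l ≠ []) {δ : ℝ} (hδ : ∀ p ∈ l, ∀ q ∈ l, f p - f q ≤ δ) {p : α} (hp : Hl b l p) :
    f p - f (b l) ≤ (1 - 1 / m) * δ := by
  have h3 : (0 : ℝ) < l.length := by exact_mod_cast List.length_pos_iff.2 hl
  have hm' : (l.length : ℝ) ≤ m := by exact_mod_cast hm
  have key : ∀ a ∈ l, f a ≤ f (b l) + (1 - 1 / m) * δ := by
    intro a ha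
    have hδ0 : 0 ≤ δ := by simpa using hδ a ha a ha
    have h1 := hf l hl
    have h2 : δ ≤ (l.map fun x => f x - (f a - δ)).sum := by
      apply List.single_le_sum
      · intro x hx
        obtain ⟨c, hc, rfl⟩ := List.mem_map.1 hx
        have := hδ a ha c hc
        linarith
      · exact List.mem_map.2 ⟨a, ha, by ring⟩
    have h4 : ∀ (l : List α) (r : ℝ), (l.map fun x => f x - r).sum = (l.map f).sum - l.length * r := by
      intro l r
      induction l with
      | nil => simp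
      | cons a l ih => simp only [List.map_cons, List.sum_cons, ih, List.length_cons]; push_cast; ring
    rw [h4, ← h1] at h2
    have h5 : δ / m ≤ δ / l.length := div_le_div_of_nonneg_left hδ0 h3 hm'
    have h6 : δ / l.length ≤ f (b l) - (f a - δ) := by
      rw [div_le_iff₀ h3]; nlinarith
    have h7 : (1 - 1 / (m : ℝ)) * δ = δ - δ / m := by ring
    linarith
  have := hp _ (hf.cvx (f (b l) + (1 - 1 / m) * δ)) key
  linarith

/-- oscillation bound along a family -/
def Osc (𝓕 : Set (α → ℝ)) (δ : ℝ) (l : List α) : Prop := ∀ f ∈ 𝓕, ∀ p ∈ l, ∀ q ∈ l, f p - f q ≤ δ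

lemma Sd_mem (𝓕 : Set (α → ℝ)) (h𝓕 : ∀ f ∈ 𝓕, Aff b f) (m : ℕ) (l : List α) :
    l.length ≤ m → Sd b (sg l) ∈ Sup (fun l' : List α => l'.length = l.length ∧
      (∀ p ∈ l', Hl b l p) ∧ ∀ δ, Osc 𝓕 δ l → Osc 𝓕 ((1 - 1 / m) * δ) l') := by
  induction l using bd_induction with
  | h0 =>
    intro _
    rw [Sd_nil]
    exact sg_mem_Sup ⟨rfl, by simp, fun δ _ f _ => by simp⟩
  | h1 l hl ih =>
    intro hm
    rw [Sd_ne _ _ hl]
    refine Sup_map (cns (b l) ∘ₗ Sd b) _ (fun l1 hl1 => ?_) (bd_mem l)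
    refine Sup_map (cns (b l)) _ (fun l2 hl2 => ?_) (ih l1 hl1.1 (by have := hl1.1; omega))
    rw [cns_sg]
    have hh : ∀ p ∈ l2, Hl b l p := fun p hp =>
      (hl2.2.1 p hp).trans fun a ha => Hl.self (hl1.2 ha)
    refine sg_mem_Sup ⟨by simp [hl2.1, hl1.1], ?_, ?_⟩
    · intro p hp
      rcases List.mem_cons.1 hp with rfl | hp
      · exact Hl.bary hl
      · exact hh p hp
    · intro δ hδ f hf p hp q hq
      have hO := hl2.2.2 δ (fun f hf p hp q hq => hδ f hf p (hl1.2 hp) q (hl1.2 hq)) f hf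
      rcases List.mem_cons.1 hp with rfl | hp <;> rcases List.mem_cons.1 hq with rfl | hq
      · simpa using (h𝓕 f hf).shrink hm hl (hδ f hf) (Hl.bary hl)
      · have := (h𝓕 f hf).neg.shrink hm hl (δ := δ)
          (fun p hp q hq => by have := hδ f hf q hq p hp; linarith) (hh q hq)
        linarith
      · exact (h𝓕 f hf).shrink hm hl (hδ f hf) (hh p hp)
      · exact hO p hp q hq

lemma Sd_pow_mem (𝓕 : Set (α → ℝ)) (h𝓕 : ∀ f ∈ 𝓕, Aff b f) (m : ℕ) (l : List α)
    (hm : l.length ≤ m) (δ : ℝ) (hδ : Osc 𝓕 δ l) (k : ℕ) :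
    (Sd b ^ k) (sg l) ∈ Sup (fun l' : List α => l'.length = l.length ∧
      (∀ p ∈ l', Hl b l p) ∧ Osc 𝓕 ((1 - 1 / m) ^ k * δ) l') := by
  induction k with
  | zero => exact sg_mem_Sup ⟨rfl, fun p hp => Hl.self hp, by simpa using hδ⟩
  | succ k ih =>
    rw [pow_succ' (Sd b), Module.End.mul_apply]
    refine Sup_map _ _ (fun l1 hl1 => ?_) ih
    refine Sup_mono (fun l2 hl2 => ?_) (Sd_mem 𝓕 h𝓕 m l1 (by rw [hl1.1]; exact hm))
    refine ⟨hl2.1.trans hl1.1, fun p hp => (hl2.2.1 p hp).trans hl1.2.1, ?_⟩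
    have := hl2.2.2 _ hl1.2.2
    rwa [← mul_assoc, ← pow_succ'] at this

end Hull

section Loc

variable {V Ω₀ : Type*}

/-- depends on finitely many coordinates -/
def Loc {β : Type*} (f : (V → Ω₀) → β) : Prop :=
  ∃ W : Finset V, ∀ ω ω' : V → Ω₀, (∀ v ∈ W, ω v = ω' v) → f ω = f ω'

lemma Loc.const {β : Type*} (x : β) : Loc (fun _ : V → Ω₀ => x) := ⟨∅, fun _ _ _ => rfl⟩

lemma Loc.comp₂ {β γ δ : Type*} {f : (V → Ω₀) → β} {g : (V → Ω₀) → γ} (hf : Loc f) (hg : Loc g)
    (F : β → γ → δ) : Loc (fun ω => F (f ω) (g ω)) := by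
  classical
  obtain ⟨W, hW⟩ := hf
  obtain ⟨W', hW'⟩ := hg
  refine ⟨W ∪ W', fun ω ω' h => ?_⟩
  beta_reduce
  rw [hW ω ω' fun v hv => h v (Finset.mem_union_left _ hv),
    hW' ω ω' fun v hv => h v (Finset.mem_union_right _ hv)]

lemma Loc.comp {β γ : Type*} {f : (V → Ω₀) → β} (hf : Loc f) (F : β → γ) :
    Loc (fun ω => F (f ω)) := hf.comp₂ hf (fun x _ => F x)

lemma Loc.lin {α N : Type*} [AddCommGroup N] [Module ℝ N] (f : (V → Ω₀) → Ch α →ₗ[ℝ] N)
    {P : List α → Prop} (h : ∀ l, P l → Loc fun ω => f ω (sg l)) {c : Ch α} (hc : c ∈ Sup P) :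
    Loc fun ω => f ω c := by
  induction hc using Submodule.span_induction with
  | mem x hx => obtain ⟨l, hl, rfl⟩ := hx; exact h l hl
  | zero => simpa using Loc.const 0
  | add x y _ _ hx hy => simpa using hx.comp₂ hy (· + ·)
  | smul r x _ hx => simpa using hx.comp (r • ·)

lemma Loc.list {α β : Type*} (w : (V → Ω₀) → α → β) (h : ∀ u, Loc fun ω => w ω u) (l : List α) :
    Loc fun ω => l.map (w ω) := by
  induction l with
  | nil => exact Loc.const _
  | cons a l ih => exact (h a).comp₂ ih (· :: ·)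

lemma Loc.Fm {α : Type*} (b : List α → α) (k : ℕ) (w : (V → Ω₀) → α → α)
    (h : ∀ u, Loc fun ω => w ω u) (c : Ch α) : Loc fun ω => Fm b k (w ω) c :=
  Loc.lin (fun ω => mp (w ω)) (P := fun _ => True)
    (fun l _ => by simpa using (Loc.list w h l).comp sg) (mem_Sup_true _)

lemma Loc.Hm {α : Type*} (b : List α → α) (k : ℕ) (w : (V → Ω₀) → α → α)
    (h : ∀ u, Loc fun ω => w ω u) (c : Ch α) :
    Loc fun ω => Hm b (P184.Fm b k (w ω)) c := by
  refine Loc.lin (fun ω => P184.Hm b (P184.Fm b k (w ω))) (P := fun _ => True)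
    (fun l _ => ?_) (mem_Sup_true _)
  induction l using bd_induction with
  | h0 => simpa [P184.Hm, cone_nil] using Loc.const 0
  | h1 l hl ih =>
    have h1 := Loc.lin (fun ω => P184.Hm b (P184.Fm b k (w ω))) (fun l' hl' => ih l' hl'.1)
      (bd_mem l)
    have h2 := Loc.Fm b k w h (sg l)
    have h3 := h2.comp₂ h1 (fun x y => cns (b l) (sg l - x + (-1 : ℝ) • y))
    refine (congrArg Loc ?_).mp h3
    funext ω
    conv_rhs => rw [P184.Hm, cone_ne _ _ _ _ _ hl]
    rfl

end Loc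

end Vale.Agent.P184
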