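import Vale.Agent.P184.Perc

/-!
The collapse theorem.
-/

namespace Vale.Agent.P184

open Finset MeasureTheory Filter Topology

variable {G : Type*} [Group G]

theorem collapse (Γ : Gm G) (V : Type*) [MulAction G V] [DecidableEq V] [Nonempty V] :
    ∃ n : ℕ, 1 ≤ n ∧ ∀ Θ : Ch (Pt V) →ₗ[ℝ] ℝ, (∀ x ∈ DA (Pt V), Θ x = 0) → (∀ c, Θ (bd c) = 0) →
      (∀ l : List (Pt V), l.length = 2 * n + 1 → ∀ s : Finset (V →₀ ℝ), s.card < 2 * n + 1 →
        (∀ p ∈ l, p.val ∈ Submodule.span ℝ (s : Set (V →₀ ℝ))) → Θ (sg l) = 0) →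
      ∃ φ ψ : ℕ → List V → ℝ,
        (∀ k X, Θ (sg (X.map dlt)) =
          φ k X + ∑ i ∈ range X.length, (-1 : ℝ) ^ i * ψ k (X.eraseIdx i)) ∧
        (∀ k l1 a c l2, ψ k (l1 ++ a :: c :: l2) = - ψ k (l1 ++ c :: a :: l2)) ∧
        (∀ k (σ : V ≃ V), IsAut G σ → (∀ c, Θ (mp (mapPt σ) c) = Θ c) →
          ∀ X, ψ k (X.map σ) = ψ k X) ∧
        (∀ X : List V, X.length = 2 * n + 1 → List.IsChain (Γ.Near 1) X →
          Tendsto (fun k => φ k X) atTop (𝓝 0)) := by
  obtain ⟨n, hn, C, rfl, hm, hη, hR, p, hp, hp1, hp2⟩ := exists_CP Γ V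
  refine ⟨n, hn, fun Θ hD hbd hlow => ?_⟩
  rw [← hm] at hlow ⊢
  have hm2 : 2 ≤ C.m := by omega
  have hm0 : (2 : ℝ) ≤ C.m := by exact_mod_cast hm2
  obtain ⟨K, hK⟩ : ∃ K : ℕ, (1 - 1 / (C.m : ℝ)) ^ K * C.R ≤ C.η / 2 := by
    obtain ⟨K, hK⟩ := exists_pow_lt_of_lt_one (x := C.η / 2 / (C.R + 1)) (y := 1 - 1 / (C.m : ℝ))
      (by positivity) (by have : 0 < 1 / (C.m : ℝ) := by positivity
                          linarith)
    refine ⟨K, ?_⟩
    have h0 : 0 ≤ (1 - 1 / (C.m : ℝ)) ^ K := by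
      apply pow_nonneg
      rw [sub_nonneg, div_le_one (by linarith)]
      linarith
    rw [lt_div_iff₀ (by positivity)] at hK
    nlinarith
  let μ := muP C.N.μ V
  let M : ℕ → ℕ := fun k => 2 * (k * (2 * (C.m + C.R) + C.m))
  let F : ℕ → (V → C.N.Ω) → Ch (Pt V) →ₗ[ℝ] Ch (Pt V) := fun k ω => Fm bary K (C.w' (M k) ω)
  have hF : ∀ k c, Loc fun ω => Θ (F k ω c) := fun k c =>
    (Loc.Fm bary K (C.w' (M k)) (CP.loc_w' (M k)) c).comp Θ
  have hH : ∀ k c, Loc fun ω => Θ (Hm bary (F k ω) c) := fun k c =>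
    (Loc.Hm bary K (C.w' (M k)) (CP.loc_w' (M k)) c).comp Θ
  refine ⟨fun k X => ∫ ω, Θ (F k ω (sg (X.map dlt))) ∂μ,
    fun k X => ∫ ω, Θ (Hm bary (F k ω) (sg (X.map dlt))) ∂μ, ?_, ?_, ?_, ?_⟩
  · intro k X
    have h1 : ∀ ω, Θ (sg (X.map dlt)) = Θ (F k ω (sg (X.map dlt))) + ∑ i ∈ range X.length,
        (-1 : ℝ) ^ i * Θ (Hm bary (F k ω) (sg ((X.eraseIdx i).map dlt))) := by
      intro ω
      have h2 := congrArg Θ (bd_Hm bary (F k ω) (Fm_nil _ _ _) (bd_Fm _ _ _) (sg (X.map dlt)))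
      rw [map_add, hbd, zero_add, map_sub, bd_eq_sum, map_sum, map_sum] at h2
      simp only [map_smul, smul_eq_mul, List.length_map, List.eraseIdx_map] at h2
      linarith
    have h3 : ∫ _ω, Θ (sg (X.map dlt)) ∂μ = Θ (sg (X.map dlt)) := by simp
    rw [← h3, integral_congr_ae (Eventually.of_forall h1), integral_add ((hF k _).integrable _)
      (integrable_finsetSum _ fun i _ => ((hH k _).integrable _).const_mul _),
      integral_finsetSum _ fun i _ => ((hH k _).integrable _).const_mul _]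
    simp only [integral_const_mul]
    rfl
  · intro k l1 a c l2
    simp only
    rw [← integral_neg]
    congr 1
    funext ω
    have := hD _ (Hm_DA bary bary_swap K (C.w' (M k) ω)
      (gen_mem_DA (l1.map dlt) (dlt a) (dlt c) (l2.map dlt)))
    simp only [gen, map_add] at this
    simp only [List.map_append, List.map_cons]
    exact eq_neg_of_add_eq_zero_left this
  · intro k σ hσ hΘ X
    simp only
    have h1 : ∀ ω : V → C.N.Ω, Θ (Hm bary (F k ω) (sg ((X.map σ).map dlt))) =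
        Θ (Hm bary (F k (fun v => ω (σ v))) (sg (X.map dlt))) := by
      intro ω
      have h2 := Hm_equiv bary (mapPt σ) (bary_map σ) K (C.w' (M k) (fun v => ω (σ v)))
        (C.w' (M k) ω) (fun u => CP.w'_map hσ (fun v => rfl) (M k) u) (sg (X.map dlt))
      have h3 : (X.map dlt).map (mapPt σ) = (X.map σ).map dlt := by
        simp only [List.map_map]
        congr 1
        funext v
        simp [mapPt_dlt]
      rw [mp_sg, h3] at h2
      have h4 := congrArg Θ h2
      rw [hΘ] at h4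
      exact h4.symm
    rw [integral_congr_ae (Eventually.of_forall h1)]
    exact integral_reindex C.N.μ σ (hH k (sg (X.map dlt)))
  · intro X hXl hXc
    have hX : ∀ a ∈ X, ∀ b ∈ X, C.Γ.Near C.m a b := by
      have := Gm.chain_near₂ X hXc
      rwa [one_mul, hXl] at this
    let 𝓕 : Set (Pt V → ℝ) := Set.range fun y p => C.D p y
    have hmem := Sd_pow_mem (b := bary) 𝓕 (by rintro _ ⟨y, rfl⟩; exact aff_ev _) C.m (X.map dlt)
      (by simp [hXl]) C.R (by
        rintro _ ⟨y, rfl⟩ p _ q _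
        have h1 : C.D p y ≤ C.R := p.ev_le fun v _ => by exact_mod_cast C.Γ.dist_le _ _ _
        have h2 : 0 ≤ C.D q y := q.le_ev fun v _ => by positivity
        simp only
        linarith) K
    obtain ⟨B, hB⟩ := ((Loc.Fm bary K C.w CP.loc_w (sg (X.map dlt))).comp Θ).bdd
    have hbound : ∀ k, ‖∫ ω, Θ (F k ω (sg (X.map dlt))) ∂μ‖ ≤ B * (C.m * (1 / 2) ^ k) := by
      intro k
      let S : Set (V → C.N.Ω) := {ω | ∃ v ∈ X, C.sbad ω v ∧ ¬ C.small (M k) ω v}
      have h0 : ∀ ω, ω ∉ S → Θ (F k ω (sg (X.map dlt))) = 0 := by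
        intro ω hω
        refine Sup_ext (Θ ∘ₗ mp (C.w' (M k) ω)) 0 (fun l hl => ?_) hmem
        obtain ⟨s, hs1, hs2⟩ := CP.collapse_list (ω := ω) (M := M k) hR hm2 hXl hXc
          (fun v hv hb => by
            by_contra hs
            exact hω ⟨v, hv, hb, hs⟩) l (by simpa [hXl] using hl.1)
          (fun p hp => hull_supp (hl.2.1 p hp))
          (fun p hp q hq y => (hl.2.2 _ ⟨y, rfl⟩ p hp q hq).trans hK)
        simp only [LinearMap.comp_apply, mp_sg, LinearMap.zero_apply]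
        refine hlow _ (by simpa [hXl] using hl.1) s hs1 ?_
        intro q hq
        obtain ⟨p, hp, rfl⟩ := List.mem_map.1 hq
        exact hs2 p hp
      have h1 : ∀ ω ∈ S, ‖Θ (F k ω (sg (X.map dlt)))‖ ≤ B := by
        rintro ω ⟨v, hv, hb, hs⟩
        have : F k ω (sg (X.map dlt)) = Fm bary K (C.w ω) (sg (X.map dlt)) := by
          refine Sup_ext (mp (C.w' (M k) ω)) (mp (C.w ω)) (fun l hl => ?_) hmem
          rw [mp_sg, mp_sg, List.map_congr_left]
          intro p hp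
          exact CP.w'_eq_w hX hv hb hs (hull_supp (hl.2.1 p hp))
        rw [this]
        exact hB ω
      have hB0 : 0 ≤ B := (abs_nonneg _).trans (hB (Classical.arbitrary _))
      rw [← setIntegral_eq_integral_of_forall_compl_eq_zero h0]
      refine (norm_setIntegral_le_of_norm_le_const (measure_lt_top _ _) h1).trans ?_
      refine mul_le_mul_of_nonneg_left ?_ hB0
      have hcov : S ⊆ ⋃ v ∈ X.toFinset, {ω | ¬ C.small (M k) ω v} := by
        rintro ω ⟨v, hv, _, hs⟩
        simp only [Set.mem_iUnion]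
        exact ⟨v, List.mem_toFinset.2 hv, hs⟩
      refine (C.muP_mono hcov).trans ((measureReal_biUnion_finset_le _ _).trans ?_)
      refine (sum_le_sum fun v _ => C.not_small_le p hp hp1 hp2 k v).trans ?_
      rw [sum_const, nsmul_eq_mul]
      have : (X.toFinset.card : ℝ) ≤ C.m := by exact_mod_cast hXl ▸ List.toFinset_card_le X
      gcongr
    refine squeeze_zero_norm hbound ?_
    have := ((tendsto_pow_atTop_nhds_zero_of_lt_one (r := (1 / 2 : ℝ)) (by norm_num)
      (by norm_num)).const_mul (C.m : ℝ)).const_mul B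
    simpa using this

end Vale.Agent.P184
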