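import Mathlib.Algebra.Group.Action.Defs
import Mathlib.Tactic

/-!
Balls, truncated distances and chains in a Schreier graph.
-/

namespace Vale.Agent.P184

open Finset

/-- a finite symmetric set containing the identity -/
structure Gm (G : Type*) [Group G] where
  T : Finset G
  one_mem : 1 ∈ T
  inv_mem : ∀ t ∈ T, t⁻¹ ∈ T

variable {G V : Type*} [Group G] [MulAction G V] [DecidableEq V] (Γ : Gm G)

def Gm.ball : ℕ → V → Finset V
  | 0, v => {v}
  | k + 1, v => Γ.T.biUnion fun t => Gm.ball k (t • v)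

def Gm.Near (k : ℕ) (v y : V) : Prop := y ∈ Γ.ball k v

lemma Gm.near_zero {v y : V} : Γ.Near 0 v y ↔ y = v := by simp [Gm.Near, Gm.ball]

lemma Gm.near_succ {k : ℕ} {v y : V} : Γ.Near (k + 1) v y ↔ ∃ t ∈ Γ.T, Γ.Near k (t • v) y := by
  simp [Gm.Near, Gm.ball]

lemma Gm.card_ball (k : ℕ) : ∀ v : V, (Γ.ball k v).card ≤ Γ.T.card ^ k := by
  induction k with
  | zero => intro v; simp [Gm.ball]
  | succ k ih =>
    intro v
    refine card_biUnion_le.trans ((sum_le_sum fun t _ => ih _).trans ?_)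
    simp [pow_succ']

variable {Γ}

lemma Gm.Near.trans {a : ℕ} : ∀ {b : ℕ} {u v w : V}, Γ.Near a u v → Γ.Near b v w →
    Γ.Near (a + b) u w := by
  induction a with
  | zero => intro b u v w h h'; rw [Γ.near_zero.1 h] at h'; simpa using h'
  | succ a ih =>
    intro b u v w h h'
    obtain ⟨t, ht, h⟩ := Γ.near_succ.1 h
    rw [Nat.add_right_comm]
    exact Γ.near_succ.2 ⟨t, ht, ih h h'⟩

lemma Gm.near_refl (k : ℕ) (v : V) : Γ.Near k v v := by
  induction k with
  | zero => exact Γ.near_zero.2 rfl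
  | succ k ih => exact Γ.near_succ.2 ⟨1, Γ.one_mem, by simpa using ih⟩

lemma Gm.Near.mono {a b : ℕ} {u v : V} (h : Γ.Near a u v) (hab : a ≤ b) : Γ.Near b u v := by
  have := h.trans (Γ.near_refl (b - a) v)
  rwa [Nat.add_sub_cancel' hab] at this

lemma Gm.near_smul {t : G} (ht : t ∈ Γ.T) (v : V) : Γ.Near 1 v (t • v) :=
  Γ.near_succ.2 ⟨t, ht, Γ.near_zero.2 rfl⟩

lemma Gm.Near.symm {a : ℕ} : ∀ {u v : V}, Γ.Near a u v → Γ.Near a v u := by
  induction a with
  | zero => intro u v h; exact Γ.near_zero.2 (Γ.near_zero.1 h).symm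
  | succ a ih =>
    intro u v h
    obtain ⟨t, ht, h⟩ := Γ.near_succ.1 h
    have h1 : Γ.Near 1 (t • u) u := by
      have := Γ.near_smul (Γ.inv_mem t ht) (t • u)
      simpa using this
    exact (ih h).trans h1

/-- automorphisms of the action -/
def IsAut (G : Type*) [Group G] [MulAction G V] (σ : V ≃ V) : Prop :=
  ∀ (t : G) (v : V), σ (t • v) = t • σ v

omit [DecidableEq V] in
lemma IsAut.symm {σ : V ≃ V} (h : IsAut G σ) : IsAut G σ.symm := by
  intro t v
  apply σ.injective
  rw [h]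
  simp

lemma IsAut.near {σ : V ≃ V} (h : IsAut G σ) {k : ℕ} : ∀ {u v : V},
    Γ.Near k (σ u) (σ v) ↔ Γ.Near k u v := by
  induction k with
  | zero => intro u v; simp [Γ.near_zero]
  | succ k ih =>
    intro u v
    simp only [Γ.near_succ, ← h _ u, ih]

variable (Γ)

open Classical in
/-- truncated distance -/
noncomputable def Gm.dist (R : ℕ) (v y : V) : ℕ :=
  Nat.find (show ∃ k, R ≤ k ∨ Γ.Near k v y from ⟨R, Or.inl le_rfl⟩)

lemma Gm.dist_le (R : ℕ) (v y : V) : Γ.dist R v y ≤ R := by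
  classical
  exact Nat.find_le (Or.inl le_rfl)

variable {Γ}

lemma Gm.Near.dist_le {R k : ℕ} {v y : V} (h : Γ.Near k v y) : Γ.dist R v y ≤ k := by
  classical
  exact Nat.find_le (Or.inr h)

lemma Gm.dist_spec (R : ℕ) (v y : V) : R ≤ Γ.dist R v y ∨ Γ.Near (Γ.dist R v y) v y := by
  classical
  exact Nat.find_spec (show ∃ k, R ≤ k ∨ Γ.Near k v y from ⟨R, Or.inl le_rfl⟩)

lemma Gm.dist_eq_of_not_near {R : ℕ} {v y : V} (h : ¬ Γ.Near R v y) : Γ.dist R v y = R := by
  rcases Γ.dist_spec R v y with h1 | h1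
  · exact le_antisymm (Γ.dist_le R v y) h1
  · exact absurd (h1.mono (Γ.dist_le R v y)) h

lemma Gm.Near.dist_lip {R j : ℕ} {v v' : V} (h : Γ.Near j v v') (y : V) :
    Γ.dist R v y ≤ Γ.dist R v' y + j := by
  rcases Γ.dist_spec R v' y with h1 | h1
  · have := Γ.dist_le R v y
    omega
  · have := (h.trans h1).dist_le (R := R)
    omega

lemma IsAut.dist {σ : V ≃ V} (h : IsAut G σ) (R : ℕ) (u v : V) :
    Γ.dist R (σ u) (σ v) = Γ.dist R u v := by
  classical
  unfold Gm.dist
  apply Nat.find_congr'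
  simp [h.near]

variable (Γ)

/-- all chains with steps of size `k` -/
def Gm.chs (k : ℕ) : ℕ → V → Finset (List V)
  | 0, v => {[v]}
  | n + 1, v => (Γ.ball k v).biUnion fun y => (Gm.chs k n y).image (v :: ·)

lemma Gm.card_chs (k n : ℕ) : ∀ v : V, (Γ.chs k n v).card ≤ (Γ.T.card ^ k) ^ n := by
  induction n with
  | zero => intro v; simp [Gm.chs]
  | succ n ih =>
    intro v
    refine card_biUnion_le.trans ((sum_le_sum fun y _ => card_image_le.trans (ih y)).trans ?_)
    rw [sum_const, smul_eq_mul, pow_succ']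
    exact Nat.mul_le_mul_right _ (Γ.card_ball k v)

lemma Gm.mem_chs (k : ℕ) (l : List V) : ∀ v : V, List.IsChain (Γ.Near k) (v :: l) →
    v :: l ∈ Γ.chs k l.length v := by
  induction l with
  | nil => intro v _; simp [Gm.chs]
  | cons y l ih =>
    intro v h
    rw [List.isChain_cons_cons] at h
    simp only [List.length_cons, Gm.chs, mem_biUnion, mem_image]
    exact ⟨y, h.1, y :: l, ih y h.2, rfl⟩

variable {Γ}

lemma Gm.chain_near {k : ℕ} (l : List V) : ∀ v : V, List.IsChain (Γ.Near k) (v :: l) →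
    ∀ y ∈ v :: l, Γ.Near (k * l.length) v y := by
  induction l with
  | nil => intro v _ y hy; rw [List.mem_singleton.1 hy]; exact Γ.near_refl _ _
  | cons x l ih =>
    intro v h y hy
    rw [List.isChain_cons_cons] at h
    rcases List.mem_cons.1 hy with rfl | hy
    · exact Γ.near_refl _ _
    · have := h.1.trans (ih x h.2 y hy)
      refine this.mono (le_of_eq ?_)
      simp [mul_add, add_comm]

lemma Gm.chain_near₂ {k : ℕ} (l : List V) (h : List.IsChain (Γ.Near k) l) :
    ∀ x ∈ l, ∀ y ∈ l, Γ.Near (k * l.length) x y := by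
  induction l with
  | nil => simp
  | cons v l ih =>
    intro x hx y hy
    have hle : k * l.length ≤ k * (v :: l).length := Nat.mul_le_mul_left _ (by simp)
    rcases List.mem_cons.1 hx with rfl | hx'
    · exact (Gm.chain_near l _ h y hy).mono hle
    · rcases List.mem_cons.1 hy with rfl | hy'
      · exact (Gm.chain_near l _ h x hx).symm.mono hle
      · exact (ih h.tail x hx' y hy').mono hle

lemma Gm.chain_erase (l : List V) : ∀ i, List.IsChain (Γ.Near 1) l →
    List.IsChain (Γ.Near 2) (l.eraseIdx i) := by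
  have h12 : ∀ l : List V, List.IsChain (Γ.Near 1) l → List.IsChain (Γ.Near 2) l :=
    fun l h => h.imp fun _ _ h => h.mono (by norm_num)
  induction l with
  | nil => intro i _; simp
  | cons a l ih =>
    intro i h
    match i, l, h, ih with
    | 0, l, h, _ => exact h12 _ h.tail
    | i + 1, [], _, _ => simp
    | 1, [b], _, _ => simp
    | 1, b :: c :: l, h, _ =>
      simp only [List.isChain_cons_cons] at h
      simp only [List.eraseIdx_cons_succ, List.eraseIdx_zero, List.tail_cons,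
        List.isChain_cons_cons]
      exact ⟨h.1.trans h.2.1, h12 _ h.2.2⟩
    | i + 2, b :: l, h, ih =>
      have h1 := ih (i + 1) h.tail
      simp only [List.isChain_cons_cons] at h
      simp only [List.eraseIdx_cons_succ, List.isChain_cons_cons] at h1 ⊢
      exact ⟨h.1.mono (by norm_num), h1⟩

/-- last exit decomposition -/
lemma Gm.extract (bad : V → Prop) (D ρ : ℕ) (k : ℕ) : ∀ (W : V → Prop) (a b : V),
    Relation.ReflTransGen (fun x y => bad y ∧ W y ∧ Γ.Near D x y) a b →
    ¬ Γ.Near (k * (ρ + D)) a b → ∃ c : List V, c.length = k ∧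
      List.IsChain (Γ.Near (ρ + D)) (a :: c) ∧ (∀ x ∈ c, bad x ∧ W x) ∧
      (a :: c).Pairwise (fun x y => ¬ Γ.Near ρ x y) := by
  induction k with
  | zero => intro W a b _ _; exact ⟨[], rfl, by simp, by simp, by simp⟩
  | succ k ih =>
    intro W a b hab hn
    have key : ∀ b, Relation.ReflTransGen (fun x y => bad y ∧ W y ∧ Γ.Near D x y) a b →
        Γ.Near ρ a b ∨ ∃ a', Γ.Near (ρ + D) a a' ∧ bad a' ∧ W a' ∧ ¬ Γ.Near ρ a a' ∧
          Relation.ReflTransGen
            (fun x y => bad y ∧ (W y ∧ ¬ Γ.Near ρ a y) ∧ Γ.Near D x y) a' b := by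
      intro b hb
      induction hb with
      | refl => exact Or.inl (Γ.near_refl _ _)
      | @tail b c _ hbc ih2 =>
        by_cases hc : Γ.Near ρ a c
        · exact Or.inl hc
        right
        rcases ih2 with h | ⟨a', h1, h2, h3, h4, h5⟩
        · exact ⟨c, h.trans hbc.2.2, hbc.1, hbc.2.1, hc, .refl⟩
        · exact ⟨a', h1, h2, h3, h4, h5.tail ⟨hbc.1, ⟨hbc.2.1, hc⟩, hbc.2.2⟩⟩
    rcases key b hab with h | ⟨a', h1, h2, h3, h4, h5⟩
    · exact absurd (h.mono (by nlinarith)) hn
    · obtain ⟨c, hc1, hc2, hc3, hc4⟩ := ih _ a' b h5 (fun h => hn ((h1.trans h).mono (by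
        rw [add_mul]; omega)))
      refine ⟨a' :: c, by simp [hc1], List.isChain_cons_cons.2 ⟨h1, hc2⟩, ?_, ?_⟩
      · intro x hx
        rcases List.mem_cons.1 hx with rfl | hx
        · exact ⟨h2, h3⟩
        · exact ⟨(hc3 x hx).1, (hc3 x hx).2.1⟩
      · refine List.Pairwise.cons ?_ hc4
        intro x hx
        rcases List.mem_cons.1 hx with rfl | hx
        · exact h4
        · exact (hc3 x hx).2.2

end Vale.Agent.P184
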