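import Mathlib.LinearAlgebra.CliffordAlgebra.Contraction
import Mathlib.LinearAlgebra.ExteriorAlgebra.Basic
import Mathlib.LinearAlgebra.Dimension.Finite
import Mathlib.LinearAlgebra.Dimension.Constructions
import Mathlib.Data.Real.Basic
import Mathlib.Tactic

/-!
Pfaffians of an alternating form, as a linear functional on the exterior algebra.
-/

namespace Vale.Agent.P184

open CliffordAlgebra (contractLeft changeForm)

section Pf

variable {M : Type*} [AddCommGroup M] [Module ℝ M]

/-- Product of a list of vectors in the exterior algebra. -/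
noncomputable def pl (l : List M) : ExteriorAlgebra ℝ M := (l.map (ExteriorAlgebra.ι ℝ)).prod

@[simp] lemma pl_nil : pl ([] : List M) = 1 := rfl

@[simp] lemma pl_cons (a : M) (l : List M) : pl (a :: l) = ExteriorAlgebra.ι ℝ a * pl l := by
  simp [pl]

lemma pl_append (l l' : List M) : pl (l ++ l') = pl l * pl l' := by simp [pl]

lemma pl_swap (l1 : List M) (a b : M) (l2 : List M) :
    pl (l1 ++ a :: b :: l2) + pl (l1 ++ b :: a :: l2) = 0 := by
  rw [pl_append, pl_append, ← mul_add, pl_cons, pl_cons, pl_cons, pl_cons, ← mul_assoc,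
    ← mul_assoc, ← add_mul, ExteriorAlgebra.ι_add_mul_swap, zero_mul, mul_zero]

lemma pl_move (l1 : List M) (a : M) (l2 : List M) :
    pl (l1 ++ a :: l2) = (-1 : ℝ) ^ l1.length • pl (a :: (l1 ++ l2)) := by
  induction l1 with
  | nil => simp
  | cons x l1 ih =>
    have h := pl_swap [] x a (l1 ++ l2)
    simp only [List.nil_append] at h
    rw [List.cons_append, pl_cons, ih, mul_smul_comm, ← pl_cons, List.length_cons, pow_succ,
      List.cons_append, eq_neg_of_add_eq_zero_left h]
    simp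

lemma pl_eq_zero (l : List M) (s : Finset M) (hs : s.card < l.length)
    (h : ∀ a ∈ l, a ∈ Submodule.span ℝ (s : Set M)) : pl l = 0 := by
  have h1 : pl l = ExteriorAlgebra.ιMulti ℝ l.length l.get := by
    rw [ExteriorAlgebra.ιMulti_apply, pl]
    congr 1
    conv_lhs => rw [← List.ofFn_get l]
    rw [List.map_ofFn]
    rfl
  rw [h1]
  apply AlternatingMap.map_linearDependent
  intro hli
  let v : Fin l.length → Submodule.span ℝ (s : Set M) := fun i => ⟨l.get i, h _ (List.get_mem _ _)⟩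
  have hv : LinearIndependent ℝ v := LinearIndependent.of_comp (Submodule.subtype _) hli
  have : Module.Finite ℝ (Submodule.span ℝ (s : Set M)) :=
    Module.Finite.span_of_finite ℝ s.finite_toSet
  have h2 := hv.fintype_card_le_finrank
  have h3 := finrank_span_finset_le_card (R := ℝ) s
  simp only [Fintype.card_fin] at h2
  have h4 : Set.finrank ℝ (s : Set M) = Module.finrank ℝ (Submodule.span ℝ (s : Set M)) := rfl
  omega

/-- An alternating bilinear form together with a linear functional. -/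
structure PD (M : Type*) [AddCommGroup M] [Module ℝ M] where
  B : LinearMap.BilinForm ℝ M
  alt : ∀ a, B a a = 0
  mass : Module.Dual ℝ M

variable (D : PD M)

lemma PD.hB : D.B.toQuadraticMap = (0 : QuadraticForm ℝ M) - 0 := by
  ext a
  simp [D.alt]

/-- contraction -/
noncomputable abbrev ctr (d : Module.Dual ℝ M) : ExteriorAlgebra ℝ M →ₗ[ℝ] ExteriorAlgebra ℝ M :=
  contractLeft (Q := (0 : QuadraticForm ℝ M)) d

/-- The Pfaffian functional. -/
noncomputable def PD.P : ExteriorAlgebra ℝ M →ₗ[ℝ] ℝ :=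
  (ExteriorAlgebra.algebraMapInv (R := ℝ) (M := M)).toLinearMap ∘ₗ changeForm D.hB

/-- The bordered Pfaffian functional. -/
noncomputable def PD.Th : ExteriorAlgebra ℝ M →ₗ[ℝ] ℝ := D.P ∘ₗ ctr D.mass

lemma algebraMapInv_ι (m : M) :
    ExteriorAlgebra.algebraMapInv (ExteriorAlgebra.ι ℝ m) = 0 := by
  simp [ExteriorAlgebra.algebraMapInv]

lemma ctr_ι_mul (d : Module.Dual ℝ M) (a : M) (x : ExteriorAlgebra ℝ M) :
    ctr d (ExteriorAlgebra.ι ℝ a * x) = d a • x - ExteriorAlgebra.ι ℝ a * ctr d x :=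
  CliffordAlgebra.contractLeft_ι_mul d a x

lemma ctr_ctr (d : Module.Dual ℝ M) (x : ExteriorAlgebra ℝ M) : ctr d (ctr d x) = 0 :=
  CliffordAlgebra.contractLeft_contractLeft d x

lemma PD.P_one : D.P 1 = 1 := by
  simp [PD.P]

lemma PD.P_ι_mul (m : M) (x : ExteriorAlgebra ℝ M) :
    D.P (ExteriorAlgebra.ι ℝ m * x) = - D.P (ctr (D.B m) x) := by
  have h := CliffordAlgebra.changeForm_ι_mul D.hB m x
  have h2 := CliffordAlgebra.changeForm_contractLeft D.hB (D.B m) x
  simp only [PD.P, LinearMap.comp_apply, AlgHom.toLinearMap_apply]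
  erw [h, h2]
  rw [map_sub, map_mul]
  erw [algebraMapInv_ι]
  simp

lemma PD.Th_single (a : M) : D.Th (pl [a]) = D.mass a := by
  simp only [PD.Th, LinearMap.comp_apply, pl_cons, pl_nil]
  rw [ctr_ι_mul]
  simp [D.P_one]

/-- Gauge vectors. -/
def PD.Gauge (ν : M) : Prop := D.mass ν = 0 ∧ ∃ c : ℝ, D.B ν = c • D.mass

lemma PD.P_gauge (ν : M) (c : ℝ) (h : D.B ν = c • D.mass) (x : ExteriorAlgebra ℝ M) :
    D.P (ExteriorAlgebra.ι ℝ ν * x) = - c * D.Th x := by
  rw [D.P_ι_mul, h]
  simp [PD.Th]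

lemma PD.Th_gauge (ν : M) (h : D.Gauge ν) (x : ExteriorAlgebra ℝ M) :
    D.Th (ExteriorAlgebra.ι ℝ ν * x) = 0 := by
  obtain ⟨h0, c, hc⟩ := h
  simp only [PD.Th, LinearMap.comp_apply]
  rw [ctr_ι_mul, h0, zero_smul, zero_sub, map_neg, D.P_gauge ν c hc]
  simp only [PD.Th, LinearMap.comp_apply]
  rw [ctr_ctr]
  simp

lemma PD.Th_gauge_mid (ν : M) (h : D.Gauge ν) (l1 l2 : List M) :
    D.Th (pl (l1 ++ ν :: l2)) = 0 := by
  rw [pl_move, map_smul, pl_cons, D.Th_gauge ν h, smul_zero]

lemma PD.Th_congr_aux (l l' : List M) (h : List.Forall₂ (fun a b => D.Gauge (a - b)) l l') :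
    ∀ l0 : List M, D.Th (pl (l0 ++ l)) = D.Th (pl (l0 ++ l')) := by
  induction h with
  | nil => intro l0; rfl
  | @cons a b l l' hab _ ih =>
    intro l0
    have h1 := ih (l0 ++ [b])
    simp only [List.append_assoc, List.singleton_append] at h1
    rw [← h1]
    have h2 := D.Th_gauge_mid _ hab l0 l
    have h3 : pl (l0 ++ a :: l) = pl (l0 ++ b :: l) + pl (l0 ++ (a - b) :: l) := by
      simp only [pl_append, pl_cons, map_sub]
      noncomm_ring
    rw [h3, map_add, h2, add_zero]

lemma PD.Th_congr (l l' : List M) (h : List.Forall₂ (fun a b => D.Gauge (a - b)) l l') :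
    D.Th (pl l) = D.Th (pl l') := by
  simpa using D.Th_congr_aux l l' h []

lemma PD.gauge_zero : D.Gauge 0 := ⟨by simp, 0, by simp⟩

lemma PD.gauge_add {a b : M} (ha : D.Gauge a) (hb : D.Gauge b) : D.Gauge (a + b) := by
  obtain ⟨h1, c, hc⟩ := ha
  obtain ⟨h2, d, hd⟩ := hb
  exact ⟨by simp [h1, h2], c + d, by rw [map_add, hc, hd, add_smul]⟩

lemma PD.gauge_smul {a : M} (r : ℝ) (ha : D.Gauge a) : D.Gauge (r • a) := by
  obtain ⟨h1, c, hc⟩ := ha
  exact ⟨by simp [h1], r * c, by rw [map_smul, hc, mul_smul]⟩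

lemma ctr_map (φ : M →ₗ[ℝ] M) (d : Module.Dual ℝ M) (x : ExteriorAlgebra ℝ M) :
    ctr d (ExteriorAlgebra.map φ x) = ExteriorAlgebra.map φ (ctr (d ∘ₗ φ) x) := by
  induction x using CliffordAlgebra.left_induction with
  | algebraMap r =>
    erw [AlgHom.commutes, CliffordAlgebra.contractLeft_algebraMap,
      CliffordAlgebra.contractLeft_algebraMap]
    simp
  | add x y hx hy => simp only [map_add, hx, hy]
  | ι_mul x m hx =>
    have e1 : CliffordAlgebra.ι (0 : QuadraticForm ℝ M) m = ExteriorAlgebra.ι ℝ m := rfl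
    rw [e1, map_mul, ExteriorAlgebra.map_apply_ι, ctr_ι_mul, ctr_ι_mul, hx]
    simp

lemma PD.P_map (φ : M →ₗ[ℝ] M) (hφ : ∀ a b, D.B (φ a) (φ b) = D.B a b)
    (x : ExteriorAlgebra ℝ M) : D.P (ExteriorAlgebra.map φ x) = D.P x := by
  have key : ∀ x : ExteriorAlgebra ℝ M, changeForm D.hB (ExteriorAlgebra.map φ x) =
      ExteriorAlgebra.map φ (changeForm D.hB x) := by
    intro x
    induction x using CliffordAlgebra.left_induction with
    | algebraMap r =>
      erw [AlgHom.commutes, CliffordAlgebra.changeForm_algebraMap, AlgHom.commutes]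
    | add x y hx hy => simp only [map_add, hx, hy]
    | ι_mul x m hx =>
      have e1 : CliffordAlgebra.ι (0 : QuadraticForm ℝ M) m = ExteriorAlgebra.ι ℝ m := rfl
      have e2 : D.B (φ m) ∘ₗ φ = D.B m := by ext b; exact hφ m b
      have h1 := CliffordAlgebra.changeForm_ι_mul D.hB (φ m) (ExteriorAlgebra.map φ x)
      have h2 := CliffordAlgebra.changeForm_ι_mul D.hB m x
      have h3 := ctr_map φ (D.B (φ m)) (changeForm D.hB x)
      rw [e2] at h3
      rw [h2, e1, map_mul, ExteriorAlgebra.map_apply_ι]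
      erw [h1]
      rw [hx, map_sub, map_mul, ExteriorAlgebra.map_apply_ι]
      erw [h3]
  have key2 : ∀ y : ExteriorAlgebra ℝ M,
      ExteriorAlgebra.algebraMapInv (ExteriorAlgebra.map φ y) = ExteriorAlgebra.algebraMapInv y := by
    intro y
    have : (ExteriorAlgebra.algebraMapInv (R := ℝ) (M := M)).comp (ExteriorAlgebra.map φ) =
        ExteriorAlgebra.algebraMapInv := by
      apply ExteriorAlgebra.hom_ext
      ext m
      simp [algebraMapInv_ι]
    exact DFunLike.congr_fun this y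
  simp only [PD.P, LinearMap.comp_apply, AlgHom.toLinearMap_apply]
  rw [key, key2]

lemma pl_map (φ : M →ₗ[ℝ] M) (l : List M) : pl (l.map φ) = ExteriorAlgebra.map φ (pl l) := by
  induction l with
  | nil => simp
  | cons a l ih => simp [ih]

lemma PD.P_pl_map (φ : M →ₗ[ℝ] M) (hφ : ∀ a b, D.B (φ a) (φ b) = D.B a b) (l : List M) :
    D.P (pl (l.map φ)) = D.P (pl l) := by
  rw [pl_map, D.P_map φ hφ]

lemma PD.Th_pl_map (φ : M →ₗ[ℝ] M) (hφ : ∀ a b, D.B (φ a) (φ b) = D.B a b)
    (hm : D.mass ∘ₗ φ = D.mass) (l : List M) :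
    D.Th (pl (l.map φ)) = D.Th (pl l) := by
  simp only [PD.Th, LinearMap.comp_apply]
  rw [pl_map, ctr_map, hm, D.P_map φ hφ]

lemma ctr_pl (d : Module.Dual ℝ M) (l : List M) (h : ∀ a ∈ l, d a = 1) :
    ctr d (pl l) = ∑ i ∈ Finset.range l.length, (-1 : ℝ) ^ i • pl (l.eraseIdx i) := by
  induction l with
  | nil => simp
  | cons a l ih =>
    rw [pl_cons, ctr_ι_mul, h a (by simp), ih (fun b hb => h b (by simp [hb])), List.length_cons,
      Finset.sum_range_succ', Finset.mul_sum]
    simp only [List.eraseIdx_cons_succ, pl_cons, pow_succ, mul_smul_comm, List.eraseIdx_zero,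
      List.tail_cons, pow_zero, one_smul, mul_neg, mul_one, neg_smul, Finset.sum_neg_distrib]
    abel

end Pf

end Vale.Agent.P184
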