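import Vale.Agent.P184.Chain

/-!
Finitely supported probability measures.
-/

namespace Vale.Agent.P184

open Finset

variable {V : Type*}

/-- integration of a function -/
noncomputable def ev (f : V → ℝ) : (V →₀ ℝ) →ₗ[ℝ] ℝ := Finsupp.linearCombination ℝ f

lemma ev_apply (f : V → ℝ) (u : V →₀ ℝ) : ev f u = ∑ v ∈ u.support, u v * f v := by
  simp [ev, Finsupp.linearCombination_apply, Finsupp.sum]

@[simp] lemma ev_single (f : V → ℝ) (v : V) (r : ℝ) : ev f (Finsupp.single v r) = r * f v := by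
  simp [ev]

lemma ev_mapDomain {W : Type*} (σ : V → W) (f : W → ℝ) (u : V →₀ ℝ) :
    ev f (Finsupp.mapDomain σ u) = ev (f ∘ σ) u := by
  simp [ev, Finsupp.linearCombination_mapDomain]

/-- points of the simplex -/
@[ext] structure Pt (V : Type*) where
  val : V →₀ ℝ
  nonneg : ∀ v, 0 ≤ val v
  mass : ev (fun _ => 1) val = 1

lemma Pt.sum_eq (p : Pt V) : ∑ v ∈ p.1.support, p.1 v = 1 := by
  simpa [ev_apply] using p.mass

lemma Pt.ev_le (p : Pt V) {f : V → ℝ} {c : ℝ} (h : ∀ v ∈ p.1.support, f v ≤ c) : ev f p.1 ≤ c := by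
  rw [ev_apply]
  calc ∑ v ∈ p.1.support, p.1 v * f v ≤ ∑ v ∈ p.1.support, p.1 v * c :=
        sum_le_sum fun v hv => mul_le_mul_of_nonneg_left (h v hv) (p.nonneg v)
    _ = c := by rw [← sum_mul, p.sum_eq, one_mul]

lemma Pt.le_ev (p : Pt V) {f : V → ℝ} {c : ℝ} (h : ∀ v ∈ p.1.support, c ≤ f v) : c ≤ ev f p.1 := by
  rw [ev_apply]
  calc c = ∑ v ∈ p.1.support, p.1 v * c := by rw [← sum_mul, p.sum_eq, one_mul]
    _ ≤ _ := sum_le_sum fun v hv => mul_le_mul_of_nonneg_left (h v hv) (p.nonneg v)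

lemma Pt.nonempty (p : Pt V) : p.1.support.Nonempty := by
  rw [nonempty_iff_ne_empty]
  intro h
  have := p.sum_eq
  simp [h] at this

noncomputable def dlt (v : V) : Pt V := ⟨Finsupp.single v 1, fun w => by
  classical
  rw [Finsupp.single_apply]; split_ifs <;> norm_num, by simp⟩

lemma list_sum_nonneg (l : List (Pt V)) (v : V) : 0 ≤ (l.map Pt.val).sum v := by
  induction l with
  | nil => simp
  | cons a l ih => simpa using add_nonneg (a.nonneg v) ih

lemma ev_list_sum (f : V → ℝ) (l : List (Pt V)) :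
    ev f (l.map Pt.val).sum = (l.map fun p => ev f p.1).sum := by
  induction l with
  | nil => simp
  | cons a l ih => simp [ih]

open Classical in
noncomputable def bary [Nonempty V] (l : List (Pt V)) : Pt V :=
  if h : l = [] then dlt (Classical.arbitrary V) else
    ⟨(l.length : ℝ)⁻¹ • (l.map Pt.val).sum, fun v => by
      have := list_sum_nonneg l v
      simp only [Finsupp.smul_apply, smul_eq_mul]
      positivity, by
      rw [map_smul, ev_list_sum]
      have h1 : (l.map fun p : Pt V => ev (fun _ => (1 : ℝ)) p.1) = l.map fun _ => (1 : ℝ) :=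
        List.map_congr_left fun p _ => p.mass
      have h2 : (l.length : ℝ) ≠ 0 := by exact_mod_cast (List.length_pos_iff.2 h).ne'
      rw [h1]
      simp [h2]⟩

lemma bary_val [Nonempty V] {l : List (Pt V)} (h : l ≠ []) :
    (bary l).1 = (l.length : ℝ)⁻¹ • (l.map Pt.val).sum := by
  rw [bary, dif_neg h]

lemma bary_swap [Nonempty V] (l1 : List (Pt V)) (a c : Pt V) (l2 : List (Pt V)) :
    bary (l1 ++ a :: c :: l2) = bary (l1 ++ c :: a :: l2) := by
  apply Pt.ext
  rw [bary_val (by simp), bary_val (by simp)]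
  simp [add_left_comm]

lemma aff_ev [Nonempty V] (f : V → ℝ) : Aff (bary (V := V)) (fun p => ev f p.1) := by
  intro l hl
  have h2 : (l.length : ℝ) ≠ 0 := by exact_mod_cast (List.length_pos_iff.2 hl).ne'
  simp only
  rw [bary_val hl, map_smul, ev_list_sum, smul_eq_mul]
  field_simp

lemma cvx_supp [Nonempty V] (X : V → Prop) :
    Cvx (bary (V := V)) (fun p => ∀ v ∈ p.1.support, X v) := by
  intro l hl h v hv
  by_contra hX
  rw [bary_val hl, Finsupp.mem_support_iff] at hv
  apply hv
  have : ∀ l : List (Pt V), (∀ a ∈ l, a.1 v = 0) → (l.map Pt.val).sum v = 0 := by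
    intro l h
    induction l with
    | nil => simp
    | cons a l ih => simp [h a (by simp), ih fun b hb => h b (by simp [hb])]
  rw [Finsupp.smul_apply, this l fun a ha => by
    by_contra h0
    exact hX (h a ha v (Finsupp.mem_support_iff.2 h0)), smul_zero]

lemma hull_supp [Nonempty V] {X : List V} {p : Pt V} (h : Hl bary (X.map dlt) p) :
    ∀ v ∈ p.1.support, v ∈ X := by
  refine h _ (cvx_supp (· ∈ X)) ?_
  intro a ha v hv
  obtain ⟨x, hx, rfl⟩ := List.mem_map.1 ha
  have := Finsupp.support_single_subset hv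
  rw [mem_singleton.1 this]
  exact hx

noncomputable def mapPt (σ : V ≃ V) (p : Pt V) : Pt V := ⟨Finsupp.mapDomain σ p.1, fun v => by
  rw [Finsupp.mapDomain_equiv_apply]; exact p.nonneg _, by rw [ev_mapDomain]; exact p.mass⟩

lemma mapPt_apply (σ : V ≃ V) (p : Pt V) (v : V) : (mapPt σ p).1 (σ v) = p.1 v := by
  simp [mapPt]

lemma mem_supp_mapPt (σ : V ≃ V) (p : Pt V) (v : V) :
    σ v ∈ (mapPt σ p).1.support ↔ v ∈ p.1.support := by
  simp only [Finsupp.mem_support_iff, mapPt_apply]

lemma mapPt_dlt (σ : V ≃ V) (v : V) : mapPt σ (dlt v) = dlt (σ v) := by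
  apply Pt.ext
  simp [mapPt, dlt]

lemma bary_map [Nonempty V] (σ : V ≃ V) (l : List (Pt V)) (hl : l ≠ []) :
    bary (l.map (mapPt σ)) = mapPt σ (bary l) := by
  apply Pt.ext
  rw [bary_val (by simpa using hl)]
  simp only [mapPt, bary_val hl, List.length_map, Finsupp.mapDomain_smul]
  congr 1
  clear hl
  induction l with
  | nil => simp
  | cons a l ih => simp only [List.map_cons, List.sum_cons, ih, Finsupp.mapDomain_add]; rfl

noncomputable def unif0 (W : Finset V) : V →₀ ℝ :=
  (W.card : ℝ)⁻¹ • ∑ y ∈ W, Finsupp.single y (1 : ℝ)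

open Classical in
noncomputable def unif (W : Finset V) (u : Pt V) : Pt V :=
  if h : W.Nonempty then ⟨unif0 W, fun v => by
    simp only [unif0, Finsupp.smul_apply, smul_eq_mul, Finsupp.finsetSum_apply]
    exact mul_nonneg (by positivity) (sum_nonneg fun y _ => (dlt y).nonneg v), by
    have : (W.card : ℝ) ≠ 0 := by exact_mod_cast h.card_pos.ne'
    simp [unif0, this]⟩ else u

lemma unif_val {W : Finset V} (h : W.Nonempty) (u : Pt V) : (unif W u).1 = unif0 W := by
  rw [unif, dif_pos h]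

lemma unif_map (σ : V ≃ V) (W : Finset V) (u : Pt V) :
    unif (W.map σ.toEmbedding) (mapPt σ u) = mapPt σ (unif W u) := by
  by_cases h : W.Nonempty
  · apply Pt.ext
    rw [unif_val (by simpa using h)]
    simp only [mapPt, unif_val h, unif0, card_map, sum_map, Finsupp.mapDomain_smul,
      Finsupp.mapDomain_finsetSum, Finsupp.mapDomain_single, Equiv.coe_toEmbedding]
  · rw [unif, unif, dif_neg h, dif_neg (by simpa using h)]

lemma unif0_mem_span [DecidableEq (V →₀ ℝ)] {W B : Finset V} (h : W ⊆ B) {s : Finset (V →₀ ℝ)}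
    (hs : B.image (fun y => Finsupp.single y (1 : ℝ)) ⊆ s) :
    unif0 W ∈ Submodule.span ℝ (s : Set (V →₀ ℝ)) :=
  Submodule.smul_mem _ _ (Submodule.sum_mem _ fun _ hy =>
    Submodule.subset_span (hs (mem_image_of_mem _ (h hy))))

lemma Pt.exists_weights (p : Pt V) (X : List V) (v0 : V) (h : ∀ v ∈ p.1.support, v ∈ X) :
    ∃ t : ℕ → ℝ, (∀ i, 0 ≤ t i) ∧
      ∀ f : V → ℝ, ∑ i ∈ range X.length, t i * f (X.getD i v0) = ev f p.1 := by
  classical
  refine ⟨fun i => ∑ v ∈ p.1.support with X.idxOf v = i, p.1 v,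
    fun i => sum_nonneg fun v _ => p.nonneg v, fun f => ?_⟩
  rw [ev_apply, ← sum_fiberwise_of_maps_to (s := p.1.support) (t := range X.length)
    (g := fun v => X.idxOf v) (fun v hv => mem_range.2 (List.idxOf_lt_length_of_mem (h v hv)))]
  refine sum_congr rfl fun i _ => ?_
  rw [sum_mul]
  refine sum_congr rfl fun v hv => ?_
  obtain ⟨hv1, hv2⟩ := mem_filter.1 hv
  have h3 := List.idxOf_lt_length_of_mem (h v hv1)
  rw [← hv2, List.getD_eq_getElem?_getD, List.getElem?_eq_getElem h3, Option.getD_some,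
    List.getElem_idxOf]

end Vale.Agent.P184
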