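import Mathlib.GroupTheory.OrderOfElement
import Mathlib.GroupTheory.GroupAction.Quotient
import Vale.Agent.P184.Pf
import Vale.Agent.P184.Pts
import Vale.Agent.P184.Geo

/-!
The invariant height difference attached to an element of infinite order.
-/

namespace Vale.Agent.P184

variable {G : Type*} [Group G]

/-- class of `x` modulo left multiplication by `H` -/
def prj (H : Subgroup G) (x : G) : G ⧸ H := ((x⁻¹ : G) : G ⧸ H)

noncomputable def sec {H : Subgroup G} (v : G ⧸ H) : G := (v.out)⁻¹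

lemma prj_sec {H : Subgroup G} (v : G ⧸ H) : prj H (sec v) = v := by simp [prj, sec]

lemma prj_eq {H : Subgroup G} {x y : G} : prj H x = prj H y ↔ x * y⁻¹ ∈ H := by
  simp [prj, QuotientGroup.eq]

lemma prj_mul {H : Subgroup G} {z : G} (hz : z ∈ H) (x : G) : prj H (z * x) = prj H x :=
  prj_eq.2 (by simpa using hz)

lemma prj_mul_right (H : Subgroup G) (x s : G) : prj H (x * s) = s⁻¹ • prj H x := by
  simp [prj]

lemma exists_height {g : G} (hg : ¬ IsOfFinOrder g) : ∃ k : G → ℤ, ∀ x, k (g * x) = k x + 1 := by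
  have h1 : ∀ x : G, ∃ j : ℤ, g ^ j = x * (sec (prj (Subgroup.zpowers g) x))⁻¹ := fun x =>
    Subgroup.mem_zpowers_iff.1 (prj_eq.1 (prj_sec _).symm)
  choose k hk using h1
  refine ⟨k, fun x => injective_zpow_iff_not_isOfFinOrder.2 hg ?_⟩
  simp only
  rw [hk, prj_mul (Subgroup.mem_zpowers g), add_comm, zpow_add, hk, zpow_one, mul_assoc]

lemma exists_A {g : G} (hg : ¬ IsOfFinOrder g) : ∃ A : G → G → ℝ, (∀ x y, A x y = - A y x) ∧
    (∀ z, z * g = g * z → ∀ x y, A (z * x) (z * y) = A x y) ∧ ∀ x y, A (g * x) y = A x y + 1 := by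
  obtain ⟨k, hk⟩ := exists_height hg
  let Z := Subgroup.centralizer ({g} : Set G)
  have hZ : ∀ z, z ∈ Z ↔ z * g = g * z := fun z => by
    simp [Z, Subgroup.mem_centralizer_iff, eq_comm]
  let F : G → G → ℤ := fun x y => k (sec (prj Z y) * y⁻¹ * x)
  have h1 : ∀ z, z * g = g * z → ∀ x y, F (z * x) (z * y) = F x y := by
    intro z hz x y
    simp only [F]
    rw [prj_mul ((hZ z).2 hz)]
    congr 1
    group
  have h2 : ∀ x y, F (g * x) y = F x y + 1 := by
    intro x y
    simp only [F]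
    rw [← hk, ← mul_assoc, (hZ _).1 (prj_eq.1 (prj_sec _)), mul_assoc]
  have h3 : ∀ x y, F x (g * y) = F x y - 1 := by
    intro x y
    have h4 := h1 g rfl (g⁻¹ * x) y
    have h5 := h2 (g⁻¹ * x) y
    simp only [mul_inv_cancel_left] at h4 h5
    omega
  refine ⟨fun x y => ((F x y : ℝ) - F y x) / 2, fun x y => by ring, fun z hz x y => by
    simp only [h1 z hz], fun x y => ?_⟩
  simp only [h2, h3]
  push_cast
  ring

/-- the automorphism induced by an element of the centralizer -/
def autZ (g z : G) (hz : z * g = g * z) : G ⧸ Subgroup.zpowers g ≃ G ⧸ Subgroup.zpowers g :=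
  Quotient.congr (Equiv.mulRight z⁻¹) (fun a b => by
    have hc : Commute z g := hz
    simp only [QuotientGroup.leftRel_apply, Equiv.coe_mulRight, Subgroup.mem_zpowers_iff]
    refine exists_congr fun j => ?_
    have h1 : z * g ^ j = g ^ j * z := hc.zpow_right j
    constructor
    · intro h
      have : (a * z⁻¹)⁻¹ * (b * z⁻¹) = z * (a⁻¹ * b) * z⁻¹ := by group
      rw [this, ← h, h1]
      group
    · intro h
      have : a⁻¹ * b = z⁻¹ * ((a * z⁻¹)⁻¹ * (b * z⁻¹)) * z := by group
      rw [this, ← h, mul_assoc, ← h1]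
      group)

lemma autZ_mk (g z : G) (hz : z * g = g * z) (a : G) :
    autZ g z hz (a : G ⧸ Subgroup.zpowers g) = ((a * z⁻¹ : G) : G ⧸ Subgroup.zpowers g) := rfl

lemma autZ_prj (g z : G) (hz : z * g = g * z) (x : G) :
    autZ g z hz (prj _ x) = prj _ (z * x) := by
  simp [prj, autZ_mk]

lemma autZ_isAut (g z : G) (hz : z * g = g * z) : IsAut G (autZ g z hz) := by
  intro t v
  induction v using QuotientGroup.induction_on with
  | H a => simp [autZ_mk, mul_assoc]

/-- Dirac mass -/
noncomputable def dl (x : G) : G →₀ ℝ := Finsupp.single x 1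

noncomputable def bil (A : G → G → ℝ) : LinearMap.BilinForm ℝ (G →₀ ℝ) :=
  Finsupp.linearCombination ℝ fun x => ev (A x)

omit [Group G] in
lemma bil_single (A : G → G → ℝ) (x : G) (r : ℝ) : bil A (Finsupp.single x r) = r • ev (A x) := by
  simp [bil]

noncomputable def mkPD (A : G → G → ℝ) (h : ∀ x y, A x y = - A y x) : PD (G →₀ ℝ) where
  B := bil A
  alt a := by
    have h1 : bil A = - (bil A).flip := by
      ext x y
      simp [bil_single, h x y]
    have h2 : bil A a a = - bil A a a := by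
      conv_lhs => rw [h1]
      simp
    linarith
  mass := ev fun _ => 1

theorem exists_PD {g : G} (hg : ¬ IsOfFinOrder g) : ∃ D : PD (G →₀ ℝ), D.mass = ev (fun _ => 1) ∧
    (∀ z, z * g = g * z → ∀ a b, D.B (Finsupp.lmapDomain ℝ ℝ (z * ·) a)
      (Finsupp.lmapDomain ℝ ℝ (z * ·) b) = D.B a b) ∧
    (∀ x, D.B (dl (g * x) - dl x) = (1 : ℝ) • D.mass) := by
  obtain ⟨A, h1, h2, h3⟩ := exists_A hg
  refine ⟨mkPD A h1, rfl, fun z hz a b => ?_, fun x => ?_⟩
  · have : (bil A).compl₁₂ (Finsupp.lmapDomain ℝ ℝ (z * ·)) (Finsupp.lmapDomain ℝ ℝ (z * ·)) =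
        bil A := by
      ext x y
      simp [bil_single, h2 z hz]
    exact DFunLike.congr_fun (DFunLike.congr_fun this a) b
  · ext y
    simp [mkPD, dl, bil_single, h3]

lemma gauge_of_prj {g : G} (D : PD (G →₀ ℝ)) (hm : D.mass = ev (fun _ => 1))
    (h : ∀ x, D.B (dl (g * x) - dl x) = (1 : ℝ) • D.mass) {x y : G}
    (hxy : prj (Subgroup.zpowers g) x = prj (Subgroup.zpowers g) y) : D.Gauge (dl x - dl y) := by
  have h0 : ∀ x, D.Gauge (dl (g * x) - dl x) := fun x => ⟨by simp [hm, dl], 1, h x⟩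
  obtain ⟨j, hj⟩ := Subgroup.mem_zpowers_iff.1 (prj_eq.1 hxy)
  have hx : x = g ^ j * y := by rw [hj]; group
  subst hx
  clear hj hxy
  induction j using Int.induction_on with
  | zero => simpa using D.gauge_zero
  | succ i ih =>
    have := D.gauge_add (h0 (g ^ (i : ℤ) * y)) ih
    rw [sub_add_sub_cancel] at this
    convert this using 3
    group
  | pred i ih =>
    have := D.gauge_add (D.gauge_smul (-1) (h0 (g ^ (-(i : ℤ) - 1) * y))) ih
    have e : g * (g ^ (-(i : ℤ) - 1) * y) = g ^ (-(i : ℤ)) * y := by group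
    rw [e] at this
    convert this using 1
    simp

end Vale.Agent.P184
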