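import Mathlib.Analysis.Complex.Basic
import Mathlib.Tactic

/-!
The signed path process attached to an idempotent.
-/

namespace Vale.Agent.P184

open Filter Topology

/-- Data of an idempotent with finite support, a trace and a group element. -/
structure PrD (G R : Type*) [Group G] [Ring R] [Algebra ℝ R] where
  S : Finset G
  E : G → R
  tr : R →ₗ[ℝ] ℂ
  tr_comm : ∀ a b, tr (a * b) = tr (b * a)
  idem : ∀ H : G → R, ∑ s ∈ S, ∑ t ∈ S, E s * (E t * H (s * t)) = ∑ r ∈ S, E r * H r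
  g : G

variable {G R : Type*} [Group G] [Ring R] [Algebra ℝ R] (P : PrD G R)

noncomputable def PrD.PM : ℕ → (List G → ℝ) →ₗ[ℝ] R
  | 0 => (LinearMap.proj (R := ℝ) (φ := fun _ : List G => ℝ) []).smulRight 1
  | m + 1 => ∑ s ∈ P.S, LinearMap.mulLeft ℝ (P.E s) ∘ₗ PrD.PM m ∘ₗ
      LinearMap.funLeft ℝ ℝ (fun w => s :: w)

lemma PrD.PM_zero (F : List G → ℝ) : P.PM 0 F = F [] • (1 : R) := rfl

lemma PrD.PM_succ (m : ℕ) (F : List G → ℝ) :
    P.PM (m + 1) F = ∑ s ∈ P.S, P.E s * P.PM m (fun w => F (s :: w)) := by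
  simp only [PrD.PM, LinearMap.sum_apply]
  rfl

lemma PrD.PM_congr (m : ℕ) : ∀ (F F' : List G → ℝ),
    (∀ w, w.length = m → (∀ s ∈ w, s ∈ P.S) → F w = F' w) → P.PM m F = P.PM m F' := by
  induction m with
  | zero => intro F F' h; rw [P.PM_zero, P.PM_zero, h [] rfl (by simp)]
  | succ m ih =>
    intro F F' h
    rw [P.PM_succ, P.PM_succ]
    refine Finset.sum_congr rfl fun s hs => ?_
    rw [ih _ (fun w => F' (s :: w))]
    intro w hw hS
    apply h _ (by simp [hw])
    intro t ht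
    rcases List.mem_cons.1 ht with rfl | ht
    · exact hs
    · exact hS t ht

/-- merge two adjacent letters -/
def mrg : ℕ → List G → List G
  | 0, s :: t :: w => (s * t) :: w
  | i + 1, s :: w => s :: mrg i w
  | _, w => w

lemma PrD.PM_mrg (i : ℕ) : ∀ (m : ℕ) (F : List G → ℝ), i < m →
    P.PM (m + 1) (fun w => F (mrg i w)) = P.PM m F := by
  induction i with
  | zero =>
    intro m F hm
    obtain ⟨m, rfl⟩ : ∃ k, m = k + 1 := ⟨m - 1, by omega⟩
    rw [P.PM_succ m F, ← P.idem, P.PM_succ]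
    refine Finset.sum_congr rfl fun s _ => ?_
    rw [P.PM_succ, Finset.mul_sum]
    rfl
  | succ i ih =>
    intro m F hm
    obtain ⟨m, rfl⟩ : ∃ k, m = k + 1 := ⟨m - 1, by omega⟩
    rw [P.PM_succ, P.PM_succ m F]
    refine Finset.sum_congr rfl fun s _ => ?_
    rw [← ih m _ (by omega)]
    rfl

lemma PrD.PM_snoc (m : ℕ) : ∀ (F : List G → ℝ),
    P.PM (m + 1) F = ∑ s ∈ P.S, P.PM m (fun w => F (w ++ [s])) * P.E s := by
  induction m with
  | zero =>
    intro F
    rw [P.PM_succ]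
    refine Finset.sum_congr rfl fun s _ => ?_
    simp [P.PM_zero]
  | succ m ih =>
    intro F
    rw [P.PM_succ]
    have h1 : ∀ s ∈ P.S, P.E s * P.PM (m + 1) (fun w => F (s :: w)) =
        ∑ t ∈ P.S, P.E s * (P.PM m (fun w => F (s :: (w ++ [t]))) * P.E t) := by
      intro s _
      rw [ih, Finset.mul_sum]
    rw [Finset.sum_congr rfl h1, Finset.sum_comm]
    refine Finset.sum_congr rfl fun s _ => ?_
    rw [P.PM_succ, Finset.sum_mul]
    refine Finset.sum_congr rfl fun t _ => ?_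
    rw [mul_assoc]
    rfl

lemma PrD.PM_tendsto (m : ℕ) : ∀ (ℓ : R →ₗ[ℝ] ℂ) (F : ℕ → List G → ℝ),
    (∀ w, w.length = m → (∀ s ∈ w, s ∈ P.S) → Tendsto (fun M => F M w) atTop (𝓝 0)) →
    Tendsto (fun M => ℓ (P.PM m (F M))) atTop (𝓝 0) := by
  induction m with
  | zero =>
    intro ℓ F h
    simp only [P.PM_zero, map_smul]
    simpa using (h [] rfl (by simp)).smul_const (ℓ 1)
  | succ m ih =>
    intro ℓ F h
    simp only [P.PM_succ, map_sum]
    have := tendsto_finsetSum P.S (fun s hs => ih (ℓ ∘ₗ LinearMap.mulLeft ℝ (P.E s))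
      (fun M w => F M (s :: w)) (fun w hw hS => h _ (by simp [hw]) (by
        intro t ht
        rcases List.mem_cons.1 ht with rfl | ht
        · exact hs
        · exact hS t ht)))
    simpa using this

/-- vertices of a path -/
def verts : G → List G → List G
  | _, [] => []
  | x, s :: w => x :: verts (x * s) w

@[simp] lemma length_verts (w : List G) : ∀ x, (verts x w).length = w.length := by
  induction w with
  | nil => intro x; rfl
  | cons s w ih => intro x; simp [verts, ih]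

lemma verts_mul (z : G) (w : List G) : ∀ x, verts (z * x) w = (verts x w).map (z * ·) := by
  induction w with
  | nil => intro x; rfl
  | cons s w ih => intro x; simp [verts, ← ih, mul_assoc]

lemma verts_snoc (w : List G) (s : G) : ∀ x, verts x (w ++ [s]) = verts x w ++ [x * w.prod] := by
  induction w with
  | nil => intro x; simp [verts]
  | cons t w ih => intro x; simp [verts, ih, mul_assoc]

lemma verts_mrg (i : ℕ) : ∀ (w : List G) (x : G), i + 1 < w.length →
    verts x (mrg i w) = (verts x w).eraseIdx (i + 1) := by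
  induction i with
  | zero =>
    intro w x h
    match w, h with
    | s :: t :: w, _ => simp [mrg, verts, mul_assoc]
  | succ i ih =>
    intro w x h
    match w, h with
    | s :: w, h =>
      simp only [mrg, verts, List.eraseIdx_cons_succ]
      rw [ih w _ (by simpa using h)]

lemma prod_mrg (i : ℕ) : ∀ (w : List G), (mrg i w).prod = w.prod := by
  induction i with
  | zero =>
    intro w
    match w with
    | [] => rfl
    | [_] => rfl
    | s :: t :: w => simp [mrg, mul_assoc]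
  | succ i ih =>
    intro w
    match w with
    | [] => rfl
    | s :: w => simp [mrg, ih]

open Classical in
noncomputable def PrD.Phi0 (φ : List G → ℝ) (r : G) (w : List G) : ℝ :=
  if h : ∃ x, x⁻¹ * P.g * x = r then φ (verts h.choose w) else 0

noncomputable def PrD.Phi (φ : List G → ℝ) (w : List G) : ℝ := P.Phi0 φ w.prod w

noncomputable def PrD.PhiL : (List G → ℝ) →ₗ[ℝ] (List G → ℝ) where
  toFun := P.Phi
  map_add' φ ψ := by
    funext w
    simp only [PrD.Phi, PrD.Phi0, Pi.add_apply]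
    split_ifs <;> simp
  map_smul' c φ := by
    funext w
    simp only [PrD.Phi, PrD.Phi0, Pi.smul_apply, RingHom.id_apply]
    split_ifs <;> simp

/-- the expectation functional -/
noncomputable def PrD.Ex (m : ℕ) : (List G → ℝ) →ₗ[ℝ] ℂ := P.tr ∘ₗ P.PM m ∘ₗ P.PhiL

lemma PrD.Ex_apply (m : ℕ) (φ : List G → ℝ) : P.Ex m φ = P.tr (P.PM m (P.Phi φ)) := rfl

/-- invariance under the centralizer -/
def PrD.Inv (φ : List G → ℝ) : Prop := ∀ z, z * P.g = P.g * z → ∀ l, φ (l.map (z * ·)) = φ l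

lemma PrD.Phi_eq {φ : List G → ℝ} (hφ : P.Inv φ) {x : G} {w : List G}
    (h : x⁻¹ * P.g * x = w.prod) : P.Phi φ w = φ (verts x w) := by
  have h0 : ∃ x, x⁻¹ * P.g * x = w.prod := ⟨x, h⟩
  rw [PrD.Phi, PrD.Phi0, dif_pos h0]
  have h1 := h0.choose_spec
  set y := h0.choose
  have h2 : x = (x * y⁻¹) * y := by group
  rw [h2, verts_mul, hφ]
  have h3 : P.g = x * (y⁻¹ * P.g * y) * x⁻¹ := by rw [h1, ← h]; group
  conv_rhs => rw [h3]
  group

lemma PrD.Ex_congr (m : ℕ) {φ φ' : List G → ℝ} (h : ∀ l, l.length = m → φ l = φ' l) :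
    P.Ex m φ = P.Ex m φ' := by
  rw [P.Ex_apply, P.Ex_apply, P.PM_congr m _ (P.Phi φ')]
  intro w hw _
  simp only [PrD.Phi, PrD.Phi0]
  split_ifs
  · exact h _ (by simp [hw])
  · rfl

lemma PrD.Ex_erase_succ (m i : ℕ) (hi : i < m) (φ : List G → ℝ) :
    P.Ex (m + 1) (fun l => φ (l.eraseIdx (i + 1))) = P.Ex m φ := by
  rw [P.Ex_apply, P.Ex_apply, ← P.PM_mrg i m _ hi, P.PM_congr (m + 1) _ (fun w => P.Phi φ (mrg i w))]
  intro w hw _
  simp only [PrD.Phi]
  rw [prod_mrg]
  simp only [PrD.Phi0]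
  split_ifs
  · rw [verts_mrg _ _ _ (by omega)]
  · rfl

/-- twisted rotation -/
def PrD.rot : List G → List G
  | [] => []
  | x :: l => l ++ [P.g * x]

lemma PrD.Ex_rot (m : ℕ) {φ : List G → ℝ} (hφ : P.Inv φ) :
    P.Ex (m + 1) (fun l => φ (P.rot l)) = P.Ex (m + 1) φ := by
  rw [P.Ex_apply, P.Ex_apply, P.PM_succ, P.PM_snoc, map_sum, map_sum]
  refine Finset.sum_congr rfl fun s _ => ?_
  rw [P.tr_comm]
  congr 3
  funext w
  by_cases h : ∃ x, x⁻¹ * P.g * x = (s :: w).prod
  · have h1 := h.choose_spec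
    have h2 : (h.choose * s)⁻¹ * P.g * (h.choose * s) = (w ++ [s]).prod := by
      have : (h.choose * s)⁻¹ * P.g * (h.choose * s) =
          s⁻¹ * (h.choose⁻¹ * P.g * h.choose) * s := by group
      rw [this, h1]
      simp
    rw [P.Phi_eq hφ h2, PrD.Phi, PrD.Phi0, dif_pos h, verts_snoc]
    have h3 : h.choose * s * w.prod = P.g * h.choose := by
      have : P.g * h.choose = h.choose * (h.choose⁻¹ * P.g * h.choose) := by group
      rw [this, h1]
      simp [mul_assoc]
    rw [h3]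
    rfl
  · rw [PrD.Phi, PrD.Phi0, dif_neg h, PrD.Phi, PrD.Phi0, dif_neg]
    rintro ⟨x, hx⟩
    apply h
    refine ⟨x * s⁻¹, ?_⟩
    have : (x * s⁻¹)⁻¹ * P.g * (x * s⁻¹) = s * (x⁻¹ * P.g * x) * s⁻¹ := by group
    rw [this, hx]
    simp [mul_assoc]

lemma PrD.Inv.erase {φ : List G → ℝ} (hφ : P.Inv φ) (i : ℕ) :
    P.Inv (fun l => φ (l.eraseIdx i)) := by
  intro z hz l
  simp only
  rw [List.eraseIdx_map, hφ z hz]

lemma PrD.Ex_erase (m i : ℕ) (hm : 1 ≤ m) (hi : i ≤ m) {φ : List G → ℝ} (hφ : P.Inv φ) :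
    P.Ex (m + 1) (fun l => φ (l.eraseIdx i)) = P.Ex m φ := by
  rcases i with _ | i
  · obtain ⟨k, rfl⟩ : ∃ k, m = k + 1 := ⟨m - 1, by omega⟩
    rw [← P.Ex_erase_succ (k + 1) k (by omega) φ, ← P.Ex_rot _ (hφ.erase P (k + 1))]
    apply P.Ex_congr
    intro l hl
    match l, hl with
    | x :: l, hl =>
      have : l.length = k + 1 := by simpa using hl
      simp only [List.eraseIdx_zero, List.tail_cons, PrD.rot]
      rw [List.eraseIdx_append_of_length_le (by omega)]
      simp [this]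
  · exact P.Ex_erase_succ m i (by omega) φ

lemma PrD.Ex_alt (m : ℕ) (hm : 1 ≤ m) (he : Even m) {φ : List G → ℝ} (hφ : P.Inv φ) :
    P.Ex (m + 1) (fun l => ∑ i ∈ Finset.range l.length, (-1 : ℝ) ^ i * φ (l.eraseIdx i)) =
      P.Ex m φ := by
  rw [P.Ex_congr (m + 1) (φ' := ∑ i ∈ Finset.range (m + 1),
    (-1 : ℝ) ^ i • fun l => φ (l.eraseIdx i))]
  · rw [map_sum]
    have : ∀ i ∈ Finset.range (m + 1), P.Ex (m + 1) ((-1 : ℝ) ^ i • fun l => φ (l.eraseIdx i)) =
        (-1 : ℝ) ^ i • P.Ex m φ := by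
      intro i hi
      rw [map_smul, P.Ex_erase m i hm (by simpa [Nat.lt_succ_iff] using hi) hφ]
    rw [Finset.sum_congr rfl this, ← Finset.sum_smul, neg_one_geom_sum]
    simp [Nat.even_add_one, he]
  · intro l hl
    simp [hl]

open Classical in
lemma PrD.Ex_one :
    P.Ex 1 (fun _ => 1) = ∑ s ∈ P.S with (∃ x, x⁻¹ * P.g * x = s), P.tr (P.E s) := by
  rw [P.Ex_apply, P.PM_succ, map_sum, Finset.sum_filter]
  refine Finset.sum_congr rfl fun s _ => ?_
  have : [s].prod = s := by simp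
  simp only [P.PM_zero, PrD.Phi, this, PrD.Phi0]
  split_ifs <;> simp

lemma PrD.Ex_tendsto (m : ℕ) (φ : ℕ → List G → ℝ)
    (h : ∀ x w, w.length = m → (∀ s ∈ w, s ∈ P.S) →
      Tendsto (fun M => φ M (verts x w)) atTop (𝓝 0)) :
    Tendsto (fun M => P.Ex m (φ M)) atTop (𝓝 0) := by
  apply P.PM_tendsto m P.tr (fun M => P.Phi (φ M))
  intro w hw hS
  simp only [PrD.Phi, PrD.Phi0]
  split_ifs
  · exact h _ w hw hS
  · exact tendsto_const_nhds

end Vale.Agent.P184
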