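import Vale.Agent.P184.Height
import Vale.Agent.P184.Proc
import Vale.Agent.P184.Collapse
import Mathlib.Algebra.MonoidAlgebra.Basic
import Mathlib.LinearAlgebra.Matrix.Trace

/-!
Vanishing of the Hattori-Stallings trace at elements of infinite order.
-/

namespace Vale.Agent.P184

open Finset Filter Topology

variable {G R : Type*} [Group G] [Ring R] [Algebra ℝ R]

lemma alt_move {α : Type*} (ψ : List α → ℝ)
    (h : ∀ l1 a c l2, ψ (l1 ++ a :: c :: l2) = - ψ (l1 ++ c :: a :: l2)) (a : α) (l : List α) :
    ∀ l0 : List α, ψ (l0 ++ (l ++ [a])) = (-1) ^ l.length * ψ (l0 ++ a :: l) := by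
  induction l with
  | nil => intro l0; simp
  | cons b l ih =>
    intro l0
    have h1 := ih (l0 ++ [b])
    simp only [List.append_assoc, List.cons_append, List.nil_append] at h1 ⊢
    rw [h1, h l0 b a l, List.length_cons, pow_succ]
    ring

lemma chain_verts (P : PrD G R) (Γ : Gm G) (hΓ : ∀ s ∈ P.S, s⁻¹ ∈ Γ.T) (H : Subgroup G)
    [DecidableEq (G ⧸ H)] (w : List G) : ∀ x, (∀ s ∈ w, s ∈ P.S) →
      List.IsChain (Γ.Near 1) ((verts x w).map (prj H)) := by
  induction w with
  | nil => intro x _; simp [verts]
  | cons s w ih =>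
    intro x h
    have h1 := ih (x * s) fun t ht => h t (by simp [ht])
    match w, h1 with
    | [], _ => simp [verts]
    | t :: w, h1 =>
      simp only [verts, List.map_cons, List.isChain_cons_cons] at h1 ⊢
      refine ⟨?_, h1⟩
      rw [prj_mul_right]
      exact Gm.near_smul (hΓ s (h s (by simp))) _

theorem PrD.vanish (P : PrD G R) (hg : ¬ IsOfFinOrder P.g) : P.Ex 1 (fun _ => 1) = 0 := by
  classical
  obtain ⟨D, hm, hB, hgD⟩ := exists_PD hg
  let H := Subgroup.zpowers P.g
  let pfL : List G → ℝ := fun l => D.P (pl (l.map dl))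
  let thL : List G → ℝ := fun l => D.Th (pl (l.map dl))
  have hmap : ∀ z (l : List G), (l.map (z * ·)).map dl =
      (l.map dl).map (Finsupp.lmapDomain ℝ ℝ (z * ·)) := by
    intro z l
    simp only [List.map_map]
    congr 1
    funext x
    simp [dl]
  have hmass : ∀ z : G, D.mass ∘ₗ Finsupp.lmapDomain ℝ ℝ (z * ·) = D.mass := by
    intro z
    ext x
    simp [hm]
  have hpf : P.Inv pfL := fun z hz l => by
    simp only [pfL]
    rw [hmap, D.P_pl_map _ (hB z hz)]
  have hth : P.Inv thL := fun z hz l => by
    simp only [thL]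
    rw [hmap, D.Th_pl_map _ (hB z hz) (hmass z)]
  have hexp : ∀ l, thL l = ∑ i ∈ range l.length, (-1 : ℝ) ^ i * pfL (l.eraseIdx i) := by
    intro l
    simp only [thL, pfL, PD.Th, LinearMap.comp_apply]
    rw [ctr_pl _ _ (by
      intro a ha
      obtain ⟨x, _, rfl⟩ := List.mem_map.1 ha
      simp [hm, dl]), map_sum]
    simp [List.eraseIdx_map]
  have hrec : ∀ n, P.Ex (2 * n + 1) thL = (1 / 2 : ℝ) ^ n • P.Ex 1 (fun _ => 1) := by
    intro n
    induction n with
    | zero =>
      simp only [mul_zero, zero_add, pow_zero, one_smul]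
      apply P.Ex_congr
      intro l hl
      obtain ⟨x, rfl⟩ := List.length_eq_one_iff.1 hl
      simp only [thL, List.map_cons, List.map_nil]
      rw [D.Th_single]
      simp [hm, dl]
    | succ n ih =>
      have h1 : P.Ex (2 * (n + 1) + 1) thL = P.Ex (2 * (n + 1)) pfL := by
        rw [← P.Ex_alt (2 * (n + 1)) (by omega) (by simp) hpf]
        exact P.Ex_congr _ fun l _ => hexp l
      have h2 : P.Ex (2 * n + 1 + 1) pfL =
          P.Ex (2 * n + 1 + 1) (- pfL + fun l => thL (l.eraseIdx 0)) := by
        rw [← P.Ex_rot _ hpf]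
        apply P.Ex_congr
        intro l hl
        match l, hl with
        | x :: l, hl =>
          have h3 : l.length = 2 * n + 1 := by simpa using hl
          simp only [PrD.rot, pfL, thL, Pi.add_apply, Pi.neg_apply, List.map_append, List.map_cons,
            List.map_nil, List.eraseIdx_zero, List.tail_cons]
          rw [pl_move, List.append_nil, List.length_map, h3, map_smul, pl_cons, pl_cons]
          have h4 : dl (P.g * x) = dl x + (dl (P.g * x) - dl x) := by abel
          rw [h4, map_add, add_mul, map_add, D.P_gauge _ 1 (hgD x)]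
          simp [pow_succ]
          ring
      rw [map_add, map_neg, P.Ex_erase _ 0 (by omega) (by omega) hth, ih] at h2
      rw [h1, show 2 * (n + 1) = 2 * n + 1 + 1 by ring, pow_succ', mul_smul]
      set a := P.Ex (2 * n + 1 + 1) pfL
      set b := (1 / 2 : ℝ) ^ n • P.Ex 1 (fun _ => 1)
      have h5 : b = a + a := by linear_combination -h2
      rw [h5]
      simp
      ring
  let Γ : Gm G := ⟨insert 1 (P.S ∪ P.S.image (·⁻¹)), mem_insert_self _ _, by
    intro t ht
    simp only [mem_insert, mem_union, mem_image] at ht ⊢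
    rcases ht with rfl | ht | ⟨s, hs, rfl⟩
    · simp
    · exact Or.inr (Or.inr ⟨t, ht, rfl⟩)
    · exact Or.inr (Or.inl (by simpa using hs))⟩
  have hΓ : ∀ s ∈ P.S, s⁻¹ ∈ Γ.T := fun s hs =>
    mem_insert_of_mem (mem_union_right _ (mem_image_of_mem _ hs))
  obtain ⟨n, hn, hcol⟩ := collapse Γ (G ⧸ H)
  let L : (G ⧸ H →₀ ℝ) →ₗ[ℝ] (G →₀ ℝ) := Finsupp.lmapDomain ℝ ℝ sec
  let Θ : Ch (Pt (G ⧸ H)) →ₗ[ℝ] ℝ := lft fun l => D.Th (pl (l.map fun p => L p.val))
  have hΘ : ∀ l, Θ (sg l) = D.Th (pl (l.map fun p => L p.val)) := fun l => lft_sg _ _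
  obtain ⟨φ, ψ, h1, h2, h3, h4⟩ := hcol Θ
    (fun x hx => by
      refine (Submodule.mem_bot ℝ).1 (DA_map Θ ⊥ (fun l1 a c l2 => ?_) hx)
      simp only [gen, map_add, hΘ, List.map_append, List.map_cons, Submodule.mem_bot]
      rw [← map_add, pl_swap, map_zero])
    (fun c => by
      have : Θ ∘ₗ bd = 0 := ch_ext fun l => by
        have h5 := ctr_pl D.mass (l.map fun p => L p.val) (by
          intro a ha
          obtain ⟨p, _, rfl⟩ := List.mem_map.1 ha
          simp only [hm, L, Finsupp.lmapDomain_apply, ev_mapDomain]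
          exact p.mass)
        have h6 := congrArg D.Th h5
        simp only [LinearMap.comp_apply, bd_eq_sum, map_sum, map_smul, hΘ, LinearMap.zero_apply]
        simp only [map_sum, map_smul, List.length_map, List.eraseIdx_map] at h6
        rw [← h6]
        simp only [PD.Th, LinearMap.comp_apply, ctr_ctr, map_zero]
      exact DFunLike.congr_fun this c)
    (fun l hl s hs hp => by
      rw [hΘ, pl_eq_zero _ (s.image L) (card_image_le.trans_lt (by simpa [hl] using hs)), map_zero]
      intro a ha
      obtain ⟨p, hp', rfl⟩ := List.mem_map.1 ha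
      rw [coe_image, Submodule.span_image]
      exact Submodule.mem_map_of_mem (hp p hp'))
  have hinv : ∀ z (hz : z * P.g = P.g * z) c, Θ (mp (mapPt (autZ P.g z hz)) c) = Θ c := by
    intro z hz c
    have : Θ ∘ₗ mp (mapPt (autZ P.g z hz)) = Θ := ch_ext fun l => by
      simp only [LinearMap.comp_apply, mp_sg, hΘ]
      rw [← D.Th_pl_map _ (hB z hz) (hmass z) (l.map fun p => L p.val)]
      apply D.Th_congr
      simp only [List.map_map, List.forall₂_map_left_iff, List.forall₂_map_right_iff,
        List.forall₂_same, Function.comp_apply]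
      intro p _
      simp only [mapPt]
      induction p.val using Finsupp.induction_linear with
      | zero => simpa using D.gauge_zero
      | add f g hf hg =>
        have := D.gauge_add hf hg
        convert this using 1
        simp only [Finsupp.mapDomain_add, map_add]
        abel
      | single v r =>
        have := D.gauge_smul r (gauge_of_prj D hm hgD (x := sec (autZ P.g z hz v)) (y := z * sec v)
          (by rw [prj_sec, ← autZ_prj P.g z hz, prj_sec]))
        convert this using 1
        simp [L, dl, smul_sub]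
    exact DFunLike.congr_fun this c
  have hthΘ : ∀ l : List G, thL l = Θ (sg ((l.map (prj H)).map dlt)) := by
    intro l
    rw [hΘ]
    apply D.Th_congr
    simp only [List.map_map, List.forall₂_map_left_iff, List.forall₂_map_right_iff,
      List.forall₂_same, Function.comp_apply]
    intro x _
    have := gauge_of_prj D hm hgD (x := x) (y := sec (prj H x)) (prj_sec _).symm
    convert this using 2
    simp [L, dl, dlt]
  have hmain : ∀ k, P.Ex (2 * n + 1) thL = P.Ex (2 * n + 1) (fun l => φ k (l.map (prj H))) := by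
    intro k
    let ψG : List G → ℝ := fun l => ψ k (l.map (prj H))
    have hψ : P.Inv ψG := fun z hz l => by
      simp only [ψG]
      rw [← h3 k _ (autZ_isAut P.g z hz) (hinv z hz) (l.map (prj H))]
      simp only [List.map_map]
      congr 2
      funext x
      simp [H, autZ_prj]
    have h5 : P.Ex (2 * n) ψG = 0 := by
      obtain ⟨j, hj⟩ : ∃ j, 2 * n = 2 * j + 1 + 1 := ⟨n - 1, by omega⟩
      have h6 : P.Ex (2 * j + 1 + 1) ψG = P.Ex (2 * j + 1 + 1) (- ψG) := by
        rw [← P.Ex_rot _ hψ]
        apply P.Ex_congr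
        intro l hl
        match l, hl with
        | x :: l, hl =>
          have h7 : l.length = 2 * j + 1 := by simpa using hl
          have h8 := alt_move (ψ k) (h2 k) (prj H x) (l.map (prj H)) []
          simp only [PrD.rot, ψG, List.map_append, List.map_cons, List.map_nil, Pi.neg_apply,
            prj_mul (Subgroup.mem_zpowers P.g), H]
          simp only [List.nil_append, List.length_map, h7, H] at h8
          rw [h8]
          simp [pow_succ]
      rw [map_neg] at h6
      rw [hj]
      linear_combination h6 / 2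
    have h9 := P.Ex_alt (2 * n) (by omega) (by simp) hψ
    rw [h5] at h9
    rw [← add_zero (P.Ex (2 * n + 1) (fun l => φ k (l.map (prj H)))), ← h9, ← map_add]
    apply P.Ex_congr
    intro l _
    rw [hthΘ, h1 k]
    simp [ψG, List.eraseIdx_map]
  have hlim := P.Ex_tendsto (2 * n + 1) (fun k l => φ k (l.map (prj H))) (fun x w hw hS =>
    h4 _ (by simp [hw]) (chain_verts P Γ hΓ H w x hS))
  simp only [← hmain] at hlim
  have h0 := tendsto_nhds_unique tendsto_const_nhds hlim
  rw [hrec] at h0
  simpa using h0

section Matrix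

variable {ι : Type*} [Fintype ι] [DecidableEq ι]

lemma lin_mul (h : G → ℂ) (S : Finset G) (a b : MonoidAlgebra ℂ G) (ha : a.coeff.support ⊆ S)
    (hb : b.coeff.support ⊆ S) : Finsupp.linearCombination ℂ h (a * b).coeff =
      ∑ s ∈ S, ∑ t ∈ S, a.coeff s * (b.coeff t * h (s * t)) := by
  rw [MonoidAlgebra.mul_def, MonoidAlgebra.coeff_finsuppSum, map_finsuppSum,
    Finsupp.sum_of_support_subset _ ha _ (by simp)]
  refine sum_congr rfl fun s _ => ?_
  rw [MonoidAlgebra.coeff_finsuppSum, map_finsuppSum,
    Finsupp.sum_of_support_subset _ hb _ (by simp)]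
  refine sum_congr rfl fun t _ => ?_
  simp [mul_assoc]

omit [Group G] in
lemma lin_eq (h : G → ℂ) (S : Finset G) (a : MonoidAlgebra ℂ G) (ha : a.coeff.support ⊆ S) :
    Finsupp.linearCombination ℂ h a.coeff = ∑ s ∈ S, a.coeff s * h s := by
  rw [Finsupp.linearCombination_apply, Finsupp.sum_of_support_subset _ ha _ (by simp)]
  rfl

open Classical in
theorem bass (e : Matrix ι ι (MonoidAlgebra ℂ G)) (he : e * e = e) (g : G)
    (hg : ¬ IsOfFinOrder g) :
    ∑ i, ∑ h ∈ (e i i).coeff.support with IsConj g h, (e i i).coeff h = 0 := by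
  let S : Finset G := univ.biUnion fun p : ι × ι => (e p.1 p.2).coeff.support
  have hS : ∀ i j, (e i j).coeff.support ⊆ S := fun i j =>
    subset_biUnion_of_mem (fun p : ι × ι => (e p.1 p.2).coeff.support) (mem_univ (i, j))
  let P : PrD G (Matrix ι ι ℂ) :=
    { S := S
      E := fun s => Matrix.of fun i j => (e i j).coeff s
      tr := Matrix.traceLinearMap ι ℝ ℂ
      tr_comm := fun a b => Matrix.trace_mul_comm a b
      idem := fun H => by
        ext i j
        have h1 : ∀ l, Finsupp.linearCombination ℂ (fun r => H r l j) (e i l).coeff =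
            ∑ k, ∑ s ∈ S, ∑ t ∈ S, (e i k).coeff s * ((e k l).coeff t * H (s * t) l j) := by
          intro l
          conv_lhs => rw [← he, Matrix.mul_apply, MonoidAlgebra.coeff_sum, map_sum]
          exact sum_congr rfl fun k _ => lin_mul _ S _ _ (hS _ _) (hS _ _)
        simp only [Matrix.sum_apply, Matrix.mul_apply, Matrix.of_apply, mul_sum]
        rw [sum_comm (s := S) (t := univ) (f := fun r l => (e i l).coeff r * H r l j)]
        simp only [← lin_eq _ S _ (hS _ _), h1]
        rw [sum_comm (s := univ) (t := univ)]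
        simp only [sum_comm (s := univ) (t := S)]
      g := g }
  have h1 := P.vanish hg
  rw [P.Ex_one] at h1
  rw [← h1]
  simp only [P, Matrix.traceLinearMap_apply, Matrix.trace, Matrix.diag_apply, Matrix.of_apply]
  rw [sum_comm]
  refine sum_congr rfl fun i _ => ?_
  apply sum_subset
  · intro h hh
    obtain ⟨h2, h3⟩ := mem_filter.1 hh
    obtain ⟨c, hc⟩ := isConj_iff.1 h3
    exact mem_filter.2 ⟨hS i i h2, c⁻¹, by simpa using hc⟩
  · intro h hh hn
    obtain ⟨_, x, hx⟩ := mem_filter.1 hh
    by_contra h0
    exact hn (mem_filter.2 ⟨Finsupp.mem_support_iff.2 h0, isConj_iff.2 ⟨x⁻¹, by simpa using hx⟩⟩)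

end Matrix

end Vale.Agent.P184
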