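import Mathlib.Probability.Independence.InfinitePi
import Mathlib.Probability.UniformOn
import Vale.Agent.P184.Chain

/-!
Independent finite-valued noise over an arbitrary index set.
-/

namespace Vale.Agent.P184

open MeasureTheory ProbabilityTheory

section General

variable {V Ω₀ : Type*} [Fintype Ω₀] [Nonempty Ω₀] [MeasurableSpace Ω₀]
  [MeasurableSingletonClass Ω₀] (μ₀ : Measure Ω₀) [IsProbabilityMeasure μ₀]

/-- depends only on the coordinates in `W` -/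
def Dep {β : Type*} (W : Finset V) (f : (V → Ω₀) → β) : Prop :=
  ∀ ω ω' : V → Ω₀, (∀ v ∈ W, ω v = ω' v) → f ω = f ω'

omit [Fintype Ω₀] [MeasurableSpace Ω₀] [MeasurableSingletonClass Ω₀] in
lemma Dep.factor {β : Type*} {W : Finset V} {f : (V → Ω₀) → β} (h : Dep W f) :
    ∃ g : (W → Ω₀) → β, f = fun ω => g (fun i : W => ω i) := by
  classical
  refine ⟨fun y => f (fun v => if hv : v ∈ W then y ⟨v, hv⟩ else Classical.arbitrary _), ?_⟩
  funext ω
  apply h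
  intro v hv
  simp [hv]

lemma Loc.measurable {β : Type*} [MeasurableSpace β] {f : (V → Ω₀) → β} (h : Loc f) :
    Measurable f := by
  obtain ⟨W, hW⟩ := h
  obtain ⟨g, rfl⟩ := Dep.factor hW
  exact (measurable_of_finite g).comp (by fun_prop)

lemma Loc.measurableSet {p : (V → Ω₀) → Prop} (h : Loc p) : MeasurableSet {ω | p ω} :=
  h.measurable.setOf

/-- the product measure -/
noncomputable abbrev muP (V : Type*) : Measure (V → Ω₀) := Measure.infinitePi (fun _ : V => μ₀)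

omit [MeasurableSpace Ω₀] [MeasurableSingletonClass Ω₀] in
lemma Loc.bdd {f : (V → Ω₀) → ℝ} (h : Loc f) : ∃ C, ∀ ω, |f ω| ≤ C := by
  classical
  obtain ⟨W, hW⟩ := h
  obtain ⟨g, rfl⟩ := Dep.factor hW
  exact ⟨∑ y, |g y|, fun ω =>
    Finset.single_le_sum (f := fun y => |g y|) (fun _ _ => abs_nonneg _) (Finset.mem_univ _)⟩

lemma Loc.integrable {f : (V → Ω₀) → ℝ} (h : Loc f) : Integrable f (muP μ₀ V) := by
  obtain ⟨C, hC⟩ := h.bdd
  exact Integrable.of_bound h.measurable.aestronglyMeasurable C (Filter.Eventually.of_forall hC)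

lemma Dep.indep {W W' : Finset V} (hd : Disjoint W W') {p p' : (V → Ω₀) → Prop} (h : Dep W p)
    (h' : Dep W' p') : (muP μ₀ V).real {ω | p ω ∧ p' ω} =
      (muP μ₀ V).real {ω | p ω} * (muP μ₀ V).real {ω | p' ω} := by
  obtain ⟨g, rfl⟩ := h.factor
  obtain ⟨g', rfl⟩ := h'.factor
  have h1 : iIndepFun (fun (i : V) (ω : V → Ω₀) => ω i) (muP μ₀ V) :=
    iIndepFun_infinitePi (X := fun _ ω => ω) (by fun_prop)
  have h2 := h1.indepFun_finset W W' hd (by fun_prop)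
  have h3 := h2.measure_inter_preimage_eq_mul {y | g y} {y | g' y} (Set.toFinite _).measurableSet
    (Set.toFinite _).measurableSet
  simp only [measureReal_def]
  rw [← ENNReal.toReal_mul]
  exact congrArg ENNReal.toReal h3

lemma integral_reindex (σ : V ≃ V) {f : (V → Ω₀) → ℝ} (h : Loc f) :
    ∫ ω, f (fun v => ω (σ v)) ∂(muP μ₀ V) = ∫ ω, f ω ∂(muP μ₀ V) := by
  have h1 := Measure.map_infinitePi_infinitePi_of_inj (P := fun _ : V => μ₀) σ.injective
  conv_rhs => rw [muP, ← h1]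
  rw [integral_map (Measurable.aemeasurable (by fun_prop)) h.measurable.aestronglyMeasurable]

omit [Nonempty Ω₀] in
lemma muP_box (Y : Finset V) (t : V → Set Ω₀) :
    (muP μ₀ V).real {ω | ∀ y ∈ Y, ω y ∈ t y} = ∏ y ∈ Y, μ₀.real (t y) := by
  have := Measure.infinitePi_pi (μ := fun _ : V => μ₀) (s := Y) (t := t)
    (fun i _ => (Set.toFinite _).measurableSet)
  simp only [measureReal_def]
  rw [← ENNReal.toReal_prod, ← this]
  rfl

end General

section Geometric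

/-- parameters of the noise -/
structure NP where
  b : ℕ
  X : ℕ
  Q : ℕ
  hb : 1 ≤ b
  hQ : 0 < Q

variable (N : NP)

abbrev NP.Ω := Fin (N.b ^ N.X) × Fin N.Q

instance : Nonempty (Fin (N.b ^ N.X)) := ⟨⟨0, Nat.pow_pos N.hb⟩⟩
instance : Nonempty (Fin N.Q) := ⟨⟨0, N.hQ⟩⟩

noncomputable def NP.μ : Measure N.Ω := (uniformOn Set.univ).prod (uniformOn Set.univ)

instance : IsProbabilityMeasure N.μ := by
  unfold NP.μ
  infer_instance

def NP.ξ1 (a : Fin (N.b ^ N.X)) : ℕ := Nat.findGreatest (fun j => (a : ℕ) < N.b ^ (N.X - j)) N.X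

def NP.ξ (a : N.Ω) : ℕ := N.ξ1 a.1

noncomputable def NP.val (a : N.Ω) : ℝ := N.ξ a + ((a.2 : ℕ) : ℝ) / N.Q

lemma NP.ξ_le (a : N.Ω) : N.ξ a ≤ N.X := Nat.findGreatest_le _

lemma NP.frac_nonneg (a : N.Ω) : 0 ≤ ((a.2 : ℕ) : ℝ) / N.Q := by positivity

lemma NP.frac_lt (a : N.Ω) : ((a.2 : ℕ) : ℝ) / N.Q < 1 := by
  have : (0 : ℝ) < N.Q := by exact_mod_cast N.hQ
  rw [div_lt_one this]
  exact_mod_cast a.2.2

lemma NP.val_nonneg (a : N.Ω) : 0 ≤ N.val a := by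
  have := N.frac_nonneg a
  unfold NP.val
  positivity

lemma NP.val_lt (a : N.Ω) : N.val a < N.X + 1 := by
  have := N.frac_lt a
  have h2 : (N.ξ a : ℝ) ≤ N.X := by exact_mod_cast N.ξ_le a
  unfold NP.val
  linarith

lemma NP.le_ξ1 (a : Fin (N.b ^ N.X)) {j : ℕ} (hj : j ≤ N.X) :
    j ≤ N.ξ1 a ↔ (a : ℕ) < N.b ^ (N.X - j) := by
  constructor
  · intro h
    have h1 : (a : ℕ) < N.b ^ (N.X - N.ξ1 a) :=
      Nat.findGreatest_spec (P := fun j => (a : ℕ) < N.b ^ (N.X - j)) (Nat.zero_le _) a.2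
    exact h1.trans_le (Nat.pow_le_pow_right N.hb (by omega))
  · intro h
    exact Nat.le_findGreatest hj h

/-- tail function -/
noncomputable def NP.p (j : ℤ) : ℝ :=
  (uniformOn (Set.univ : Set (Fin (N.b ^ N.X)))).real {a | j ≤ N.ξ1 a}

lemma NP.p_nonneg (j : ℤ) : 0 ≤ N.p j := measureReal_nonneg

lemma NP.p_le_one (j : ℤ) : N.p j ≤ 1 := measureReal_le_one

lemma NP.p_of_nonpos {j : ℤ} (hj : j ≤ 0) : N.p j = 1 := by
  have : {a : Fin (N.b ^ N.X) | j ≤ N.ξ1 a} = Set.univ := by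
    ext a; simp only [Set.mem_ofPred_eq, Set.mem_univ, iff_true]; omega
  simp [NP.p, this]

lemma NP.p_of_gt {j : ℤ} (hj : N.X < j) : N.p j = 0 := by
  have : {a : Fin (N.b ^ N.X) | j ≤ N.ξ1 a} = ∅ := by
    ext a
    have : N.ξ1 a ≤ N.X := Nat.findGreatest_le _
    simp only [Set.mem_ofPred_eq, Set.mem_empty_iff_false, iff_false]; omega
  simp [NP.p, this]

lemma NP.p_nat {j : ℕ} (hj : j ≤ N.X) : N.p j = 1 / (N.b : ℝ) ^ j := by
  have hb : (0 : ℝ) < N.b := by exact_mod_cast N.hb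
  have h0 : N.b ^ (N.X - j) ≤ N.b ^ N.X := Nat.pow_le_pow_right N.hb (by omega)
  have h1 : {a : Fin (N.b ^ N.X) | (j : ℤ) ≤ N.ξ1 a} =
      ↑(Finset.univ.filter fun a : Fin (N.b ^ N.X) => (a : ℕ) < N.b ^ (N.X - j)) := by
    ext a
    simp [← N.le_ξ1 a hj]
  have h2 : (Finset.univ.filter fun a : Fin (N.b ^ N.X) => (a : ℕ) < N.b ^ (N.X - j)).card =
      N.b ^ (N.X - j) := by
    rw [Fin.card_filter_val_lt, min_eq_right h0]
  rw [NP.p, h1, measureReal_def, uniformOn_univ, Measure.count_apply_finset, h2]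
  simp only [Fintype.card_fin, Nat.cast_pow, ENNReal.toReal_div, ENNReal.toReal_pow,
    ENNReal.toReal_natCast]
  rw [div_eq_div_iff (by positivity) (by positivity), ← pow_add, one_mul]
  congr 1
  omega

lemma NP.p_cmp (j : ℤ) : N.p j ≤ (N.b : ℝ) ^ 5 * N.p (j + 5) + (N.b : ℝ) ^ 5 / N.b ^ N.X := by
  have hb : (1 : ℝ) ≤ N.b := by exact_mod_cast N.hb
  have hb5 : (1 : ℝ) ≤ (N.b : ℝ) ^ 5 := one_le_pow₀ hb
  have h0 := N.p_nonneg (j + 5)
  have hpos : 0 ≤ (N.b : ℝ) ^ 5 / N.b ^ N.X := by positivity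
  by_cases h1 : j + 5 ≤ 0
  · rw [N.p_of_nonpos h1]
    linarith [N.p_le_one j]
  by_cases h2 : j + 5 ≤ N.X
  · obtain ⟨k, hk⟩ : ∃ k : ℕ, j + 5 = k := ⟨(j + 5).toNat, by omega⟩
    rw [hk, N.p_nat (by omega)]
    by_cases h3 : j ≤ 0
    · have : (N.b : ℝ) ^ k ≤ N.b ^ 5 := pow_le_pow_right₀ hb (by omega)
      have h4 : 1 ≤ (N.b : ℝ) ^ 5 * (1 / N.b ^ k) := by
        rw [mul_one_div, le_div_iff₀ (by positivity)]; linarith
      linarith [N.p_le_one j]
    · obtain ⟨i, hi⟩ : ∃ i : ℕ, j = i := ⟨j.toNat, by omega⟩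
      have hki : k = i + 5 := by omega
      rw [hi, N.p_nat (by omega), hki]
      have : (N.b : ℝ) ^ 5 * (1 / N.b ^ (i + 5)) = 1 / N.b ^ i := by
        field_simp
        ring
      linarith
  · have h5 : 0 ≤ (N.b : ℝ) ^ 5 * N.p (j + 5) := by positivity
    by_cases h3 : j ≤ 0
    · have : (N.b : ℝ) ^ N.X ≤ N.b ^ 5 := pow_le_pow_right₀ hb (by omega)
      have h4 : 1 ≤ (N.b : ℝ) ^ 5 / N.b ^ N.X := by
        rw [le_div_iff₀ (by positivity)]; linarith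
      linarith [N.p_le_one j]
    by_cases h4 : j ≤ N.X
    · obtain ⟨i, rfl⟩ : ∃ i : ℕ, j = i := ⟨j.toNat, by omega⟩
      rw [N.p_nat (by omega)]
      have : 1 / (N.b : ℝ) ^ i ≤ (N.b : ℝ) ^ 5 / N.b ^ N.X := by
        rw [div_le_div_iff₀ (by positivity) (by positivity), one_mul, ← pow_add]
        exact pow_le_pow_right₀ hb (by omega)
      linarith
    · rw [N.p_of_gt (by omega)]
      linarith

lemma NP.μ_tail_frac (j : ℤ) (z : Fin N.Q) :
    N.μ.real {a | j ≤ N.ξ a ∧ a.2 = z} = N.p j / N.Q := by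
  have : {a : N.Ω | j ≤ N.ξ a ∧ a.2 = z} = {a | j ≤ N.ξ1 a} ×ˢ {z} := by
    ext a; simp [NP.ξ]
  rw [this, NP.μ, measureReal_prod_prod, NP.p]
  congr 1
  rw [measureReal_def, uniformOn_univ]
  simp

lemma NP.μ_not_tail (j : ℤ) : N.μ.real {a | ¬ j ≤ N.ξ a} = 1 - N.p j := by
  have : {a : N.Ω | ¬ j ≤ N.ξ a} = {a | j ≤ N.ξ1 a}ᶜ ×ˢ Set.univ := by
    ext a; simp [NP.ξ]
  rw [this, NP.μ, measureReal_prod_prod, NP.p, measureReal_compl (Set.toFinite _).measurableSet]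
  simp

end Geometric

end Vale.Agent.P184
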