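import Mathlib.Analysis.InnerProductSpace.Orientation
import Mathlib.MeasureTheory.Measure.Lebesgue.EqHaar
import Mathlib.Tactic

/-!
Counting grid points near a thin parallelepiped.
-/

namespace Vale.Agent.P184

open MeasureTheory Filter Topology Matrix

lemma hadamard {m : ℕ} (K : Matrix (Fin m) (Fin m) ℝ) (c : Fin m → ℝ)
    (h : ∀ i j, |K i j| ≤ c j) : |K.det| ≤ ∏ j, (√(m : ℝ) * c j) := by
  have : Fact (Module.finrank ℝ (EuclideanSpace ℝ (Fin m)) = m) := ⟨by simp⟩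
  let b := EuclideanSpace.basisFun (Fin m) ℝ
  let o := b.toBasis.orientation
  let v : Fin m → EuclideanSpace ℝ (Fin m) := fun j => WithLp.toLp 2 (fun i => K i j)
  have h1 := o.volumeForm_robust' b v
  have h2 := o.abs_volumeForm_apply_le v
  have h3 : b.toBasis.det v = K.det := by
    rw [Module.Basis.det_apply]
    congr 1
  rw [h1, h3] at h2
  refine h2.trans (Finset.prod_le_prod (fun _ _ => norm_nonneg _) fun j _ => ?_)
  have hc : 0 ≤ c j := (abs_nonneg _).trans (h j j)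
  rw [EuclideanSpace.norm_eq, ← Real.sqrt_sq hc, ← Real.sqrt_mul (by positivity)]
  apply Real.sqrt_le_sqrt
  calc ∑ i, ‖v j i‖ ^ 2 ≤ ∑ _i : Fin m, c j ^ 2 := by
        refine Finset.sum_le_sum fun i _ => ?_
        have : ‖v j i‖ ≤ c j := h i j
        gcongr
    _ = m * c j ^ 2 := by simp

open Classical in
lemma grid_count {m : ℕ} (𝒦 : Set (Matrix (Fin m) (Fin m) ℝ)) (hfin : 𝒦.Finite) (κ : ℝ)
    (hκ : ∀ K ∈ 𝒦, |K.det| < κ) : ∃ δ > 0, ∀ K ∈ 𝒦, ∀ (Q : ℕ) (η : ℝ), 0 < Q → η + 1 / Q ≤ δ →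
      ∀ o : Fin m → ℝ, ((Finset.univ.filter fun z : Fin m → Fin Q => ∃ σ : Fin m → ℝ,
        (∀ i, 0 ≤ σ i ∧ σ i ≤ 1) ∧ ∀ i, |((z i : ℕ) : ℝ) / Q - o i - (K *ᵥ σ) i| ≤ η).card : ℝ) ≤
        κ * Q ^ m := by
  let cube : Set (Fin m → ℝ) := Set.Icc 0 1
  let img : Matrix (Fin m) (Fin m) ℝ → Set (Fin m → ℝ) := fun K => Matrix.toLin' K '' cube
  have hev : ∀ K ∈ 𝒦, ∀ᶠ r in 𝓝 (0 : ℝ),
      volume (Metric.cthickening r (img K)) < ENNReal.ofReal κ := by
    intro K hK
    have hc : IsCompact (img K) :=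
      isCompact_Icc.image (LinearMap.continuous_of_finiteDimensional _)
    have h1 := tendsto_measure_cthickening_of_isCompact (μ := volume) hc
    have h2 : volume (img K) < ENNReal.ofReal κ := by
      simp only [img, cube]
      rw [Measure.addHaar_image_linearMap, LinearMap.det_toLin', Real.volume_Icc_pi]
      simp only [Pi.one_apply, Pi.zero_apply, sub_zero, ENNReal.ofReal_one, Finset.prod_const_one,
        mul_one]
      exact (ENNReal.ofReal_lt_ofReal_iff ((abs_nonneg _).trans_lt (hκ K hK))).2 (hκ K hK)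
    exact h1.eventually (gt_mem_nhds h2)
  have hall := (Filter.eventually_all_finite hfin).2 hev
  obtain ⟨ε, hε, hε'⟩ := Metric.eventually_nhds_iff.1 hall
  refine ⟨ε / 2, by positivity, fun K hK Q η hQ hη o => ?_⟩
  have hvol := hε' (y := ε / 2) (by rw [Real.dist_eq, sub_zero, abs_of_pos (by positivity)]; linarith)
    K hK
  set Z := Finset.univ.filter fun z : Fin m → Fin Q => ∃ σ : Fin m → ℝ,
        (∀ i, 0 ≤ σ i ∧ σ i ≤ 1) ∧ ∀ i, |((z i : ℕ) : ℝ) / Q - o i - (K *ᵥ σ) i| ≤ η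
  have hQ' : (0 : ℝ) < Q := by exact_mod_cast hQ
  let cell : (Fin m → Fin Q) → Set (Fin m → ℝ) := fun z =>
    Set.pi Set.univ fun i => Set.Ico (((z i : ℕ) : ℝ) / Q - o i) (((z i : ℕ) : ℝ) / Q - o i + 1 / Q)
  have hsub : (⋃ z ∈ Z, cell z) ⊆ Metric.cthickening (ε / 2) (img K) := by
    intro p hp
    simp only [Set.mem_iUnion] at hp
    obtain ⟨z, hz, hp⟩ := hp
    obtain ⟨σ, hσ, hz⟩ := (Finset.mem_filter.1 hz).2
    refine Metric.mem_cthickening_of_dist_le p (K *ᵥ σ) _ _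
      ⟨σ, ⟨fun i => (hσ i).1, fun i => (hσ i).2⟩, by simp⟩ ?_
    rw [dist_pi_le_iff (by positivity)]
    intro i
    have h1 := hp i (Set.mem_univ _)
    have h2 := abs_le.1 (hz i)
    rw [Real.dist_eq, abs_le]
    have h3 : 0 < 1 / (Q : ℝ) := by positivity
    constructor <;> linarith [h1.1, h1.2, h2.1, h2.2]
  have hdisj : (Z : Set (Fin m → Fin Q)).PairwiseDisjoint cell := by
    intro z _ z' _ hne
    rw [Function.onFun, Set.disjoint_left]
    intro p hp hp'
    apply hne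
    funext i
    have h1 := hp i (Set.mem_univ _)
    have h2 := hp' i (Set.mem_univ _)
    have h3 : ((z i : ℕ) : ℝ) / Q < ((z' i : ℕ) : ℝ) / Q + 1 / Q := by linarith [h1.1, h2.2]
    have h4 : ((z' i : ℕ) : ℝ) / Q < ((z i : ℕ) : ℝ) / Q + 1 / Q := by linarith [h1.2, h2.1]
    rw [← add_div, div_lt_div_iff_of_pos_right hQ'] at h3 h4
    have h5 : (z i : ℕ) < z' i + 1 := by exact_mod_cast h3
    have h6 : (z' i : ℕ) < z i + 1 := by exact_mod_cast h4
    ext; omega
  have hmeas : ∀ z ∈ Z, MeasurableSet (cell z) := fun z _ =>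
    MeasurableSet.univ_pi fun i => measurableSet_Ico
  have h1 := measure_biUnion_finset (μ := volume) hdisj hmeas
  have h2 : ∀ z ∈ Z, volume (cell z) = ENNReal.ofReal ((1 / Q) ^ m) := by
    intro z _
    simp only [cell]
    rw [Real.volume_pi_Ico]
    simp only [add_sub_cancel_left, Finset.prod_const, Finset.card_univ, Fintype.card_fin]
    rw [ENNReal.ofReal_pow (by positivity)]
  rw [Finset.sum_congr rfl h2, Finset.sum_const, nsmul_eq_mul] at h1
  have h3 := (measure_mono hsub).trans_lt hvol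
  rw [h1, ← ENNReal.ofReal_natCast, ← ENNReal.ofReal_mul (by positivity),
    ENNReal.ofReal_lt_ofReal_iff ((abs_nonneg _).trans_lt (hκ K hK))] at h3
  have h4 : (Z.card : ℝ) = Z.card * (1 / Q) ^ m * Q ^ m := by
    rw [mul_assoc, ← mul_pow, one_div_mul_cancel hQ'.ne', one_pow, mul_one]
  rw [h4]
  gcongr

end Vale.Agent.P184
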