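import Vale.Agent.P184.Noise
import Vale.Agent.P184.Vol

/-!
The probability that many centres nearly tie somewhere on a simplex.
-/

namespace Vale.Agent.P184

open MeasureTheory ProbabilityTheory Matrix Finset

lemma comb_bound {V : Type*} [DecidableEq V] (Y : Finset V) (m : ℕ) (α γ : V → ℝ) (Λ ρ : ℝ)
    (hΛ : 0 < Λ) (hα : ∀ y, 0 ≤ α y) (hγ1 : ∀ y, γ y ≤ 1)
    (hαγ : ∀ y, α y ≤ Λ * γ y + ρ) (hY : Y.card * ρ ≤ Λ) :
    ∑ A ∈ Y.powersetCard m, (∏ y ∈ A, α y) * ∏ y ∈ Y \ A, (1 - γ y) ≤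
      Λ ^ m * Real.exp (m + 1) := by
  set Γ := ∑ y ∈ Y, γ y
  have h1 : ∀ A ∈ Y.powersetCard m, (∏ y ∈ A, α y) * ∏ y ∈ Y \ A, (1 - γ y) ≤
      (Λ ^ m * Real.exp (m - Γ)) * ∏ y ∈ A, (α y / Λ) := by
    intro A hA
    obtain ⟨hAY, hAm⟩ := mem_powersetCard.1 hA
    have h2 : ∏ y ∈ Y \ A, (1 - γ y) ≤ Real.exp (m - Γ) := by
      calc ∏ y ∈ Y \ A, (1 - γ y) ≤ ∏ y ∈ Y \ A, Real.exp (- γ y) :=
            prod_le_prod (fun y _ => by linarith [hγ1 y])
              (fun y _ => by linarith [Real.add_one_le_exp (- γ y)])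
        _ = Real.exp (∑ y ∈ Y \ A, - γ y) := by rw [Real.exp_sum]
        _ ≤ Real.exp (m - Γ) := by
            apply Real.exp_le_exp.2
            have h3 := sum_sdiff (f := γ) hAY
            have h4 : ∑ y ∈ A, γ y ≤ m := by
              calc ∑ y ∈ A, γ y ≤ ∑ _y ∈ A, (1 : ℝ) := sum_le_sum fun y _ => hγ1 y
                _ = m := by simp [hAm]
            rw [sum_neg_distrib]
            linarith
    have h5 : ∏ y ∈ A, α y = Λ ^ m * ∏ y ∈ A, (α y / Λ) := by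
      rw [prod_div_distrib, prod_const, hAm]
      field_simp
    have h6 : 0 ≤ ∏ y ∈ A, (α y / Λ) := prod_nonneg fun y _ => div_nonneg (hα y) hΛ.le
    rw [h5]
    calc Λ ^ m * (∏ y ∈ A, (α y / Λ)) * ∏ y ∈ Y \ A, (1 - γ y)
        ≤ Λ ^ m * (∏ y ∈ A, (α y / Λ)) * Real.exp (m - Γ) := by gcongr
      _ = _ := by ring
  refine (sum_le_sum h1).trans ?_
  rw [← mul_sum]
  have h7 : ∑ A ∈ Y.powersetCard m, ∏ y ∈ A, (α y / Λ) ≤ Real.exp (Γ + 1) := by
    calc ∑ A ∈ Y.powersetCard m, ∏ y ∈ A, (α y / Λ) ≤ ∑ A ∈ Y.powerset, ∏ y ∈ A, (α y / Λ) :=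
          sum_le_sum_of_subset_of_nonneg
            (fun A hA => mem_powerset.2 (mem_powersetCard.1 hA).1)
            (fun A _ _ => prod_nonneg fun y _ => div_nonneg (hα y) hΛ.le)
      _ = ∏ y ∈ Y, (1 + α y / Λ) := (prod_one_add Y).symm
      _ ≤ ∏ y ∈ Y, Real.exp (α y / Λ) :=
          prod_le_prod (fun y _ => by have := div_nonneg (hα y) hΛ.le; linarith)
            (fun y _ => by linarith [Real.add_one_le_exp (α y / Λ)])
      _ = Real.exp (∑ y ∈ Y, α y / Λ) := by rw [Real.exp_sum]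
      _ ≤ Real.exp (Γ + 1) := by
          apply Real.exp_le_exp.2
          calc ∑ y ∈ Y, α y / Λ ≤ ∑ y ∈ Y, (γ y + ρ / Λ) := by
                refine sum_le_sum fun y _ => ?_
                rw [div_le_iff₀ hΛ, add_mul, div_mul_cancel₀ _ hΛ.ne']
                linarith [hαγ y]
            _ = Γ + Y.card * ρ / Λ := by
                rw [sum_add_distrib, sum_const, nsmul_eq_mul, mul_div_assoc]
            _ ≤ Γ + 1 := by
                have := (div_le_one hΛ).2 hY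
                linarith
  calc Λ ^ m * Real.exp (m - Γ) * ∑ A ∈ Y.powersetCard m, ∏ y ∈ A, (α y / Λ)
      ≤ Λ ^ m * Real.exp (m - Γ) * Real.exp (Γ + 1) := by gcongr
    _ = _ := by rw [mul_assoc, ← Real.exp_add]; congr 2; ring

/-- monotone grid corners -/
noncomputable def pcs (d r : ℕ) : Finset (Fin d → ℕ) := by
  classical
  exact (Fintype.piFinset fun _ => range (r + 1)).filter Monotone

lemma mem_pcs {d r : ℕ} {k : Fin d → ℕ} : k ∈ pcs d r ↔ (∀ i, k i ≤ r) ∧ Monotone k := by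
  simp [pcs]

lemma card_pcs (d r : ℕ) : (pcs d r).card ≤ 2 ^ (r + d) := by
  classical
  have hsm : ∀ k : Fin d → ℕ, Monotone k → StrictMono (fun i : Fin d => k i + i) := by
    intro k hk i j hij
    have := hk hij.le
    have h2 : (i : ℕ) < j := hij
    simp only
    omega
  calc (pcs d r).card ≤ ((range (r + d)).powerset).card := by
        apply card_le_card_of_injOn (fun k : Fin d → ℕ => univ.image fun i : Fin d => k i + (i : ℕ))
        · intro k hk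
          have hk' := mem_pcs.1 hk
          simp only [coe_powerset, Set.mem_preimage, Set.mem_powerset_iff, coe_image, coe_univ,
            coe_range]
          rintro _ ⟨i, -, rfl⟩
          have := hk'.1 i
          have := i.2
          simp only [Set.mem_Iio]
          omega
        · intro k hk k' hk' h
          have h1 : Set.range (fun i : Fin d => k i + i) = Set.range (fun i : Fin d => k' i + i) := by
            have := congrArg (fun s : Finset ℕ => (s : Set ℕ)) h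
            simpa using this
          have h2 := ((hsm k (mem_pcs.1 hk).2).range_inj (hsm k' (mem_pcs.1 hk').2)).1 h1
          funext i
          have := congrFun h2 i
          simpa using this
    _ = 2 ^ (r + d) := by simp

/-- the finite family of matrices -/
def Kset (d r : ℕ) : Set (Matrix (Fin (d + 1)) (Fin (d + 1)) ℝ) :=
  {K | ∃ J : Fin (d + 1) → Fin d → ℤ, (∀ i j, J i j ∈ Set.Icc (-2 : ℤ) 2) ∧
    K = Matrix.of fun i => Fin.cons 1 fun j => (J i j : ℝ) / r}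

lemma Kset_finite (d r : ℕ) : (Kset d r).Finite := by
  have h1 : {J : Fin (d + 1) → Fin d → ℤ | ∀ i j, J i j ∈ Set.Icc (-2 : ℤ) 2}.Finite :=
    Set.Finite.pi' (t := fun _ => {f : Fin d → ℤ | ∀ j, f j ∈ Set.Icc (-2 : ℤ) 2})
      fun _ => Set.Finite.pi' fun _ => Set.finite_Icc _ _
  refine (h1.image fun J => Matrix.of fun i => Fin.cons 1 fun j => (J i j : ℝ) / r).subset ?_
  rintro K ⟨J, hJ, rfl⟩
  exact ⟨J, hJ, rfl⟩

lemma Kset_det {d r : ℕ} {K} (hK : K ∈ Kset d r) :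
    |K.det| ≤ √((d + 1 : ℕ) : ℝ) * (√((d + 1 : ℕ) : ℝ) * (2 / r)) ^ d := by
  obtain ⟨J, hJ, rfl⟩ := hK
  refine (hadamard _ (Fin.cons 1 fun _ => 2 / r) ?_).trans ?_
  · intro i j
    refine Fin.cases ?_ (fun j => ?_) j
    · simp
    · simp only [of_apply, Fin.cons_succ]
      rw [abs_div, Nat.abs_cast]
      gcongr
      have := hJ i j
      rw [abs_le]
      exact ⟨by exact_mod_cast this.1, by exact_mod_cast this.2⟩
  · rw [Fin.prod_univ_succ]
    simp

variable {V : Type*} [DecidableEq V] (N : NP)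

/-- many near ties at a point of the simplex -/
def BadA (Y : Finset V) (d : ℕ) (c : ℕ → V → ℤ) (η : ℝ) (ω : V → N.Ω) : Prop :=
  ∃ t : ℕ → ℝ, (∀ i, 0 ≤ t i) ∧ ∑ i ∈ range (d + 1), t i = 1 ∧ ∃ A ⊆ Y, A.card = d + 1 ∧
    ∀ y ∈ A, ∀ y' ∈ Y, N.val (ω y') - ∑ i ∈ range (d + 1), t i * c i y' ≤
      N.val (ω y) - ∑ i ∈ range (d + 1), t i * c i y + η

/-- value at the corner -/
noncomputable def Dc {d : ℕ} (c : ℕ → V → ℤ) (r : ℕ) (k : Fin d → ℕ) (y : V) : ℝ :=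
  c d y - ∑ i : Fin d, (k i : ℝ) * ((c (i + 1) y - c i y : ℤ) / r)

omit [DecidableEq V] in
lemma exists_en (m : ℕ) (A : Finset V) : ∃ en : A.card = m → Fin m → V,
    ∀ h : A.card = m, (∀ i, en h i ∈ A) ∧ ∀ y ∈ A, ∃ i, en h i = y := by
  refine ⟨fun h i => ((A.equivFinOfCardEq h).symm i : V), fun h => ⟨fun i => ?_, fun y hy => ?_⟩⟩
  · exact ((A.equivFinOfCardEq h).symm i).2
  · exact ⟨A.equivFinOfCardEq h ⟨y, hy⟩, by simp⟩

omit [DecidableEq V] in
lemma badA_cover (Y : Finset V) (d r R : ℕ) (c : ℕ → V → ℤ) (η : ℝ) (hη : η ≤ 1) (hr0 : 0 < r)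
    (hr : 2 * d ≤ r) (hc0 : ∀ i y, 0 ≤ c i y) (hcR : ∀ i y, c i y ≤ R)
    (hc : ∀ i < d, ∀ y, |c (i + 1) y - c i y| ≤ 2) (ω : V → N.Ω) (h : BadA N Y d c η ω) :
    ∃ k ∈ pcs d r, ∃ j ∈ Finset.Icc (-(R : ℤ)) N.X, ∃ A ∈ Y.powersetCard (d + 1),
      (∀ y ∈ Y, ¬ j + ⌊Dc c r k y⌋ + 3 ≤ N.ξ (ω y)) ∧
      (∀ y ∈ A, j + ⌊Dc c r k y⌋ - 2 ≤ N.ξ (ω y)) ∧
      ∃ σ : Fin (d + 1) → ℝ, (∀ i, 0 ≤ σ i ∧ σ i ≤ 1) ∧ ∀ y ∈ A,
        |(((ω y).2 : ℕ) : ℝ) / N.Q - (Dc c r k y + j - N.ξ (ω y)) -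
          (σ 0 + ∑ i : Fin d, (((c i y - c (i + 1) y : ℤ) : ℝ) / r) * σ i.succ)| ≤ η := by
  obtain ⟨t, ht0, ht1, A, hAY, hAc, hA⟩ := h
  have hr' : (0 : ℝ) < r := by exact_mod_cast hr0
  let S : ℕ → ℝ := fun i => ∑ j ∈ range (i + 1), t j
  have hS0 : ∀ i, 0 ≤ S i := fun i => sum_nonneg fun j _ => ht0 j
  have hSm : Monotone S := fun i j hij =>
    sum_le_sum_of_subset_of_nonneg (range_mono (by omega)) fun j _ _ => ht0 j
  have hS1 : ∀ i : Fin d, S i ≤ 1 := fun i => ht1 ▸ hSm (show (i : ℕ) ≤ d from i.2.le)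
  let k : Fin d → ℕ := fun i => ⌊r * S i⌋₊
  let σ' : Fin d → ℝ := fun i => r * S i - k i
  have hσ0 : ∀ i, 0 ≤ σ' i := fun i => sub_nonneg.2 (Nat.floor_le (by have := hS0 i; positivity))
  have hσ1 : ∀ i, σ' i ≤ 1 := fun i => by
    have := Nat.lt_floor_add_one (r * S i)
    simp only [σ', k]
    linarith
  have hk : k ∈ pcs d r := by
    refine mem_pcs.2 ⟨fun i => ?_, fun i j hij => ?_⟩
    · apply Nat.floor_le_of_le
      have := hS1 i
      nlinarith
    · apply Nat.floor_le_floor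
      have := hSm (show (i : ℕ) ≤ j from hij)
      gcongr
  let D : V → ℝ := fun y => ∑ i ∈ range (d + 1), t i * c i y
  have hD : ∀ y, D y = Dc c r k y +
      ∑ i : Fin d, (((c i y - c (i + 1) y : ℤ) : ℝ) / r) * σ' i := by
    intro y
    have h1 := sum_range_by_parts (fun i => (c i y : ℝ)) t (d + 1)
    simp only [smul_eq_mul, Nat.add_sub_cancel, ht1, mul_one] at h1
    have h2 : D y = ∑ i ∈ range (d + 1), (c i y : ℝ) * t i := sum_congr rfl fun i _ => mul_comm _ _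
    rw [h2, h1, Dc, sub_add, ← sum_sub_distrib, Finset.sum_range]
    congr 1
    refine sum_congr rfl fun i _ => ?_
    simp only [σ', S]
    push_cast
    field_simp
    ring
  have hDc : ∀ y, |D y - Dc c r k y| ≤ 1 := by
    intro y
    rw [hD, add_sub_cancel_left]
    refine (abs_sum_le_sum_abs _ _).trans ?_
    calc ∑ i : Fin d, |(((c i y - c (i + 1) y : ℤ) : ℝ) / r) * σ' i| ≤ ∑ _i : Fin d, (2 / r : ℝ) := by
          refine sum_le_sum fun i _ => ?_
          rw [abs_mul, abs_div, abs_of_pos hr', abs_of_nonneg (hσ0 i)]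
          have h1 : |((c i y - c (i + 1) y : ℤ) : ℝ)| ≤ 2 := by
            have := hc i i.2 y
            rw [abs_sub_comm] at this
            exact_mod_cast this
          calc |((c i y - c (i + 1) y : ℤ) : ℝ)| / r * σ' i ≤ 2 / r * 1 := by
                gcongr
                · exact hσ0 i
                · exact hσ1 i
            _ = 2 / r := mul_one _
      _ = d * (2 / r) := by simp
      _ ≤ 1 := by
          rw [← mul_div_assoc, div_le_one hr']
          have : ((2 * d : ℕ) : ℝ) ≤ r := by exact_mod_cast hr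
          push_cast at this
          linarith
  have hD0 : ∀ y, 0 ≤ D y := fun y =>
    sum_nonneg fun i _ => mul_nonneg (ht0 i) (by exact_mod_cast hc0 i y)
  have hDR : ∀ y, D y ≤ R := fun y => by
    calc D y ≤ ∑ i ∈ range (d + 1), t i * R :=
          sum_le_sum fun i _ => mul_le_mul_of_nonneg_left (by exact_mod_cast hcR i y) (ht0 i)
      _ = R := by rw [← sum_mul, ht1, one_mul]
  have hAne : A.Nonempty := card_pos.1 (by omega)
  obtain ⟨y0, hy0, hmax⟩ := exists_max_image Y (fun y => N.val (ω y) - D y) (hAne.mono hAY)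
  set top := N.val (ω y0) - D y0
  have hfl := Int.floor_le top
  have hfl' := Int.lt_floor_add_one top
  refine ⟨k, hk, ⌊top⌋, ?_, A, mem_powersetCard.2 ⟨hAY, hAc⟩, ?_, ?_,
    Fin.cons (top - ⌊top⌋) σ', ?_, ?_⟩
  · rw [Finset.mem_Icc]
    constructor
    · rw [Int.le_floor]
      have := N.val_nonneg (ω y0)
      have := hDR y0
      push_cast
      simp only [top]
      linarith
    · rw [← Int.lt_add_one_iff, Int.floor_lt]
      have := N.val_lt (ω y0)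
      have := hD0 y0
      push_cast
      simp only [top]
      linarith
  · intro y hy hle
    have h1 := hmax y hy
    have h2 := abs_le.1 (hDc y)
    have h3 := Int.lt_floor_add_one (Dc c r k y)
    have h4 : ((⌊top⌋ + ⌊Dc c r k y⌋ + 3 : ℤ) : ℝ) ≤ ((N.ξ (ω y) : ℤ) : ℝ) := by exact_mod_cast hle
    have h5 := N.frac_nonneg (ω y)
    simp only [NP.val] at h1
    push_cast at h4
    linarith [h2.2]
  · intro y hy
    have h1 := hA y hy y0 hy0
    have h2 := abs_le.1 (hDc y)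
    have h3 := Int.floor_le (Dc c r k y)
    have h5 := N.frac_lt (ω y)
    have h4 : ((⌊top⌋ + ⌊Dc c r k y⌋ - 3 : ℤ) : ℝ) < ((N.ξ (ω y) : ℤ) : ℝ) := by
      push_cast
      change top ≤ N.val (ω y) - D y + η at h1
      simp only [NP.val] at h1
      linarith [h2.1]
    have h6 : ⌊top⌋ + ⌊Dc c r k y⌋ - 3 < (N.ξ (ω y) : ℤ) := by exact_mod_cast h4
    omega
  · intro i
    refine Fin.cases ?_ (fun i => ?_) i
    · simp only [Fin.cons_zero]
      constructor <;> linarith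
    · exact ⟨hσ0 i, hσ1 i⟩
  · intro y hy
    have h1 := hA y hy y0 hy0
    have h2 := hmax y (hAY hy)
    change top ≤ N.val (ω y) - D y + η at h1
    simp only [Fin.cons_zero, Fin.cons_succ]
    have h3 := hD y
    simp only [NP.val] at h1 h2
    rw [abs_le]
    constructor <;> linarith

open Classical in
theorem badA_le (Y : Finset V) (d r R : ℕ) (c : ℕ → V → ℤ) (η κ : ℝ) (hη : η ≤ 1) (hr0 : 0 < r)
    (hr : 2 * d ≤ r) (hc0 : ∀ i y, 0 ≤ c i y) (hcR : ∀ i y, c i y ≤ R)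
    (hc : ∀ i < d, ∀ y, |c (i + 1) y - c i y| ≤ 2) (hY : Y.card ≤ N.b ^ N.X) (hκ : 0 ≤ κ)
    (hgrid : ∀ K ∈ Kset d r, ∀ o : Fin (d + 1) → ℝ,
      ((Finset.univ.filter fun z : Fin (d + 1) → Fin N.Q => ∃ σ : Fin (d + 1) → ℝ,
        (∀ i, 0 ≤ σ i ∧ σ i ≤ 1) ∧ ∀ i, |((z i : ℕ) : ℝ) / N.Q - o i - (K *ᵥ σ) i| ≤ η).card : ℝ) ≤
        κ * N.Q ^ (d + 1)) :
    (muP N.μ V).real {ω | BadA N Y d c η ω} ≤
      2 ^ (r + d) * ((R + N.X + 1) * (5 ^ (d + 1) * κ *
        (((N.b : ℝ) ^ 5) ^ (d + 1) * Real.exp ((d + 1 : ℕ) + 1)))) := by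
  choose en hen using exists_en (V := V) (d + 1)
  have hQ : (0 : ℝ) < N.Q := by exact_mod_cast N.hQ
  have hb : (0 : ℝ) < N.b := by exact_mod_cast N.hb
  let μ := muP N.μ V
  let E3 : (Fin d → ℕ) → ℤ → Finset V → Set (V → N.Ω) := fun k j A => {ω |
      (∀ y ∈ Y, ¬ j + ⌊Dc c r k y⌋ + 3 ≤ N.ξ (ω y)) ∧
      (∀ y ∈ A, j + ⌊Dc c r k y⌋ - 2 ≤ N.ξ (ω y)) ∧
      ∃ σ : Fin (d + 1) → ℝ, (∀ i, 0 ≤ σ i ∧ σ i ≤ 1) ∧ ∀ y ∈ A,
        |(((ω y).2 : ℕ) : ℝ) / N.Q - (Dc c r k y + j - N.ξ (ω y)) -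
          (σ 0 + ∑ i : Fin d, (((c i y - c (i + 1) y : ℤ) : ℝ) / r) * σ i.succ)| ≤ η}
  have hcov : {ω | BadA N Y d c η ω} ⊆ ⋃ k ∈ pcs d r, ⋃ j ∈ Finset.Icc (-(R : ℤ)) N.X,
      ⋃ A ∈ Y.powersetCard (d + 1), E3 k j A := by
    intro ω hω
    obtain ⟨k, hk, j, hj, A, hA, h⟩ := badA_cover N Y d r R c η hη hr0 hr hc0 hcR hc ω hω
    simp only [Set.mem_iUnion]
    exact ⟨k, hk, j, hj, A, hA, h⟩
  have hE3 : ∀ k j, ∀ A ∈ Y.powersetCard (d + 1), μ.real (E3 k j A) ≤ 5 ^ (d + 1) * κ *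
      ((∏ y ∈ A, N.p (j + ⌊Dc c r k y⌋ - 2)) * ∏ y ∈ Y \ A, (1 - N.p (j + ⌊Dc c r k y⌋ - 2 + 5))) := by
    intro k j A hA
    obtain ⟨hAY, hAc⟩ := mem_powersetCard.1 hA
    obtain ⟨hen1, hen2⟩ := hen A hAc
    set e := en A hAc
    let K : Matrix (Fin (d + 1)) (Fin (d + 1)) ℝ :=
      Matrix.of fun i => Fin.cons 1 fun l : Fin d => ((c l (e i) - c (l + 1) (e i) : ℤ) : ℝ) / r
    have hK : K ∈ Kset d r := by
      refine ⟨fun i l => c l (e i) - c (l + 1) (e i), fun i l => ?_, rfl⟩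
      have := abs_le.1 (hc l l.2 (e i))
      beta_reduce
      constructor <;> omega
    let Z : (Fin (d + 1) → ℤ) → Finset (Fin (d + 1) → Fin N.Q) := fun n =>
      Finset.univ.filter fun z : Fin (d + 1) → Fin N.Q => ∃ σ : Fin (d + 1) → ℝ,
        (∀ i, 0 ≤ σ i ∧ σ i ≤ 1) ∧ ∀ i, |((z i : ℕ) : ℝ) / N.Q -
          (Dc c r k (e i) - ⌊Dc c r k (e i)⌋ - n i) - (K *ᵥ σ) i| ≤ η
    let box : (Fin (d + 1) → Fin N.Q) → V → Set N.Ω := fun z y =>
      if y ∈ A then {a | j + ⌊Dc c r k y⌋ - 2 ≤ N.ξ a ∧ ∀ i, e i = y → a.2 = z i}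
      else {a | ¬ j + ⌊Dc c r k y⌋ - 2 + 5 ≤ N.ξ a}
    have hcov2 : E3 k j A ⊆ ⋃ n ∈ Fintype.piFinset (fun _ : Fin (d + 1) => Finset.Icc (-2 : ℤ) 2),
        ⋃ z ∈ Z n, {ω | ∀ y ∈ Y, ω y ∈ box z y} := by
      rintro ω ⟨h1, h2, σ, hσ, h3⟩
      simp only [Set.mem_iUnion]
      refine ⟨fun i => N.ξ (ω (e i)) - j - ⌊Dc c r k (e i)⌋, ?_, fun i => (ω (e i)).2, ?_, ?_⟩
      · rw [Fintype.mem_piFinset]
        intro i
        have h4 := h1 _ (hAY (hen1 i))
        have h5 := h2 _ (hen1 i)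
        rw [Finset.mem_Icc]
        omega
      · refine mem_filter.2 ⟨mem_univ _, σ, hσ, fun i => ?_⟩
        have h4 := h3 _ (hen1 i)
        have h5 : (K *ᵥ σ) i = σ 0 + ∑ l : Fin d,
            (((c l (e i) - c (l + 1) (e i) : ℤ) : ℝ) / r) * σ l.succ := by
          simp [K, Matrix.mulVec, dotProduct, Fin.sum_univ_succ]
        rw [h5]
        convert h4 using 3
        push_cast
        ring
      · intro y hy
        simp only [box]
        split_ifs with hyA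
        · exact ⟨h2 y hyA, fun i hi => by rw [hi]⟩
        · have := h1 y hy
          simp only [Set.mem_ofPred_eq]
          omega
    have hbox : ∀ z, μ.real {ω | ∀ y ∈ Y, ω y ∈ box z y} ≤ (1 / N.Q) ^ (d + 1) *
        ((∏ y ∈ A, N.p (j + ⌊Dc c r k y⌋ - 2)) *
          ∏ y ∈ Y \ A, (1 - N.p (j + ⌊Dc c r k y⌋ - 2 + 5))) := by
      intro z
      rw [muP_box, ← prod_sdiff hAY, mul_comm, ← mul_assoc]
      have h1 : ∏ y ∈ Y \ A, N.μ.real (box z y) =
          ∏ y ∈ Y \ A, (1 - N.p (j + ⌊Dc c r k y⌋ - 2 + 5)) := by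
        refine prod_congr rfl fun y hy => ?_
        simp only [box]
        rw [if_neg (mem_sdiff.1 hy).2, N.μ_not_tail]
      have h2 : ∏ y ∈ A, N.μ.real (box z y) ≤ ∏ y ∈ A, (N.p (j + ⌊Dc c r k y⌋ - 2) / N.Q) := by
        refine prod_le_prod (fun _ _ => measureReal_nonneg) fun y hy => ?_
        obtain ⟨i, hi⟩ := hen2 y hy
        rw [← N.μ_tail_frac _ (z i)]
        refine measureReal_mono ?_
        simp only [box]
        rw [if_pos hy]
        exact fun a ha => ⟨ha.1, ha.2 i hi⟩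
      rw [h1]
      refine mul_le_mul_of_nonneg_right (h2.trans (le_of_eq ?_))
        (prod_nonneg fun y _ => sub_nonneg.2 (N.p_le_one _))
      rw [prod_div_distrib, prod_const, hAc, _root_.one_div_pow]
      ring
    set B := (∏ y ∈ A, N.p (j + ⌊Dc c r k y⌋ - 2)) *
          ∏ y ∈ Y \ A, (1 - N.p (j + ⌊Dc c r k y⌋ - 2 + 5))
    have hB : 0 ≤ B := mul_nonneg (prod_nonneg fun y _ => N.p_nonneg _)
      (prod_nonneg fun y _ => sub_nonneg.2 (N.p_le_one _))
    refine (measureReal_mono hcov2 (measure_ne_top _ _)).trans ((measureReal_biUnion_finset_le _ _).trans ?_)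
    have h3 : ∀ n, μ.real (⋃ z ∈ Z n, {ω | ∀ y ∈ Y, ω y ∈ box z y}) ≤ κ * B := by
      intro n
      refine (measureReal_biUnion_finset_le _ _).trans ?_
      refine (sum_le_sum fun z _ => hbox z).trans ?_
      rw [sum_const, nsmul_eq_mul]
      have h4 := hgrid K hK (fun i => Dc c r k (e i) - ⌊Dc c r k (e i)⌋ - n i)
      calc ((Z n).card : ℝ) * ((1 / N.Q) ^ (d + 1) * B)
          ≤ (κ * N.Q ^ (d + 1)) * ((1 / N.Q) ^ (d + 1) * B) := by gcongr
        _ = κ * B := by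
            rw [_root_.one_div_pow]
            field_simp
    refine (sum_le_sum fun n _ => h3 n).trans (le_of_eq ?_)
    rw [sum_const, nsmul_eq_mul, Fintype.card_piFinset]
    simp [mul_assoc]
  have hE2 : ∀ k j, μ.real (⋃ A ∈ Y.powersetCard (d + 1), E3 k j A) ≤ 5 ^ (d + 1) * κ *
      (((N.b : ℝ) ^ 5) ^ (d + 1) * Real.exp ((d + 1 : ℕ) + 1)) := by
    intro k j
    refine (measureReal_biUnion_finset_le _ _).trans ((sum_le_sum (hE3 k j)).trans ?_)
    rw [← mul_sum]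
    refine mul_le_mul_of_nonneg_left ?_ (by positivity)
    refine comb_bound Y (d + 1) _ _ _ ((N.b : ℝ) ^ 5 / N.b ^ N.X) (by positivity)
      (fun y => N.p_nonneg _) (fun y => N.p_le_one _)
      (fun y => N.p_cmp _) ?_
    have : (Y.card : ℝ) ≤ N.b ^ N.X := by exact_mod_cast hY
    calc (Y.card : ℝ) * ((N.b : ℝ) ^ 5 / N.b ^ N.X) ≤ N.b ^ N.X * ((N.b : ℝ) ^ 5 / N.b ^ N.X) := by
          gcongr
      _ = _ := by field_simp
  refine (measureReal_mono hcov (measure_ne_top _ _)).trans ((measureReal_biUnion_finset_le _ _).trans ?_)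
  set B := 5 ^ (d + 1) * κ * (((N.b : ℝ) ^ 5) ^ (d + 1) * Real.exp ((d + 1 : ℕ) + 1))
  have hB : 0 ≤ B := by positivity
  have hE1 : ∀ k, μ.real (⋃ j ∈ Finset.Icc (-(R : ℤ)) N.X,
      ⋃ A ∈ Y.powersetCard (d + 1), E3 k j A) ≤ (R + N.X + 1) * B := by
    intro k
    refine (measureReal_biUnion_finset_le _ _).trans ((sum_le_sum fun j _ => hE2 k j).trans ?_)
    rw [sum_const, nsmul_eq_mul, Int.card_Icc]
    have : ((N.X : ℤ) + 1 - -(R : ℤ)).toNat = R + N.X + 1 := by omega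
    rw [this]
    push_cast
    rfl
  refine (sum_le_sum fun k _ => hE1 k).trans ?_
  rw [sum_const, nsmul_eq_mul]
  have : ((pcs d r).card : ℝ) ≤ 2 ^ (r + d) := by exact_mod_cast card_pcs d r
  gcongr

end Vale.Agent.P184
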