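import Vale.Agent.P184.Rule
import Vale.Agent.P184.Prob
import Mathlib.Analysis.Complex.ExponentialBounds

/-!
Choice of the parameters and the percolation estimate.
-/

namespace Vale.Agent.P184

open Finset MeasureTheory Matrix

lemma num_choice (c : ℝ) (hc : 1 ≤ c) : ∃ n : ℕ, 3 ≤ n ∧ ∀ d : ℕ,
    (d + 1 = 2 * n + 1 ∨ d + 2 = 2 * n + 1) →
    √((d + 1 : ℕ) : ℝ) * (√((d + 1 : ℕ) : ℝ) * (2 / ((2 * (2 * n + 1) : ℕ) : ℝ))) ^ d <
      1 / (2 * c ^ (2 * n + 1)) := by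
  obtain ⟨n0, hn0⟩ := exists_nat_ge ((2 * c ^ 2) ^ 2)
  refine ⟨n0 + 3, by omega, fun d hd => ?_⟩
  set m := 2 * (n0 + 3) + 1 with hm
  have hm0 : (0 : ℝ) < m := by positivity
  set s := √(m : ℝ) with hs
  have hc2 : 1 ≤ c ^ 2 := one_le_pow₀ hc
  have hs1 : 2 * c ^ 2 ≤ s := by
    apply Real.le_sqrt_of_sq_le
    have : (n0 : ℝ) ≤ m := by exact_mod_cast (by omega : n0 ≤ m)
    linarith
  have hs0 : 0 < s := by linarith
  have hss : s * s = m := Real.mul_self_sqrt hm0.le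
  have h1 : √((d + 1 : ℕ) : ℝ) ≤ s := Real.sqrt_le_sqrt (by exact_mod_cast (by omega : d + 1 ≤ m))
  have h2 : √((d + 1 : ℕ) : ℝ) * (2 / ((2 * m : ℕ) : ℝ)) ≤ 1 / s := by
    calc √((d + 1 : ℕ) : ℝ) * (2 / ((2 * m : ℕ) : ℝ)) ≤ s * (2 / ((2 * m : ℕ) : ℝ)) := by gcongr
      _ = 1 / s := by
        push_cast
        rw [← hss]
        field_simp
  obtain ⟨e, he⟩ : ∃ e, m = e + 6 := ⟨m - 6, by omega⟩
  have h3 : (√((d + 1 : ℕ) : ℝ) * (2 / ((2 * m : ℕ) : ℝ))) ^ d ≤ (1 / s) ^ (e + 4) := by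
    calc _ ≤ (1 / s) ^ d := by gcongr
      _ ≤ (1 / s) ^ (e + 4) := pow_le_pow_of_le_one (by positivity)
          (by rw [div_le_one hs0]; linarith) (by omega)
  have h4 : 2 * c ^ m < s ^ (e + 3) := by
    calc 2 * c ^ m ≤ 2 * c ^ (2 * (e + 3)) := by
          have : c ^ m ≤ c ^ (2 * (e + 3)) := pow_le_pow_right₀ hc (by omega)
          linarith
      _ < 2 ^ (e + 3) * c ^ (2 * (e + 3)) := by
          have : (2 : ℝ) < 2 ^ (e + 3) := by
            calc (2 : ℝ) < 2 ^ 3 := by norm_num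
              _ ≤ 2 ^ (e + 3) := pow_le_pow_right₀ (by norm_num) (by omega)
          gcongr
      _ = (2 * c ^ 2) ^ (e + 3) := by rw [mul_pow, ← pow_mul]
      _ ≤ s ^ (e + 3) := by gcongr
  calc _ ≤ s * (1 / s) ^ (e + 4) := by gcongr
    _ = 1 / s ^ (e + 3) := by rw [_root_.one_div_pow]; field_simp; ring
    _ < 1 / (2 * c ^ m) := by
        apply one_div_lt_one_div_of_lt _ h4
        positivity

variable {G V : Type*} [Group G] [MulAction G V] [DecidableEq V]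

lemma CP.bad_badA (C : CP G) (v0 : V) {X : List V} {d : ℕ} (hd : X.length = d + 1)
    {ω : V → C.N.Ω} (h : C.Bad ω X) :
    BadA C.N (C.Yl X) d (fun i y => (C.Γ.dist C.R (X.getD i v0) y : ℤ)) C.η ω := by
  obtain ⟨u, hu, A, hA, hc, h⟩ := h
  obtain ⟨t, ht0, ht⟩ := u.exists_weights X v0 hu
  rw [hd] at ht
  refine ⟨t, ht0, ?_, A, hA, hc.trans hd, fun y hy y' hy' => ?_⟩
  · have := ht (fun _ => 1)
    simpa [u.mass] using this
  · have h1 := h y hy y' hy'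
    have h2 := ht (fun v => (C.Γ.dist C.R v y : ℝ))
    have h3 := ht (fun v => (C.Γ.dist C.R v y' : ℝ))
    simp only [CP.score, CP.D] at h1
    simp only [Int.cast_natCast]
    rw [h2, h3]
    exact h1

omit [MulAction G V] [DecidableEq V] in
lemma CP.muP_mono (C : CP G) {s t : Set (V → C.N.Ω)} (h : s ⊆ t) :
    (muP C.N.μ V).real s ≤ (muP C.N.μ V).real t := measureReal_mono h (measure_ne_top _ _)

lemma CP.sbad_le (C : CP G) (hm : 2 ≤ C.m) (pB : ℝ) (hp : 0 ≤ pB)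
    (h : ∀ X : List V, (X.length = C.m ∨ X.length + 1 = C.m) → List.IsChain (C.Γ.Near 2) X →
      (muP C.N.μ V).real {ω | C.Bad ω X} ≤ pB) (τ : ℕ) (hτ : C.Γ.T.card ≤ τ) (hτ1 : 1 ≤ τ) (v : V) :
    (muP C.N.μ V).real {ω | C.sbad ω v} ≤ 2 * ((τ : ℝ) ^ 3) ^ C.m * pB := by
  classical
  let L := ((C.Γ.ball C.m v).biUnion fun x => C.Γ.chs 2 (C.m - 1) x ∪ C.Γ.chs 2 (C.m - 2) x).filter
    fun X => (X.length = C.m ∨ X.length + 1 = C.m) ∧ List.IsChain (C.Γ.Near 2) X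
  have hcov : {ω | C.sbad ω v} ⊆ ⋃ X ∈ L, {ω | C.Bad ω X} := by
    rintro ω ⟨X, h1, h2, h3, h4⟩
    simp only [Set.mem_iUnion]
    refine ⟨X, mem_filter.2 ⟨?_, h1, h2⟩, h4⟩
    match X, h1, h2, h3 with
    | [], h1, _, _ => simp at h1; omega
    | x :: l, h1, h2, h3 =>
      refine mem_biUnion.2 ⟨x, h3 x (by simp), ?_⟩
      have := C.Γ.mem_chs 2 l x h2
      simp only [List.length_cons] at h1
      rcases h1 with h1 | h1
      · exact mem_union_left _ (by rwa [show C.m - 1 = l.length by omega])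
      · exact mem_union_right _ (by rwa [show C.m - 2 = l.length by omega])
  have hL : L.card ≤ 2 * (τ ^ 3) ^ C.m := by
    refine (card_filter_le _ _).trans (card_biUnion_le.trans ?_)
    have h1 : ∀ k ≤ C.m, ∀ x : V, (C.Γ.chs 2 k x).card ≤ (τ ^ 2) ^ C.m := fun k hk x =>
      (C.Γ.card_chs 2 k x).trans ((Nat.pow_le_pow_left (Nat.pow_le_pow_left hτ 2) k).trans
        (Nat.pow_le_pow_right (Nat.pow_pos hτ1) hk))
    have h2 : ∀ x ∈ C.Γ.ball C.m v, (C.Γ.chs 2 (C.m - 1) x ∪ C.Γ.chs 2 (C.m - 2) x).card ≤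
        2 * (τ ^ 2) ^ C.m := fun x _ => by
      have := card_union_le (C.Γ.chs 2 (C.m - 1) x) (C.Γ.chs 2 (C.m - 2) x)
      have := h1 (C.m - 1) (by omega) x
      have := h1 (C.m - 2) (by omega) x
      omega
    refine (sum_le_sum h2).trans ?_
    rw [sum_const, smul_eq_mul]
    calc _ ≤ τ ^ C.m * (2 * (τ ^ 2) ^ C.m) := Nat.mul_le_mul_right _
          ((C.Γ.card_ball _ v).trans (Nat.pow_le_pow_left hτ _))
      _ = 2 * (τ ^ 3) ^ C.m := by rw [mul_left_comm, ← mul_pow]; ring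
  refine (measureReal_mono hcov (measure_ne_top _ _)).trans
    ((measureReal_biUnion_finset_le _ _).trans ?_)
  refine (sum_le_sum fun X hX => h X (mem_filter.1 hX).2.1 (mem_filter.1 hX).2.2).trans ?_
  rw [sum_const, nsmul_eq_mul]
  have : (L.card : ℝ) ≤ 2 * ((τ : ℝ) ^ 3) ^ C.m := by exact_mod_cast hL
  gcongr

theorem exists_CP (Γ : Gm G) (V : Type*) [MulAction G V] [DecidableEq V] :
    ∃ n : ℕ, 1 ≤ n ∧ ∃ C : CP G, C.Γ = Γ ∧ C.m = 2 * n + 1 ∧ 0 < C.η ∧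
      C.N.X + C.m + 1 ≤ C.R ∧ ∃ p : ℝ, 0 ≤ p ∧
        (∀ v : V, (muP C.N.μ V).real {ω | C.sbad ω v} ≤ p) ∧
        (Γ.T.card : ℝ) ^ (2 * (C.m + C.R) + C.m) * p ≤ 1 / 2 := by
  set τ := Γ.T.card + 1 with hτ
  have hτ2 : 2 ≤ τ := by
    have := card_pos.2 ⟨1, Γ.one_mem⟩
    omega
  have hτr : (2 : ℝ) ≤ τ := by exact_mod_cast hτ2
  let c1 : ℝ := 8 * 9 * 5 * (τ : ℝ) ^ 10 * 9
  let c2 : ℝ := 2 * (τ : ℝ) ^ 16 * c1
  have hτ1 : (1 : ℝ) ≤ τ := by linarith
  have hc2 : 1 ≤ c2 := by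
    have h1 : (1 : ℝ) ≤ (τ : ℝ) ^ 10 := one_le_pow₀ hτ1
    have h2 : (1 : ℝ) ≤ (τ : ℝ) ^ 16 := one_le_pow₀ hτ1
    simp only [c2, c1]
    nlinarith
  obtain ⟨n, hn, hnum⟩ := num_choice c2 hc2
  set m := 2 * n + 1 with hm
  set κ := 1 / (2 * c2 ^ m) with hκ
  have hκ0 : 0 ≤ κ := by positivity
  obtain ⟨δ1, hδ1, hg1⟩ := grid_count (Kset (2 * n) (2 * m)) (Kset_finite _ _) κ
    (fun K hK => (Kset_det hK).trans_lt (hnum _ (Or.inl rfl)))
  obtain ⟨δ2, hδ2, hg2⟩ := grid_count (Kset (2 * n - 1) (2 * m)) (Kset_finite _ _) κ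
    (fun K hK => (Kset_det hK).trans_lt (hnum _ (Or.inr (by omega))))
  set η := min (min δ1 δ2 / 2) 1 with hη
  have hη0 : 0 < η := by positivity
  obtain ⟨Q0, hQ0⟩ := exists_nat_one_div_lt hη0
  have hQ : η + 1 / ((Q0 + 1 : ℕ) : ℝ) ≤ min δ1 δ2 := by
    have := min_le_left (min δ1 δ2 / 2) 1
    push_cast
    linarith
  let N : NP := ⟨τ ^ 2, 2 * m + 1, Q0 + 1, Nat.pow_pos (by omega), by omega⟩
  let C : CP G := ⟨Γ, N, 3 * m + 2, m, η⟩
  refine ⟨n, by omega, C, rfl, rfl, hη0, by simp only [C, N]; omega,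
    2 * ((τ : ℝ) ^ 3) ^ m * (κ * c1 ^ m), by positivity, fun v => ?_, ?_⟩
  · refine C.sbad_le (by simp only [C]; omega) _ (by positivity) (fun X hX hXc => ?_) τ
      (by simp only [C]; omega) (by omega) v
    obtain ⟨d, hd⟩ : ∃ d, X.length = d + 1 := ⟨X.length - 1, by simp only [C] at hX; omega⟩
    have hdm : d + 1 ≤ m := by simp only [C] at hX; omega
    have h1 := badA_le N (C.Yl X) d (2 * m) (3 * m + 2)
      (fun i y => (Γ.dist (3 * m + 2) (X.getD i v) y : ℤ)) η κ (min_le_right _ _) (by omega)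
      (by omega) (fun i y => by positivity) (fun i y => by exact_mod_cast Γ.dist_le _ _ _)
      (fun i hi y => by
        have h2 : Γ.Near 2 (X.getD i v) (X.getD (i + 1) v) := by
          have := List.isChain_iff_getElem.1 hXc i (by omega)
          rwa [List.getD_eq_getElem?_getD, List.getD_eq_getElem?_getD,
            List.getElem?_eq_getElem (by omega), List.getElem?_eq_getElem (by omega)]
        have h3 := h2.dist_lip (R := 3 * m + 2) y
        have h4 := h2.symm.dist_lip (R := 3 * m + 2) y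
        rw [abs_le]
        constructor <;> omega)
      (by
        refine card_biUnion_le.trans ((sum_le_sum fun x _ => Γ.card_ball _ x).trans ?_)
        rw [sum_const, smul_eq_mul]
        have h2 : X.toFinset.card ≤ τ ^ m := by
          refine (List.toFinset_card_le X).trans ?_
          calc X.length ≤ m := by omega
            _ ≤ 2 ^ m := Nat.lt_two_pow_self.le
            _ ≤ τ ^ m := Nat.pow_le_pow_left hτ2 _
        calc _ ≤ τ ^ m * τ ^ (3 * m + 2) :=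
              Nat.mul_le_mul h2 (Nat.pow_le_pow_left (by omega) _)
          _ = (τ ^ 2) ^ (2 * m + 1) := by rw [← pow_add, ← pow_mul]; congr 1; omega)
      hκ0 (by
        have hcase : d = 2 * n ∨ d = 2 * n - 1 := by simp only [C] at hX; omega
        rcases hcase with rfl | rfl
        · exact fun K hK => hg1 K hK _ _ N.hQ (hQ.trans (min_le_left _ _))
        · exact fun K hK => hg2 K hK _ _ N.hQ (hQ.trans (min_le_right _ _)))
    refine le_trans (C.muP_mono (fun ω hω => C.bad_badA v hd hω)) (h1.trans ?_)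
    have e1 : (2 : ℝ) ^ (2 * m + d) ≤ 8 ^ m := by
      calc (2 : ℝ) ^ (2 * m + d) ≤ 2 ^ (3 * m) := pow_le_pow_right₀ (by norm_num) (by omega)
        _ = 8 ^ m := by rw [pow_mul]; norm_num
    have e2 : (((3 * m + 2 : ℕ) : ℝ) + (N.X : ℕ) + 1) ≤ 9 ^ m := by
      have : 3 * m + 2 + (2 * m + 1) + 1 ≤ 9 ^ m := by
        have h1 : m ≤ 2 ^ (m - 1) := by
          have := @Nat.lt_two_pow_self (m - 1)
          omega
        have h2 : 2 ^ (m - 1) ≤ 9 ^ (m - 1) := Nat.pow_le_pow_left (by norm_num) _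
        have h3 : 9 ^ m = 9 * 9 ^ (m - 1) := by
          rw [← pow_succ']; congr 1
        omega
      simp only [N]
      exact_mod_cast this
    have e3 : (5 : ℝ) ^ (d + 1) ≤ 5 ^ m := pow_le_pow_right₀ (by norm_num) hdm
    have e4 : ((N.b : ℝ) ^ 5) ^ (d + 1) ≤ ((τ : ℝ) ^ 10) ^ m := by
      have : (N.b : ℝ) ^ 5 = (τ : ℝ) ^ 10 := by simp only [N]; push_cast; ring
      rw [this]
      exact pow_le_pow_right₀ (one_le_pow₀ hτ1) hdm
    have e5 : Real.exp (((d + 1 : ℕ) : ℝ) + 1) ≤ 9 ^ m := by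
      have h1 : Real.exp (((d + 1 : ℕ) : ℝ) + 1) = Real.exp 1 ^ (d + 2) := by
        rw [← Real.exp_nat_mul]; congr 1; push_cast; ring
      have h2 : Real.exp 1 ≤ 3 := by have := Real.exp_one_lt_d9; linarith
      rw [h1]
      calc Real.exp 1 ^ (d + 2) ≤ 3 ^ (d + 2) := by gcongr
        _ ≤ 3 ^ (2 * m) := pow_le_pow_right₀ (by norm_num) (by omega)
        _ = 9 ^ m := by rw [pow_mul]; norm_num
    calc _ ≤ (8 : ℝ) ^ m * (9 ^ m * (5 ^ m * κ * (((τ : ℝ) ^ 10) ^ m * 9 ^ m))) := by gcongr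
      _ = κ * c1 ^ m := by simp only [c1, mul_pow]; ring
  · have e1 : (Γ.T.card : ℝ) ^ (2 * (C.m + C.R) + C.m) ≤ ((τ : ℝ) ^ 13) ^ m := by
      calc (Γ.T.card : ℝ) ^ (2 * (C.m + C.R) + C.m) ≤ (τ : ℝ) ^ (2 * (C.m + C.R) + C.m) := by
            gcongr
            exact_mod_cast (by omega : Γ.T.card ≤ τ)
        _ ≤ (τ : ℝ) ^ (13 * m) := pow_le_pow_right₀ hτ1 (by simp only [C]; omega)
        _ = _ := by rw [pow_mul]
    have e2 : (2 : ℝ) ≤ 2 ^ m := by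
      calc (2 : ℝ) = 2 ^ 1 := by norm_num
        _ ≤ 2 ^ m := pow_le_pow_right₀ (by norm_num) (by omega)
    calc _ ≤ ((τ : ℝ) ^ 13) ^ m * (2 ^ m * ((τ : ℝ) ^ 3) ^ m * (κ * c1 ^ m)) := by gcongr
      _ = κ * c2 ^ m := by simp only [c2, mul_pow]; ring
      _ = 1 / 2 := by rw [hκ]; field_simp

lemma CP.chain_prob (C : CP G) (p : ℝ) (hp : 0 ≤ p)
    (h : ∀ v : V, (muP C.N.μ V).real {ω | C.sbad ω v} ≤ p) (c : List V)
    (hc : c.Pairwise fun x y => ¬ C.Γ.Near (2 * (C.m + C.R)) x y) :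
    (muP C.N.μ V).real {ω | ∀ x ∈ c, C.sbad ω x} ≤ p ^ c.length := by
  induction c with
  | nil => simp
  | cons a c ih =>
    rw [List.pairwise_cons] at hc
    have h1 : Dep (C.Γ.ball (C.m + C.R) a) (fun ω => C.sbad ω a) :=
      fun ω ω' h => propext (CP.sbad_congr h)
    have h2 : Dep (c.toFinset.biUnion (C.Γ.ball (C.m + C.R))) (fun ω => ∀ x ∈ c, C.sbad ω x) :=
      fun ω ω' h => propext (forall₂_congr fun x hx => CP.sbad_congr fun y hy =>
        h y (mem_biUnion.2 ⟨x, List.mem_toFinset.2 hx, hy⟩))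
    have h3 : Disjoint (C.Γ.ball (C.m + C.R) a) (c.toFinset.biUnion (C.Γ.ball (C.m + C.R))) := by
      rw [disjoint_left]
      intro y hy hy'
      obtain ⟨x, hx, hy'⟩ := mem_biUnion.1 hy'
      refine hc.1 x (List.mem_toFinset.1 hx) ?_
      rw [two_mul]
      exact Gm.Near.trans hy (Gm.Near.symm hy')
    have h4 := Dep.indep C.N.μ h3 h1 h2
    simp only [List.forall_mem_cons, List.length_cons]
    rw [h4, pow_succ']
    exact mul_le_mul (h a) (ih hc.2) measureReal_nonneg hp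

lemma CP.not_small_le (C : CP G) (p : ℝ) (hp : 0 ≤ p)
    (h : ∀ v : V, (muP C.N.μ V).real {ω | C.sbad ω v} ≤ p)
    (hE : (C.Γ.T.card : ℝ) ^ (2 * (C.m + C.R) + C.m) * p ≤ 1 / 2) (k : ℕ) (v : V) :
    (muP C.N.μ V).real {ω | ¬ C.small (2 * (k * (2 * (C.m + C.R) + C.m))) ω v} ≤ (1 / 2) ^ k := by
  classical
  set E := 2 * (C.m + C.R) + C.m
  let L := (C.Γ.chs E k v).filter fun c => c.tail.length = k ∧
    c.tail.Pairwise fun x y => ¬ C.Γ.Near (2 * (C.m + C.R)) x y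
  have hcov : {ω | ¬ C.small (2 * (k * E)) ω v} ⊆ ⋃ c ∈ L, {ω | ∀ x ∈ c.tail, C.sbad ω x} := by
    intro ω hω
    simp only [CP.small, Set.mem_ofPred_eq, not_forall] at hω
    obtain ⟨a, b, ha, hb, hab⟩ := hω
    have : ∃ a, C.conn ω v a ∧ ¬ C.Γ.Near (k * E) v a := by
      by_contra hcon
      push Not at hcon
      exact hab (by rw [two_mul]; exact (hcon a ha).symm.trans (hcon b hb))
    obtain ⟨a, ha, hna⟩ := this
    obtain ⟨c, hc1, hc2, hc3, hc4⟩ := Gm.extract (Γ := C.Γ) (C.sbad ω) C.m (2 * (C.m + C.R)) k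
      (fun _ => True) v a (Relation.ReflTransGen.mono (fun x y h => ⟨h.2.1, trivial, h.2.2⟩) _ _ ha)
      hna
    simp only [Set.mem_iUnion]
    refine ⟨v :: c, mem_filter.2 ⟨hc1 ▸ C.Γ.mem_chs E c v hc2, hc1, hc4.tail⟩,
      fun x hx => (hc3 x hx).1⟩
  refine (measureReal_mono hcov (measure_ne_top _ _)).trans
    ((measureReal_biUnion_finset_le _ _).trans ?_)
  have h1 : ∀ c ∈ L, (muP C.N.μ V).real {ω | ∀ x ∈ c.tail, C.sbad ω x} ≤ p ^ k := fun c hc => by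
    have := C.chain_prob p hp h c.tail (mem_filter.1 hc).2.2
    rwa [(mem_filter.1 hc).2.1] at this
  refine (sum_le_sum h1).trans ?_
  rw [sum_const, nsmul_eq_mul]
  have h2 : (L.card : ℝ) ≤ ((C.Γ.T.card : ℝ) ^ E) ^ k := by
    exact_mod_cast (card_filter_le _ _).trans (C.Γ.card_chs E k v)
  calc (L.card : ℝ) * p ^ k ≤ ((C.Γ.T.card : ℝ) ^ E) ^ k * p ^ k := by gcongr
    _ = ((C.Γ.T.card : ℝ) ^ E * p) ^ k := by rw [mul_pow]
    _ ≤ (1 / 2) ^ k := by gcongr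

end Vale.Agent.P184
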