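import Vale.Agent.P184.Pts
import Vale.Agent.P184.Geo
import Vale.Agent.P184.Noise

/-!
The random collapse rule, its equivariance and locality.
-/

namespace Vale.Agent.P184

open Finset

/-- parameters of the rule -/
structure CP (G : Type*) [Group G] where
  Γ : Gm G
  N : NP
  R : ℕ
  m : ℕ
  η : ℝ

variable {G V : Type*} [Group G] [MulAction G V] [DecidableEq V] (C : CP G)

noncomputable def CP.D (u : Pt V) (y : V) : ℝ := ev (fun v => (C.Γ.dist C.R v y : ℝ)) u.val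

noncomputable def CP.score (ω : V → C.N.Ω) (u : Pt V) (y : V) : ℝ := C.N.val (ω y) - C.D u y

noncomputable def CP.cand (u : Pt V) : Finset V := u.val.support.biUnion (C.Γ.ball C.R)

open Classical in
noncomputable def CP.W (ω : V → C.N.Ω) (u : Pt V) : Finset V :=
  (C.cand u).filter fun y => ∀ y' ∈ C.cand u, C.score ω u y' ≤ C.score ω u y

def CP.Yl (X : List V) : Finset V := X.toFinset.biUnion (C.Γ.ball C.R)

def CP.Bad (ω : V → C.N.Ω) (X : List V) : Prop :=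
  ∃ u : Pt V, (∀ v ∈ u.val.support, v ∈ X) ∧ ∃ A ⊆ C.Yl X, A.card = X.length ∧
    ∀ y ∈ A, ∀ y' ∈ C.Yl X, C.score ω u y' ≤ C.score ω u y + C.η

def CP.sbad (ω : V → C.N.Ω) (v : V) : Prop :=
  ∃ X : List V, (X.length = C.m ∨ X.length + 1 = C.m) ∧ List.IsChain (C.Γ.Near 2) X ∧
    (∀ x ∈ X, C.Γ.Near C.m v x) ∧ C.Bad ω X

def CP.rel (ω : V → C.N.Ω) (x y : V) : Prop := C.sbad ω x ∧ C.sbad ω y ∧ C.Γ.Near C.m x y

def CP.conn (ω : V → C.N.Ω) : V → V → Prop := Relation.ReflTransGen (C.rel ω)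

def CP.small (M : ℕ) (ω : V → C.N.Ω) (v : V) : Prop :=
  ∀ a b, C.conn ω v a → C.conn ω v b → C.Γ.Near M a b

open Classical in
noncomputable def CP.clus (M : ℕ) (ω : V → C.N.Ω) (v : V) : Finset V :=
  (C.Γ.ball M v).filter (C.conn ω v)

open Classical in
noncomputable def CP.CW (M : ℕ) (ω : V → C.N.Ω) (u : Pt V) : Finset V :=
  (u.val.support.filter fun v => C.sbad ω v ∧ C.small M ω v).biUnion (C.clus M ω)

open Classical in
noncomputable def CP.TW (M : ℕ) (ω : V → C.N.Ω) (u : Pt V) : Finset V :=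
  if (C.CW M ω u).Nonempty then C.CW M ω u else C.W ω u

noncomputable def CP.w (ω : V → C.N.Ω) (u : Pt V) : Pt V := unif (C.W ω u) u

noncomputable def CP.w' (M : ℕ) (ω : V → C.N.Ω) (u : Pt V) : Pt V := unif (C.TW M ω u) u

lemma CP.mem_cand {u : Pt V} {y : V} :
    y ∈ C.cand u ↔ ∃ v ∈ u.val.support, C.Γ.Near C.R v y := by
  simp only [CP.cand, mem_biUnion, Gm.Near]

lemma CP.mem_Yl {X : List V} {y : V} : y ∈ C.Yl X ↔ ∃ v ∈ X, C.Γ.Near C.R v y := by
  simp only [CP.Yl, mem_biUnion, Gm.Near, List.mem_toFinset]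

lemma CP.mem_W {ω : V → C.N.Ω} {u : Pt V} {y : V} :
    y ∈ C.W ω u ↔ y ∈ C.cand u ∧ ∀ y' ∈ C.cand u, C.score ω u y' ≤ C.score ω u y := by
  simp only [CP.W, mem_filter]

lemma CP.mem_clus {M : ℕ} {ω : V → C.N.Ω} {v y : V} :
    y ∈ C.clus M ω v ↔ C.Γ.Near M v y ∧ C.conn ω v y := by
  simp only [CP.clus, mem_filter, Gm.Near]

lemma CP.mem_CW {M : ℕ} {ω : V → C.N.Ω} {u : Pt V} {y : V} :
    y ∈ C.CW M ω u ↔ ∃ v ∈ u.val.support, C.sbad ω v ∧ C.small M ω v ∧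
      C.Γ.Near M v y ∧ C.conn ω v y := by
  simp only [CP.CW, mem_biUnion, mem_filter, C.mem_clus, and_assoc]

lemma CP.conn_symm {ω : V → C.N.Ω} {a b : V} (h : C.conn ω a b) : C.conn ω b a := by
  induction h with
  | refl => exact .refl
  | tail _ h ih => exact .head ⟨h.2.1, h.1, h.2.2.symm⟩ ih

lemma CP.small_conn {M : ℕ} {ω : V → C.N.Ω} {a b : V} (h : C.conn ω a b) (hs : C.small M ω a) :
    C.small M ω b := fun x y hx hy => hs x y (h.trans hx) (h.trans hy)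

section Equiv

variable {C} {σ : V ≃ V} (hσ : IsAut G σ) {ω ω' : V → C.N.Ω} (hω : ∀ v, ω' (σ v) = ω v)

include hσ in
lemma CP.D_map (u : Pt V) (y : V) : C.D (mapPt σ u) (σ y) = C.D u y := by
  simp only [CP.D, mapPt, ev_mapDomain]
  congr 2
  funext v
  simp [hσ.dist]

include hσ hω in
lemma CP.score_map (u : Pt V) (y : V) : C.score ω' (mapPt σ u) (σ y) = C.score ω u y := by
  simp only [CP.score, hω, CP.D_map hσ]

include hσ in
lemma CP.cand_map (u : Pt V) (y : V) : σ y ∈ C.cand (mapPt σ u) ↔ y ∈ C.cand u := by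
  simp only [C.mem_cand]
  rw [σ.surjective.exists]
  simp only [mem_supp_mapPt, hσ.near]

include hσ hω in
lemma CP.W_map (u : Pt V) (y : V) : σ y ∈ C.W ω' (mapPt σ u) ↔ y ∈ C.W ω u := by
  simp only [C.mem_W]
  rw [σ.surjective.forall]
  simp only [CP.cand_map hσ, CP.score_map hσ hω]

include hσ in
lemma CP.Yl_map (X : List V) (y : V) : σ y ∈ C.Yl (X.map σ) ↔ y ∈ C.Yl X := by
  simp only [C.mem_Yl]
  rw [σ.surjective.exists]
  simp only [List.mem_map_of_injective σ.injective, hσ.near]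

include hσ hω in
lemma CP.Bad_map {X : List V} (h : C.Bad ω X) : C.Bad ω' (X.map σ) := by
  obtain ⟨u, hu, A, hA, hc, h⟩ := h
  refine ⟨mapPt σ u, ?_, A.map σ.toEmbedding, ?_, by simpa using hc, ?_⟩
  · rw [σ.surjective.forall]
    intro v hv
    exact List.mem_map_of_mem (hu v ((mem_supp_mapPt σ u v).1 hv))
  · intro y0 hy0
    obtain ⟨y, hy, rfl⟩ := mem_map.1 hy0
    exact (CP.Yl_map hσ X y).2 (hA hy)
  · intro y0 hy0
    obtain ⟨y, hy, rfl⟩ := mem_map.1 hy0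
    rw [σ.surjective.forall]
    intro y' hy'
    simp only [Equiv.coe_toEmbedding, CP.score_map hσ hω]
    exact h y hy y' ((CP.Yl_map hσ X y').1 hy')

include hσ hω in
lemma CP.sbad_map0 {v : V} (h : C.sbad ω v) : C.sbad ω' (σ v) := by
  obtain ⟨X, h1, h2, h3, h4⟩ := h
  refine ⟨X.map σ, by simpa using h1, ?_, ?_, CP.Bad_map hσ hω h4⟩
  · rw [List.isChain_map]
    exact h2.imp fun _ _ h => hσ.near.2 h
  · intro x0 hx0
    obtain ⟨x, hx, rfl⟩ := List.mem_map.1 hx0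
    exact hσ.near.2 (h3 x hx)

include hσ hω in
lemma CP.sbad_map (v : V) : C.sbad ω' (σ v) ↔ C.sbad ω v := by
  refine ⟨fun h => ?_, CP.sbad_map0 hσ hω⟩
  have := CP.sbad_map0 (ω := ω') (ω' := ω) hσ.symm (fun v => by rw [← hω]; simp) h
  simpa using this

include hσ hω in
lemma CP.conn_map (a b : V) : C.conn ω' (σ a) (σ b) ↔ C.conn ω a b := by
  have key : ∀ {σ : V ≃ V} (_ : IsAut G σ) {ω ω' : V → C.N.Ω} (_ : ∀ v, ω' (σ v) = ω v) (a b : V),
      C.conn ω a b → C.conn ω' (σ a) (σ b) := by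
    intro σ hσ ω ω' hω a b h
    induction h with
    | refl => exact .refl
    | tail _ h ih => exact ih.tail ⟨(CP.sbad_map hσ hω _).2 h.1,
        (CP.sbad_map hσ hω _).2 h.2.1, hσ.near.2 h.2.2⟩
  refine ⟨fun h => ?_, key hσ hω a b⟩
  have := key (ω := ω') (ω' := ω) hσ.symm (fun v => by rw [← hω]; simp) _ _ h
  simpa using this

include hσ hω in
lemma CP.small_map (M : ℕ) (v : V) : C.small M ω' (σ v) ↔ C.small M ω v := by
  simp only [CP.small]
  rw [σ.surjective.forall₂]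
  simp only [CP.conn_map hσ hω, hσ.near]

include hσ hω in
lemma CP.CW_map (M : ℕ) (u : Pt V) (y : V) : σ y ∈ C.CW M ω' (mapPt σ u) ↔ y ∈ C.CW M ω u := by
  simp only [C.mem_CW]
  rw [σ.surjective.exists]
  simp only [mem_supp_mapPt, hσ.near, CP.conn_map hσ hω, CP.small_map hσ hω, CP.sbad_map hσ hω]

include hσ hω in
lemma CP.w'_map (M : ℕ) (u : Pt V) : C.w' M ω' (mapPt σ u) = mapPt σ (C.w' M ω u) := by
  have h1 : C.CW M ω' (mapPt σ u) = (C.CW M ω u).map σ.toEmbedding := by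
    ext y
    obtain ⟨y, rfl⟩ := σ.surjective y
    rw [CP.CW_map hσ hω]
    simp
  have h2 : C.W ω' (mapPt σ u) = (C.W ω u).map σ.toEmbedding := by
    ext y
    obtain ⟨y, rfl⟩ := σ.surjective y
    rw [CP.W_map hσ hω]
    simp
  have h3 : C.TW M ω' (mapPt σ u) = (C.TW M ω u).map σ.toEmbedding := by
    simp only [CP.TW, h1, h2, map_nonempty]
    split_ifs <;> rfl
  rw [CP.w', CP.w', h3, unif_map]

end Equiv

section Local

variable {C} {ω ω' : V → C.N.Ω}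

lemma CP.W_congr (u : Pt V) (h : ∀ y ∈ C.cand u, ω y = ω' y) : C.W ω u = C.W ω' u := by
  ext y
  simp only [C.mem_W, CP.score]
  refine and_congr_right fun hy => forall₂_congr fun y' hy' => ?_
  rw [h y hy, h y' hy']

lemma CP.Bad_congr {X : List V} (h : ∀ y ∈ C.Yl X, ω y = ω' y) (hb : C.Bad ω X) : C.Bad ω' X := by
  obtain ⟨u, hu, A, hA, hc, h'⟩ := hb
  refine ⟨u, hu, A, hA, hc, fun y hy y' hy' => ?_⟩
  have := h' y hy y' hy'
  simp only [CP.score] at this ⊢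
  rwa [← h y (hA hy), ← h y' hy']

lemma CP.sbad_congr {v : V} (h : ∀ y, C.Γ.Near (C.m + C.R) v y → ω y = ω' y) :
    C.sbad ω v ↔ C.sbad ω' v := by
  have key : ∀ {ω ω' : V → C.N.Ω}, (∀ y, C.Γ.Near (C.m + C.R) v y → ω y = ω' y) →
      C.sbad ω v → C.sbad ω' v := by
    rintro ω ω' h ⟨X, h1, h2, h3, h4⟩
    refine ⟨X, h1, h2, h3, CP.Bad_congr (fun y hy => ?_) h4⟩
    obtain ⟨x, hx, hy⟩ := C.mem_Yl.1 hy
    exact h y ((h3 x hx).trans hy)
  exact ⟨key h, key fun y hy => (h y hy).symm⟩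

lemma CP.conn_of_small {M : ℕ} {v : V}
    (h : ∀ y, C.Γ.Near (M + C.m + (C.m + C.R)) v y → ω y = ω' y) (hs : C.small M ω v) {a : V}
    (ha : C.conn ω' v a) : C.conn ω v a := by
  induction ha with
  | refl => exact .refl
  | @tail b c _ hbc ih =>
    have hb : C.Γ.Near M v b := hs v b .refl ih
    have hc : C.Γ.Near (M + C.m) v c := hb.trans hbc.2.2
    refine ih.tail ⟨(CP.sbad_congr fun y hy => h y ((hb.trans hy).mono (by omega))).2 hbc.1,
      (CP.sbad_congr fun y hy => h y (hc.trans hy)).2 hbc.2.1, hbc.2.2⟩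

lemma CP.CW_congr {M : ℕ} (u : Pt V) (h : ∀ v ∈ u.val.support, ∀ y,
    C.Γ.Near (M + C.m + (C.m + C.R)) v y → ω y = ω' y) : C.CW M ω u = C.CW M ω' u := by
  have key : ∀ {ω ω' : V → C.N.Ω}, (∀ v ∈ u.val.support, ∀ y,
      C.Γ.Near (M + C.m + (C.m + C.R)) v y → ω y = ω' y) → C.CW M ω u ⊆ C.CW M ω' u := by
    intro ω ω' h y hy
    obtain ⟨v, hv, h1, h2, h3, h4⟩ := C.mem_CW.1 hy
    have h5 : C.small M ω' v := fun a b ha hb =>
      h2 a b (CP.conn_of_small (h v hv) h2 ha) (CP.conn_of_small (h v hv) h2 hb)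
    exact C.mem_CW.2 ⟨v, hv, (CP.sbad_congr fun y hy => h v hv y (hy.mono (by omega))).1 h1, h5,
      h3, CP.conn_of_small (fun y hy => (h v hv y hy).symm) h5 h4⟩
  exact Subset.antisymm (key h) (key fun v hv y hy => (h v hv y hy).symm)

lemma CP.loc_w (u : Pt V) : Loc fun ω : V → C.N.Ω => C.w ω u :=
  ⟨C.cand u, fun ω ω' h => by simp only [CP.w, CP.W_congr u h]⟩

lemma CP.loc_w' (M : ℕ) (u : Pt V) : Loc fun ω : V → C.N.Ω => C.w' M ω u := by
  refine ⟨u.val.support.biUnion (C.Γ.ball (M + C.m + (C.m + C.R))), fun ω ω' h => ?_⟩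
  have h1 : ∀ v ∈ u.val.support, ∀ y, C.Γ.Near (M + C.m + (C.m + C.R)) v y → ω y = ω' y :=
    fun v hv y hy => h y (mem_biUnion.2 ⟨v, hv, hy⟩)
  have h2 : C.W ω u = C.W ω' u := CP.W_congr u fun y hy => by
    obtain ⟨v, hv, hy⟩ := C.mem_cand.1 hy
    exact h1 v hv y (hy.mono (by omega))
  simp only [CP.w', CP.TW, CP.CW_congr u h1, h2]

end Local

section Det

variable {C} {ω : V → C.N.Ω}

lemma CP.W_nonempty (u : Pt V) : (C.W ω u).Nonempty := by
  obtain ⟨v, hv⟩ := u.nonempty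
  obtain ⟨y, hy, h⟩ := exists_max_image (C.cand u) (C.score ω u)
    ⟨v, C.mem_cand.2 ⟨v, hv, Gm.near_refl _ _⟩⟩
  exact ⟨y, C.mem_W.2 ⟨hy, h⟩⟩

lemma CP.W_max (hR : C.N.X + C.m + 1 ≤ C.R) {u : Pt V}
    (hu : ∀ a ∈ u.val.support, ∀ b ∈ u.val.support, C.Γ.Near C.m a b) {y : V} (hy : y ∈ C.W ω u)
    (y' : V) : C.score ω u y' ≤ C.score ω u y := by
  obtain ⟨_, h2⟩ := C.mem_W.1 hy
  by_cases h : y' ∈ C.cand u
  · exact h2 y' h
  obtain ⟨v, hv⟩ := u.nonempty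
  refine le_trans ?_ (h2 v (C.mem_cand.2 ⟨v, hv, Gm.near_refl _ _⟩))
  have h3 : (C.R : ℝ) ≤ C.D u y' := u.le_ev fun a ha => by
    rw [Gm.dist_eq_of_not_near fun h' => h (C.mem_cand.2 ⟨a, ha, h'⟩)]
  have h4 : C.D u v ≤ C.m := u.ev_le fun a ha => by exact_mod_cast (hu a ha v hv).dist_le
  have h5 := C.N.val_lt (ω y')
  have h6 := C.N.val_nonneg (ω v)
  have h7 : ((C.N.X + C.m + 1 : ℕ) : ℝ) ≤ C.R := by exact_mod_cast hR
  push_cast at h7
  simp only [CP.score]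
  linarith

lemma CP.card_lt (hR : C.N.X + C.m + 1 ≤ C.R) {X : List V}
    (hX : ∀ a ∈ X, ∀ b ∈ X, C.Γ.Near C.m a b) (U : Finset (Pt V)) {p0 : Pt V} (hp0 : p0 ∈ U)
    (hU : ∀ p ∈ U, ∀ v ∈ p.val.support, v ∈ X)
    (hO : ∀ p ∈ U, ∀ q ∈ U, ∀ y, C.D p y - C.D q y ≤ C.η / 2) (hb : ¬ C.Bad ω X) :
    (U.biUnion (C.W ω)).card < X.length := by
  by_contra hc
  obtain ⟨A, hA, hAc⟩ := exists_subset_card_eq (not_lt.1 hc)
  refine hb ⟨p0, hU p0 hp0, A, fun y hy => ?_, hAc, fun y hy y' _ => ?_⟩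
  · obtain ⟨p, hp, hy⟩ := mem_biUnion.1 (hA hy)
    obtain ⟨v, hv, hy⟩ := C.mem_cand.1 (C.mem_W.1 hy).1
    exact C.mem_Yl.2 ⟨v, hU p hp v hv, hy⟩
  · obtain ⟨p, hp, hy⟩ := mem_biUnion.1 (hA hy)
    have h1 := CP.W_max hR (fun a ha b hb => hX a (hU p hp a ha) b (hU p hp b hb)) hy y'
    have h2 := hO p hp p0 hp0 y'
    have h3 := hO p0 hp0 p hp y
    simp only [CP.score] at h1 ⊢
    linarith

lemma CP.collapse_list (hR : C.N.X + C.m + 1 ≤ C.R) (hm : 2 ≤ C.m) {M : ℕ} {X : List V}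
    (hXl : X.length = C.m) (hXc : List.IsChain (C.Γ.Near 1) X)
    (hsm : ∀ v ∈ X, C.sbad ω v → C.small M ω v) (l : List (Pt V)) (hl : l.length = C.m)
    (hU : ∀ p ∈ l, ∀ v ∈ p.val.support, v ∈ X)
    (hO : ∀ p ∈ l, ∀ q ∈ l, ∀ y, C.D p y - C.D q y ≤ C.η / 2) :
    ∃ s : Finset (V →₀ ℝ), s.card < C.m ∧
      ∀ p ∈ l, (C.w' M ω p).val ∈ Submodule.span ℝ (s : Set (V →₀ ℝ)) := by
  classical
  have hX : ∀ a ∈ X, ∀ b ∈ X, C.Γ.Near C.m a b := by
    have := Gm.chain_near₂ X hXc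
    rwa [one_mul, hXl] at this
  let U := l.toFinset.filter fun p => ¬ (C.CW M ω p).Nonempty
  let B := U.biUnion (C.W ω)
  have hUl : ∀ p ∈ U, p ∈ l := fun p hp => List.mem_toFinset.1 (mem_filter.1 hp).1
  have hun : ∀ s : Finset (V →₀ ℝ), B.image (fun y => Finsupp.single y (1 : ℝ)) ⊆ s →
      ∀ p ∈ l, ¬ (C.CW M ω p).Nonempty →
        (C.w' M ω p).val ∈ Submodule.span ℝ (s : Set (V →₀ ℝ)) := by
    intro s hs p hp hn
    rw [CP.w', CP.TW, if_neg hn, unif_val (CP.W_nonempty p)]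
    exact unif0_mem_span (subset_biUnion_of_mem _ (mem_filter.2 ⟨List.mem_toFinset.2 hp, hn⟩)) hs
  by_cases hb : ∃ v ∈ X, C.sbad ω v
  · obtain ⟨v0, hv0, hb0⟩ := hb
    have hs0 := hsm v0 hv0 hb0
    refine ⟨insert (unif0 (C.clus M ω v0)) (B.image fun y => Finsupp.single y (1 : ℝ)), ?_, ?_⟩
    · have h1 : B.card + 1 < C.m := by
        rcases U.eq_empty_or_nonempty with h | ⟨p0, hp0⟩
        · simp only [B, h, biUnion_empty, card_empty]
          omega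
        obtain ⟨i, hi, rfl⟩ := List.getElem_of_mem hv0
        have hgood : ∀ p ∈ U, ∀ v ∈ p.val.support, ¬ C.sbad ω v := by
          intro p hp v hv hbv
          exact (mem_filter.1 hp).2 ⟨v, C.mem_CW.2
            ⟨v, hv, hbv, hsm v (hU p (hUl p hp) v hv) hbv, Gm.near_refl _ _, .refl⟩⟩
        have hlen : (X.eraseIdx i).length + 1 = C.m := by
          rw [List.length_eraseIdx_of_lt hi]; omega
        have hsub : ∀ x ∈ X.eraseIdx i, x ∈ X := fun x hx => List.mem_of_mem_eraseIdx hx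
        obtain ⟨v1, hv1⟩ := p0.nonempty
        have := CP.card_lt (ω := ω) hR (X := X.eraseIdx i)
          (fun a ha b hb => hX a (hsub a ha) b (hsub b hb)) U hp0 (fun p hp v hv => by
            obtain ⟨j, hj, rfl⟩ := List.getElem_of_mem (hU p (hUl p hp) v hv)
            refine List.mem_eraseIdx_iff_getElem.2 ⟨j, hj, ?_, rfl⟩
            rintro rfl
            exact hgood p hp _ hv hb0)
          (fun p hp q hq => hO p (hUl p hp) q (hUl q hq))
          (fun hbad => hgood p0 hp0 v1 hv1 ⟨X.eraseIdx i, Or.inr hlen, Gm.chain_erase X i hXc,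
            fun x hx => hX v1 (hU p0 (hUl p0 hp0) v1 hv1) x (hsub x hx), hbad⟩)
        change B.card < _ at this
        omega
      have h2 := card_insert_le (unif0 (C.clus M ω v0)) (B.image fun y => Finsupp.single y (1 : ℝ))
      have h3 := card_image_le (s := B) (f := fun y => Finsupp.single y (1 : ℝ))
      omega
    · intro p hp
      by_cases hn : (C.CW M ω p).Nonempty
      · have h1 : C.CW M ω p = C.clus M ω v0 := by
          have h2 : ∀ v ∈ p.val.support, C.sbad ω v → C.conn ω v0 v := fun v hv hbv =>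
            .single ⟨hb0, hbv, hX v0 hv0 v (hU p hp v hv)⟩
          ext y
          rw [C.mem_CW, C.mem_clus]
          constructor
          · rintro ⟨v, hv, h3, _, _, h5⟩
            have h6 := (h2 v hv h3).trans h5
            exact ⟨hs0 v0 y .refl h6, h6⟩
          · rintro ⟨_, h4⟩
            obtain ⟨y0, hy0⟩ := hn
            obtain ⟨v, hv, h5, h6, _, _⟩ := C.mem_CW.1 hy0
            have h7 := (C.conn_symm (h2 v hv h5)).trans h4
            exact ⟨v, hv, h5, h6, h6 v y .refl h7, h7⟩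
        rw [CP.w', CP.TW, if_pos hn, unif_val hn, h1]
        exact Submodule.subset_span (mem_insert_self _ _)
      · exact hun _ (subset_insert _ _) p hp hn
  · push Not at hb
    have hall : ∀ p ∈ l, ¬ (C.CW M ω p).Nonempty := by
      rintro p hp ⟨y, hy⟩
      obtain ⟨v, hv, h1, _⟩ := C.mem_CW.1 hy
      exact hb v (hU p hp v hv) h1
    refine ⟨_, ?_, fun p hp => hun _ Subset.rfl p hp (hall p hp)⟩
    obtain ⟨p0, hp0⟩ := List.exists_mem_of_length_pos (l := l) (by omega)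
    obtain ⟨v1, hv1⟩ := p0.nonempty
    have := CP.card_lt (ω := ω) hR hX U (mem_filter.2 ⟨List.mem_toFinset.2 hp0, hall p0 hp0⟩)
      (fun p hp => hU p (hUl p hp)) (fun p hp q hq => hO p (hUl p hp) q (hUl q hq))
      (fun hbad => hb v1 (hU p0 hp0 v1 hv1) ⟨X, Or.inl hXl,
        hXc.imp fun _ _ h => h.mono (by norm_num), hX v1 (hU p0 hp0 v1 hv1), hbad⟩)
    exact card_image_le.trans_lt (hXl ▸ this)

lemma CP.w'_eq_w {M : ℕ} {X : List V} (hX : ∀ a ∈ X, ∀ b ∈ X, C.Γ.Near C.m a b) {v0 : V}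
    (hv0 : v0 ∈ X) (hb : C.sbad ω v0) (hs : ¬ C.small M ω v0) {p : Pt V}
    (hp : ∀ v ∈ p.val.support, v ∈ X) : C.w' M ω p = C.w ω p := by
  rw [CP.w', CP.TW, if_neg, CP.w]
  rintro ⟨y, hy⟩
  obtain ⟨v, hv, h1, h2, _⟩ := C.mem_CW.1 hy
  exact hs (C.small_conn (.single ⟨h1, hb, hX v (hp v hv) v0 hv0⟩) h2)

end Det

end Vale.Agent.P184
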